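import Crest.Agent.MM.PhiLip

/-! # COSTB: bridge between the `ℝ≥0∞`-valued frozen cost and the real cost `G3`. -/

set_option autoImplicit false
set_option linter.unusedSectionVars false
open MeasureTheory Metric Set
open scoped ENNReal ContDiff RealInnerProductSpace
open Crest.AnalysisR.OT

namespace Crest.Agent.MM

variable {F : Type*} [NormedAddCommGroup F] [InnerProductSpace ℝ F]

theorem pairCost_eq (s : ℝ) {x y : F} (h : x ≠ y) :
    pairCost s x y = ENNReal.ofReal (phi s (x - y)) := by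
  unfold pairCost phi
  rw [ENNReal.ofReal_rpow_of_pos (norm_pos_iff.2 (sub_ne_zero.2 h))]

theorem pairCost_self {s : ℝ} (hs : 0 < s) (x : F) : pairCost s x x = ⊤ := by
  unfold pairCost
  rw [sub_self, norm_zero, ENNReal.ofReal_zero, ENNReal.zero_rpow_of_neg (neg_lt_zero.2 hs)]

private theorem phi_nonneg' (s : ℝ) (w : F) : 0 ≤ phi s w :=
  Real.rpow_nonneg (norm_nonneg _) _

theorem tripleCost_eq (s : ℝ) {x y z : F} (hxy : x ≠ y) (hxz : x ≠ z) (hyz : y ≠ z) :
    tripleCost s (x, y, z) = ENNReal.ofReal (G3 s x y z) := by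
  unfold tripleCost G3
  simp only
  rw [pairCost_eq s hxy, pairCost_eq s hxz, pairCost_eq s hyz,
    ENNReal.ofReal_add (add_nonneg (phi_nonneg' _ _) (phi_nonneg' _ _)) (phi_nonneg' _ _),
    ENNReal.ofReal_add (phi_nonneg' _ _) (phi_nonneg' _ _)]

theorem tripleCost_eq_top {s : ℝ} (hs : 0 < s) {x y z : F} (h : x = y ∨ x = z ∨ y = z) :
    tripleCost s (x, y, z) = ⊤ := by
  unfold tripleCost
  simp only
  rcases h with h | h | h
  · subst h
    rw [pairCost_self hs]; simp
  · subst h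
    rw [pairCost_self hs]; simp
  · subst h
    rw [pairCost_self hs]; simp

theorem measurable_tripleCost [MeasurableSpace F] [BorelSpace F] [SecondCountableTopology F] (s : ℝ) :
    Measurable (tripleCost s : F × F × F → ℝ≥0∞) := by
  have h : ∀ f g : F × F × F → F, Measurable f → Measurable g →
      Measurable (fun p => pairCost s (f p) (g p)) := by
    intro f g hf hg
    unfold pairCost
    exact ((ENNReal.measurable_ofReal.comp (hf.sub hg).norm)).pow_const _
  unfold tripleCost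
  exact ((h _ _ measurable_fst (measurable_fst.comp measurable_snd)).add
    (h _ _ measurable_fst (measurable_snd.comp measurable_snd))).add
    (h _ _ (measurable_fst.comp measurable_snd) (measurable_snd.comp measurable_snd))

theorem G3_nonneg (s : ℝ) (x y z : F) : 0 ≤ G3 s x y z := by
  unfold G3
  exact add_nonneg (add_nonneg (phi_nonneg' _ _) (phi_nonneg' _ _)) (phi_nonneg' _ _)

/-- on `r`-separated triples the cost is bounded. -/
theorem G3_le_of_sep {s : ℝ} (hs : 0 < s) {r : ℝ} (hr : 0 < r) {x y z : F} (h : Sep r (x, y, z)) :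
    G3 s x y z ≤ 3 * r ^ (-s) := by
  obtain ⟨h1, h2, h3⟩ := h
  have key : ∀ w : F, r ≤ ‖w‖ → phi s w ≤ r ^ (-s) := by
    intro w hw
    unfold phi
    exact Real.rpow_le_rpow_of_nonpos hr hw (by linarith)
  unfold G3
  have a1 := key _ h1
  have a2 := key _ h2
  have a3 := key _ h3
  simp only at a1 a2 a3
  linarith

/-- on `r`-separated triples the cost is Lipschitz. -/
theorem exists_tripleCost_lipschitz {s : ℝ} (hs : 0 < s) {r : ℝ} (hr : 0 < r) :
    ∃ L : ℝ, 0 < L ∧ ∀ p p' : F × F × F, Sep r p → Sep r p' →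
      tripleCost s p ≤ tripleCost s p' +
        ENNReal.ofReal (L * (‖p.1 - p'.1‖ + ‖p.2.1 - p'.2.1‖ + ‖p.2.2 - p'.2.2‖)) := by
  obtain ⟨L₀, hL₀, hL⟩ := exists_phi_lipschitz (F := F) hs hr
  refine ⟨2 * L₀, by positivity, ?_⟩
  rintro ⟨x, y, z⟩ ⟨x', y', z'⟩ ⟨h1, h2, h3⟩ ⟨h1', h2', h3'⟩
  simp only at h1 h2 h3 h1' h2' h3' ⊢
  have ne : ∀ a b : F, r ≤ ‖a - b‖ → a ≠ b := by
    intro a b hab h
    rw [h, sub_self, norm_zero] at hab
    linarith
  rw [tripleCost_eq s (ne _ _ h1) (ne _ _ h2) (ne _ _ h3),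
    tripleCost_eq s (ne _ _ h1') (ne _ _ h2') (ne _ _ h3'),
    ← ENNReal.ofReal_add (G3_nonneg _ _ _ _) (by positivity)]
  refine ENNReal.ofReal_le_ofReal ?_
  have tri : ∀ a b a' b' : F, ‖(a - b) - (a' - b')‖ ≤ ‖a - a'‖ + ‖b - b'‖ := by
    intro a b a' b'
    have : (a - b) - (a' - b') = (a - a') - (b - b') := by abel
    rw [this]
    exact norm_sub_le _ _
  have b1 := (abs_le.1 (hL _ _ h1 h1')).2
  have b2 := (abs_le.1 (hL _ _ h2 h2')).2
  have b3 := (abs_le.1 (hL _ _ h3 h3')).2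
  have c1 := mul_le_mul_of_nonneg_left (tri x y x' y') hL₀.le
  have c2 := mul_le_mul_of_nonneg_left (tri x z x' z') hL₀.le
  have c3 := mul_le_mul_of_nonneg_left (tri y z y' z') hL₀.le
  unfold G3
  nlinarith [b1, b2, b3, c1, c2, c3]

end Crest.Agent.MM
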