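import Crest.Agent.MM.Defs

/-! # COSTCMP: two measures with the same cell statistics have close costs if the cost oscillates little on charged cells.

`∫⁻ c ∂π = ∑_cells ∫⁻_cell c ∂π`.  On a cell with `π₀ cell = 0 = π cell` both integrals vanish.  Otherwise with
`i = ⨅ p ∈ cell, c p`: `∫⁻_cell c ∂π ≤ (i + e) π cell = (i + e) π₀ cell ≤ ∫⁻_cell c ∂π₀ + e π₀ cell`. -/

set_option autoImplicit false
open MeasureTheory Metric Set
open scoped ENNReal

namespace Crest.Agent.MM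

theorem cost_compare {X : Type*} [MeasurableSpace X] {ι : Type*} [Fintype ι]
    (Q : ι → Set X) (hQm : ∀ i, MeasurableSet (Q i)) (hQd : Pairwise (Function.onFun Disjoint Q))
    (hQc : ⋃ i, Q i = univ) (π π₀ : Measure (X × X × X))
    (hag : ∀ j k l, π (Q j ×ˢ Q k ×ˢ Q l) = π₀ (Q j ×ˢ Q k ×ˢ Q l))
    (c : X × X × X → ℝ≥0∞) (hc : Measurable c) (e : ℝ≥0∞)
    (hosc : ∀ j k l, π₀ (Q j ×ˢ Q k ×ˢ Q l) ≠ 0 →
      ∀ p ∈ Q j ×ˢ Q k ×ˢ Q l, ∀ p' ∈ Q j ×ˢ Q k ×ˢ Q l, c p ≤ c p' + e) :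
    ∫⁻ p, c p ∂π ≤ ∫⁻ p, c p ∂π₀ + e * π₀ univ := by
  classical
  set C : ι × ι × ι → Set (X × X × X) := fun I => Q I.1 ×ˢ Q I.2.1 ×ˢ Q I.2.2 with hC
  have hCm : ∀ I, MeasurableSet (C I) := fun I =>
    (hQm I.1).prod ((hQm I.2.1).prod (hQm I.2.2))
  have hCd : Pairwise (Function.onFun Disjoint C) := by
    rintro ⟨j, k, l⟩ ⟨j', k', l'⟩ hne
    simp only [Function.onFun, hC]
    rw [Set.disjoint_left]
    rintro ⟨x, y, z⟩ ⟨hx, hy, hz⟩ ⟨hx', hy', hz'⟩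
    apply hne
    have h1 : j = j' := by
      by_contra h
      exact Set.disjoint_left.1 (hQd h) hx hx'
    have h2 : k = k' := by
      by_contra h
      exact Set.disjoint_left.1 (hQd h) hy hy'
    have h3 : l = l' := by
      by_contra h
      exact Set.disjoint_left.1 (hQd h) hz hz'
    rw [h1, h2, h3]
  have hCc : ⋃ I, C I = univ := by
    rw [Set.eq_univ_iff_forall]
    rintro ⟨x, y, z⟩
    have hx : x ∈ ⋃ i, Q i := hQc ▸ mem_univ x
    have hy : y ∈ ⋃ i, Q i := hQc ▸ mem_univ y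
    have hz : z ∈ ⋃ i, Q i := hQc ▸ mem_univ z
    obtain ⟨j, hj⟩ := mem_iUnion.1 hx
    obtain ⟨k, hk⟩ := mem_iUnion.1 hy
    obtain ⟨l, hl⟩ := mem_iUnion.1 hz
    exact mem_iUnion.2 ⟨(j, k, l), hj, hk, hl⟩
  have hsum : ∀ ν : Measure (X × X × X), ∫⁻ p, c p ∂ν = ∑ I, ∫⁻ p in C I, c p ∂ν := by
    intro ν
    rw [← setLIntegral_univ, ← hCc, lintegral_iUnion hCm hCd, tsum_fintype]
  have hmass : π₀ univ = ∑ I, π₀ (C I) := by
    rw [← hCc, measure_iUnion hCd hCm, tsum_fintype]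
  rw [hsum π, hsum π₀, hmass, Finset.mul_sum, ← Finset.sum_add_distrib]
  refine Finset.sum_le_sum fun I _ => ?_
  have hagI : π (C I) = π₀ (C I) := hag I.1 I.2.1 I.2.2
  by_cases h0 : π₀ (C I) = 0
  · rw [setLIntegral_measure_zero _ _ (hagI.trans h0)]
    exact zero_le
  · set i : ℝ≥0∞ := ⨅ p ∈ C I, c p with hi
    have hle : ∀ p ∈ C I, c p ≤ i + e := by
      intro p hp
      rw [hi, ENNReal.iInf_add]
      refine le_iInf fun p' => ?_
      by_cases hp' : p' ∈ C I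
      · rw [iInf_pos hp']
        exact hosc I.1 I.2.1 I.2.2 h0 p hp p' hp'
      · rw [iInf_neg hp']
        simp
    calc ∫⁻ p in C I, c p ∂π ≤ ∫⁻ _ in C I, (i + e) ∂π := setLIntegral_mono' (hCm I) hle
      _ = (i + e) * π₀ (C I) := by rw [setLIntegral_const, hagI]
      _ = ∫⁻ _ in C I, i ∂π₀ + e * π₀ (C I) := by rw [setLIntegral_const, add_mul]
      _ ≤ ∫⁻ p in C I, c p ∂π₀ + e * π₀ (C I) := by
          gcongr ?_ + _
          exact setLIntegral_mono' (hCm I) fun p hp => iInf₂_le p hp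

end Crest.Agent.MM
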