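import Crest.Agent.MM.Defs

/-! # PART: a finite measurable partition of the space into small cells and junk outside a big ball.

Cover the compact `closedBall 0 R` by finitely many balls of radius `θ/2` (`IsCompact.elim_finite_subcover` /
`TotallyBounded`), add the junk set `(closedBall 0 R)ᶜ`, and disjointify (`disjointed` or by hand). -/

set_option autoImplicit false
open MeasureTheory Metric Set
open scoped ENNReal

namespace Crest.Agent.MM

theorem exists_partition {d : ℕ} (R θ : ℝ) (hθ : 0 < θ) :
    ∃ (n : ℕ) (Q : Fin n → Set (E d)), (∀ i, MeasurableSet (Q i)) ∧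
      Pairwise (Function.onFun Disjoint Q) ∧ ⋃ i, Q i = univ ∧
      ∀ i, (∀ x ∈ Q i, ∀ y ∈ Q i, ‖x - y‖ ≤ θ) ∨ Q i ⊆ (closedBall 0 R)ᶜ := by
  obtain ⟨t, -, htf, hcov⟩ :=
    (isCompact_closedBall (0 : E d) R).finite_cover_balls (half_pos hθ)
  obtain ⟨n, f, -, hf⟩ := htf.fin_param
  let B : Fin (n + 1) → Set (E d) :=
    Fin.cons (closedBall (0 : E d) R)ᶜ (fun i => ball (f i) (θ / 2))
  have hB0 : B 0 = (closedBall (0 : E d) R)ᶜ := rfl
  have hBs : ∀ j : Fin n, B j.succ = ball (f j) (θ / 2) := fun j => rfl
  have hBm : ∀ i, MeasurableSet (B i) := by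
    intro i
    refine Fin.cases ?_ (fun j => ?_) i
    · rw [hB0]; exact measurableSet_closedBall.compl
    · rw [hBs]; exact measurableSet_ball
  refine ⟨n + 1, disjointed B, ?_, disjoint_disjointed B, ?_, ?_⟩
  · intro i
    exact disjointedRec (fun _ _ ht => MeasurableSet.diff ht <| hBm _) (hBm i)
  · rw [iUnion_disjointed]
    refine eq_univ_of_forall (fun x => ?_)
    by_cases hx : x ∈ closedBall (0 : E d) R
    · have h1 := hcov hx
      simp only [mem_iUnion] at h1
      obtain ⟨y, hy, hxy⟩ := h1
      rw [← hf] at hy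
      obtain ⟨j, rfl⟩ := hy
      exact mem_iUnion.2 ⟨j.succ, by rw [hBs]; exact hxy⟩
    · exact mem_iUnion.2 ⟨0, by rw [hB0]; exact hx⟩
  · intro i
    have hsub := disjointed_subset B i
    revert hsub
    refine Fin.cases ?_ (fun j => ?_) i
    · intro hsub
      right
      rw [hB0] at hsub
      exact hsub
    · intro hsub
      left
      rw [hBs] at hsub
      intro x hx y hy
      have h1 : dist x (f j) < θ / 2 := hsub hx
      have h2 : dist y (f j) < θ / 2 := hsub hy
      have h3 : dist x y ≤ dist x (f j) + dist y (f j) := dist_triangle_right _ _ _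
      rw [← dist_eq_norm]
      linarith

end Crest.Agent.MM
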