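import Crest.Agent.MM.MongeCells
import Crest.Agent.MM.CostCompare
import Crest.Agent.MM.Partition
import Crest.Agent.MM.Cost

/-! # APPROX: Monge pairs approximate the cost of a separated coupling.

Let `L` be from `exists_tripleCost_lipschitz` for `r/2`.  Choose `θ ≤ r/4` with `ofReal (3 L θ) < ε`; take the partition
from `exists_partition R θ`, `T₂ T₃` from `monge_cells`, `π = μ.map (fun x => (x, T₂ x, T₃ x))` and apply `cost_compare`.
Oscillation hypothesis: a cell with `π₀ cell ≠ 0` involves no junk set (its `π₀`-measure would be `≤ μ junk = 0`) and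
contains an `r`-separated point (by `hsep`), hence all its points are `r/2`-separated.
`μ` is atomless since `μ ≪ volume` and `0 < d`.  `∫⁻ tripleCost ∂π₀ < ⊤` is needed for the strict inequality:
the cost is `≤ ofReal (3 r^(-s))` `π₀`-a.e. -/

set_option autoImplicit false
open MeasureTheory Metric Set
open scoped ENNReal
open Crest.AnalysisR.OT

namespace Crest.Agent.MM

/-- separation is stable under small perturbations. -/
theorem approx_sep_of_close {F : Type*} [NormedAddCommGroup F] {r θ : ℝ} (hθ : θ ≤ r / 4)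
    {p p₀ : F × F × F} (h₀ : Sep r p₀) (h1 : ‖p.1 - p₀.1‖ ≤ θ) (h2 : ‖p.2.1 - p₀.2.1‖ ≤ θ)
    (h3 : ‖p.2.2 - p₀.2.2‖ ≤ θ) : Sep (r / 2) p := by
  obtain ⟨a, b, c⟩ := h₀
  have key : ∀ x y x₀ y₀ : F, r ≤ ‖x₀ - y₀‖ → ‖x - x₀‖ ≤ θ → ‖y - y₀‖ ≤ θ → r / 2 ≤ ‖x - y‖ := by
    intro x y x₀ y₀ h hx hy
    have e : x₀ - y₀ = -(x - x₀) + (x - y) + (y - y₀) := by abel
    have : ‖x₀ - y₀‖ ≤ ‖x - x₀‖ + ‖x - y‖ + ‖y - y₀‖ := by
      rw [e]
      refine (norm_add_le _ _).trans ?_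
      gcongr
      refine (norm_add_le _ _).trans ?_
      rw [norm_neg]
    linarith
  exact ⟨key _ _ _ _ a h1 h2, key _ _ _ _ b h1 h3, key _ _ _ _ c h2 h3⟩

theorem approx_cost_le_of_sep {F : Type*} [NormedAddCommGroup F] [InnerProductSpace ℝ F]
    {s : ℝ} (hs : 0 < s) {r : ℝ} (hr : 0 < r) {p : F × F × F} (h : Sep r p) :
    tripleCost s p ≤ ENNReal.ofReal (3 * r ^ (-s)) := by
  obtain ⟨x, y, z⟩ := p
  have h' := h
  obtain ⟨a, b, c⟩ := h
  have ne : ∀ u v : F, r ≤ ‖u - v‖ → u ≠ v := by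
    intro u v huv e
    rw [e, sub_self, norm_zero] at huv
    linarith
  rw [tripleCost_eq s (ne _ _ a) (ne _ _ b) (ne _ _ c)]
  exact ENNReal.ofReal_le_ofReal (G3_le_of_sep hs hr h')

theorem approx {d : ℕ} (hd : 0 < d) {s : ℝ} (hs : 0 < s) (μ : Measure (E d)) [IsProbabilityMeasure μ]
    (hμ : μ ≪ volume) (R : ℝ) (hR : μ (closedBall 0 R)ᶜ = 0)
    (π₀ : Measure (E d × E d × E d)) (hπ₀ : IsCoupling₃ μ π₀) (r : ℝ) (hr : 0 < r)
    (hsep : ∀ᵐ p ∂π₀, Sep r p) (ε : ℝ≥0∞) (hε : 0 < ε) :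
    ∃ T₂ T₃ : E d → E d, Measurable T₂ ∧ Measurable T₃ ∧ μ.map T₂ = μ ∧ μ.map T₃ = μ ∧
      ∫⁻ x, tripleCost s (x, T₂ x, T₃ x) ∂μ < ∫⁻ p, tripleCost s p ∂π₀ + ε := by
  classical
  haveI : Nonempty (Fin d) := ⟨⟨0, hd⟩⟩
  haveI : Nontrivial (E d) := inferInstance
  haveI : NullSingletonClass μ := ⟨fun x => hμ (measure_singleton x)⟩
  obtain ⟨L, hL0, hLip⟩ := exists_tripleCost_lipschitz (F := E d) hs (r := r / 2) (by positivity)
  obtain ⟨δ, hδ0, hδε⟩ := ENNReal.lt_iff_exists_nnreal_btwn.1 hε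
  have hδ0' : (0 : ℝ) < δ := by exact_mod_cast hδ0
  set θ : ℝ := min (r / 4) (δ / (3 * L)) with hθdef
  have hθ0 : 0 < θ := lt_min (by positivity) (by positivity)
  have hθr : θ ≤ r / 4 := min_le_left _ _
  have hθδ : 3 * L * θ ≤ δ := by
    have : θ ≤ δ / (3 * L) := min_le_right _ _
    rw [le_div_iff₀ (by positivity)] at this
    linarith
  obtain ⟨n, Q, hQm, hQd, hQc, hQ⟩ := exists_partition (d := d) R θ hθ0
  obtain ⟨T₂, T₃, hT₂, hT₃, hm₂, hm₃, hcell⟩ := monge_cells μ Q hQm hQd hQc π₀ hπ₀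
  refine ⟨T₂, T₃, hT₂, hT₃, hm₂, hm₃, ?_⟩
  have hTm : Measurable (fun x => (x, T₂ x, T₃ x)) := measurable_id.prodMk (hT₂.prodMk hT₃)
  have hcm : Measurable (tripleCost s : E d × E d × E d → ℝ≥0∞) := measurable_tripleCost s
  have huniv : π₀ univ = 1 := by
    have h1 := hπ₀.1
    have : (π₀.map (fun p => p.1)) univ = μ univ := by rw [h1]
    rw [Measure.map_apply measurable_fst MeasurableSet.univ, preimage_univ] at this
    rw [this, measure_univ]
  -- junk sets are not charged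
  have hj1 : ∀ A : Set (E d), MeasurableSet A → μ A = 0 → π₀ ((fun p : E d × E d × E d => p.1) ⁻¹' A) = 0 := by
    intro A hA h0
    rw [← Measure.map_apply measurable_fst hA, hπ₀.1, h0]
  have hj2 : ∀ A : Set (E d), MeasurableSet A → μ A = 0 → π₀ ((fun p : E d × E d × E d => p.2.1) ⁻¹' A) = 0 := by
    intro A hA h0
    have hm : Measurable (fun p : E d × E d × E d => p.2.1) := measurable_fst.comp measurable_snd
    rw [← Measure.map_apply hm hA, hπ₀.2.1, h0]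
  have hj3 : ∀ A : Set (E d), MeasurableSet A → μ A = 0 → π₀ ((fun p : E d × E d × E d => p.2.2) ⁻¹' A) = 0 := by
    intro A hA h0
    have hm : Measurable (fun p : E d × E d × E d => p.2.2) := measurable_snd.comp measurable_snd
    rw [← Measure.map_apply hm hA, hπ₀.2.2, h0]
  have hjunk : MeasurableSet ((closedBall (0 : E d) R)ᶜ) := isClosed_closedBall.measurableSet.compl
  have hcmp := cost_compare Q hQm hQd hQc (μ.map (fun x => (x, T₂ x, T₃ x))) π₀ ?_
    (tripleCost s) hcm (ENNReal.ofReal (3 * L * θ)) ?_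
  · rw [lintegral_map hcm hTm, huniv, mul_one] at hcmp
    refine lt_of_le_of_lt hcmp ?_
    have hfin : ∫⁻ p, tripleCost s p ∂π₀ ≠ ⊤ := by
      have : ∫⁻ p, tripleCost s p ∂π₀ ≤ ∫⁻ _p, ENNReal.ofReal (3 * r ^ (-s)) ∂π₀ := by
        refine lintegral_mono_ae ?_
        filter_upwards [hsep] with p hp
        exact approx_cost_le_of_sep hs hr hp
      rw [lintegral_const, huniv, mul_one] at this
      exact ne_top_of_le_ne_top ENNReal.ofReal_ne_top this
    refine ENNReal.add_lt_add_left hfin ?_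
    refine lt_of_le_of_lt (ENNReal.ofReal_le_ofReal hθδ) ?_
    rwa [ENNReal.ofReal_coe_nnreal]
  · intro j k l
    rw [Measure.map_apply hTm ((hQm j).prod ((hQm k).prod (hQm l))), ← hcell j k l]
    congr 1
    ext x
    simp [and_assoc]
  · intro j k l hne p hp p' hp'
    -- no junk
    have hsmall : ∀ i, (∃ f : E d × E d × E d → E d, (∀ A : Set (E d), MeasurableSet A → μ A = 0 → π₀ (f ⁻¹' A) = 0) ∧
        Q j ×ˢ Q k ×ˢ Q l ⊆ f ⁻¹' (Q i)) → ∀ x ∈ Q i, ∀ y ∈ Q i, ‖x - y‖ ≤ θ := by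
      intro i ⟨f, hf, hsub⟩
      rcases hQ i with h | h
      · exact h
      · exfalso
        apply hne
        have h0 : μ (Q i) = 0 := measure_mono_null h hR
        exact measure_mono_null hsub (hf _ (hQm i) h0)
    have hsj := hsmall j ⟨_, hj1, fun q hq => hq.1⟩
    have hsk := hsmall k ⟨_, hj2, fun q hq => hq.2.1⟩
    have hsl := hsmall l ⟨_, hj3, fun q hq => hq.2.2⟩
    -- a separated point
    obtain ⟨p₀, hp₀, hp₀s⟩ : ∃ p₀ ∈ Q j ×ˢ Q k ×ˢ Q l, Sep r p₀ := by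
      by_contra hcon
      push Not at hcon
      apply hne
      refine measure_mono_null (fun q hq => ?_) (ae_iff.1 hsep)
      exact hcon q hq
    have hps : Sep (r / 2) p := approx_sep_of_close hθr hp₀s (hsj _ hp.1 _ hp₀.1)
      (hsk _ hp.2.1 _ hp₀.2.1) (hsl _ hp.2.2 _ hp₀.2.2)
    have hps' : Sep (r / 2) p' := approx_sep_of_close hθr hp₀s (hsj _ hp'.1 _ hp₀.1)
      (hsk _ hp'.2.1 _ hp₀.2.1) (hsl _ hp'.2.2 _ hp₀.2.2)
    refine (hLip p p' hps hps').trans ?_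
    refine add_le_add le_rfl (ENNReal.ofReal_le_ofReal ?_)
    have a1 := hsj _ hp.1 _ hp'.1
    have a2 := hsk _ hp.2.1 _ hp'.2.1
    have a3 := hsl _ hp.2.2 _ hp'.2.2
    nlinarith

end Crest.Agent.MM
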