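import Mathlib

/-! # Auxiliary lemmas on product cells (used by COSTCMP and CELLS). -/

set_option autoImplicit false
open MeasureTheory Set
open scoped ENNReal

namespace Crest.Agent.MM

variable {X : Type*}

/-- the product cell of index `k`. -/
def cell {ι : Type*} (C : ι → Set X) (k : ι × ι × ι) : Set (X × X × X) :=
  C k.1 ×ˢ C k.2.1 ×ˢ C k.2.2

theorem cell_measurable [MeasurableSpace X] {ι : Type*} {C : ι → Set X}
    (hCm : ∀ i, MeasurableSet (C i)) (k : ι × ι × ι) : MeasurableSet (cell C k) :=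
  (hCm _).prod ((hCm _).prod (hCm _))

theorem cell_disjoint {ι : Type*} {C : ι → Set X}
    (hCd : Pairwise (Function.onFun Disjoint C)) :
    Pairwise (Function.onFun Disjoint (cell C)) := by
  intro k l hkl
  rw [Function.onFun, Set.disjoint_left]
  rintro ⟨x, y, z⟩ ⟨h1, h2, h3⟩ ⟨h1', h2', h3'⟩
  apply hkl
  have e1 : k.1 = l.1 := by
    by_contra h; exact (disjoint_left.1 (hCd h)) h1 h1'
  have e2 : k.2.1 = l.2.1 := by
    by_contra h; exact (disjoint_left.1 (hCd h)) h2 h2'
  have e3 : k.2.2 = l.2.2 := by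
    by_contra h; exact (disjoint_left.1 (hCd h)) h3 h3'
  exact Prod.ext e1 (Prod.ext e2 e3)

theorem cell_cover {ι : Type*} {C : ι → Set X} (hCu : ⋃ i, C i = univ) (p : X × X × X) :
    ∃ k, p ∈ cell C k := by
  have h : ∀ x : X, ∃ i, x ∈ C i := fun x => by
    have : x ∈ ⋃ i, C i := by rw [hCu]; trivial
    simpa using this
  obtain ⟨i, hi⟩ := h p.1
  obtain ⟨j, hj⟩ := h p.2.1
  obtain ⟨k, hk⟩ := h p.2.2
  exact ⟨(i, j, k), hi, hj, hk⟩

theorem iUnion_cell {ι : Type*} {C : ι → Set X} (hCu : ⋃ i, C i = univ) :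
    ⋃ k, cell C k = univ := by
  ext p
  simpa using cell_cover hCu p

/-- marginal sums of the cell weights. -/
theorem marginal_sum [MeasurableSpace X] {μ : Measure X} {ι : Type*} [Fintype ι] [DecidableEq ι]
    (C : ι → Set X) (hCm : ∀ i, MeasurableSet (C i))
    (hCd : Pairwise (Function.onFun Disjoint C)) (hCu : ⋃ i, C i = univ)
    (π₀ : Measure (X × X × X)) (pr : X × X × X → X) (hpr : Measurable pr)
    (hmap : π₀.map pr = μ) (f : ι × ι × ι → ι)
    (hf : ∀ k p, p ∈ cell C k → pr p ∈ C (f k)) (i : ι) :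
    ∑ k ∈ Finset.univ.filter (fun k => f k = i), π₀ (cell C k) = μ (C i) := by
  rw [← hmap, Measure.map_apply hpr (hCm i)]
  rw [← measure_biUnion_finset (fun k _ l _ hkl => cell_disjoint hCd hkl)
    (fun k _ => cell_measurable hCm k)]
  congr 1
  ext p
  simp only [Finset.mem_filter, Finset.mem_univ, true_and, mem_iUnion, exists_prop, mem_preimage]
  constructor
  · rintro ⟨k, rfl, hp⟩
    exact hf k p hp
  · intro hp
    obtain ⟨k, hk⟩ := cell_cover hCu p
    refine ⟨k, ?_, hk⟩
    by_contra h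
    exact (disjoint_left.1 (hCd h)) (hf k p hk) hp

theorem lintegral_eq_sum_cells [MeasurableSpace X] {ι : Type*} [Fintype ι]
    {C : ι → Set X} (hCm : ∀ i, MeasurableSet (C i))
    (hCd : Pairwise (Function.onFun Disjoint C)) (hCu : ⋃ i, C i = univ)
    (π : Measure (X × X × X)) (c : X × X × X → ℝ≥0∞) :
    ∫⁻ p, c p ∂π = ∑ k, ∫⁻ p in cell C k, c p ∂π := by
  have := lintegral_iUnion (μ := π) (cell_measurable hCm) (cell_disjoint hCd) c
  rw [tsum_fintype, iUnion_cell hCu, Measure.restrict_univ] at this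
  exact this

theorem measure_univ_eq_sum_cells [MeasurableSpace X] {ι : Type*} [Fintype ι]
    {C : ι → Set X} (hCm : ∀ i, MeasurableSet (C i))
    (hCd : Pairwise (Function.onFun Disjoint C)) (hCu : ⋃ i, C i = univ)
    (π : Measure (X × X × X)) :
    π univ = ∑ k, π (cell C k) := by
  have := measure_iUnion (μ := π) (cell_disjoint hCd) (cell_measurable hCm)
  rw [tsum_fintype, iUnion_cell hCu] at this
  exact this

end Crest.Agent.MM
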