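import Mathlib
import Crest.Prelude.Def_MultiMarginal

/-!
# S0175 (row 130): common definitions.  FROZEN — do not edit.
-/

set_option autoImplicit false
open MeasureTheory Metric Set
open scoped ENNReal ContDiff RealInnerProductSpace

namespace Crest.Agent.MM

/-- ambient space -/
abbrev E (d : ℕ) := EuclideanSpace ℝ (Fin d)

/-- the real pair cost `‖w‖^(-s)` as a function of the difference vector. -/
noncomputable def phi {F : Type*} [NormedAddCommGroup F] (s : ℝ) (w : F) : ℝ := ‖w‖ ^ (-s)

/-- the gradient of `phi s` (away from `0`). -/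
noncomputable def gphi {F : Type*} [NormedAddCommGroup F] [NormedSpace ℝ F] (s : ℝ) (w : F) : F :=
  (-s * ‖w‖ ^ (-s - 2)) • w

/-- the real three-body cost. -/
noncomputable def G3 {F : Type*} [NormedAddCommGroup F] (s : ℝ) (x y z : F) : ℝ :=
  phi s (x - y) + phi s (x - z) + phi s (y - z)

/-- concave quadratic potential centred at `c` with value `V`, slope `p`, curvature `-M`. -/
noncomputable def vq {F : Type*} [NormedAddCommGroup F] [InnerProductSpace ℝ F]
    (V M : ℝ) (p c x : F) : ℝ :=
  V + ⟪p, x - c⟫ - M / 2 * ‖x - c‖ ^ 2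

/-- all three pairwise distances of the triple are at least `r`. -/
def Sep {F : Type*} [NormedAddCommGroup F] (r : ℝ) (p : F × F × F) : Prop :=
  r ≤ ‖p.1 - p.2.1‖ ∧ r ≤ ‖p.1 - p.2.2‖ ∧ r ≤ ‖p.2.1 - p.2.2‖

end Crest.Agent.MM
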