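import Crest.Agent.MM.SysDefs

/-!
# S0175: densities, the marginal and the optimal plan — definitions.  FROZEN — do not edit.
-/

set_option autoImplicit false
open MeasureTheory Metric Set
open scoped ENNReal ContDiff RealInnerProductSpace
open Crest.AnalysisR.OT

namespace Crest.Agent.MM

/-- square roots of the nine density pieces. `η i` lives on `A_i`, `θ i` on `B_{i+1}` (push-forward of `η i ^2` under `β i`),
`θ' i` on `B_{i+2}` (push-forward under `β' i`). -/
structure Dens {d : ℕ} {s : ℝ} (Y : Sys d s) where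
  η : Fin 3 → E d → ℝ
  θ : Fin 3 → E d → ℝ
  θ' : Fin 3 → E d → ℝ
  η_smooth : ∀ i, ContDiff ℝ ∞ (η i)
  θ_smooth : ∀ i, ContDiff ℝ ∞ (θ i)
  θ'_smooth : ∀ i, ContDiff ℝ ∞ (θ' i)
  η_nonneg : ∀ i x, 0 ≤ η i x
  θ_nonneg : ∀ i x, 0 ≤ θ i x
  θ'_nonneg : ∀ i x, 0 ≤ θ' i x
  η_cpt : ∀ i, HasCompactSupport (η i)
  θ_cpt : ∀ i, HasCompactSupport (θ i)
  θ'_cpt : ∀ i, HasCompactSupport (θ' i)
  η_supp : ∀ i, tsupport (η i) ⊆ ball (Y.a i) Y.ε
  θ_supp : ∀ i, Function.support (θ i) ⊆ closedBall (Y.c (i + 1)) Y.δ₀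
  θ'_supp : ∀ i, Function.support (θ' i) ⊆ closedBall (Y.c (i + 2)) Y.δ₀
  push : ∀ i, (measOfDensity (fun x => η i x ^ 2)).map (Y.β i) = measOfDensity (fun x => θ i x ^ 2)
  push' : ∀ i, (measOfDensity (fun x => η i x ^ 2)).map (Y.β' i) = measOfDensity (fun x => θ' i x ^ 2)
  mass : ∀ i, measOfDensity (fun x => η i x ^ 2) univ = 1 / 9
  /-- in `B₁` -/
  nest1 : tsupport (θ 0) ⊆ Function.support (θ' 2)
  /-- in `B₂` -/
  nest2 : tsupport (θ' 0) ⊆ Function.support (θ 1)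
  /-- in `B₀` -/
  nest0 : tsupport (θ' 1) ⊆ Function.support (θ 2)

namespace Dens

variable {d : ℕ} {s : ℝ} {Y : Sys d s} (D : Dens Y)

/-- the density -/
noncomputable def rho (x : E d) : ℝ := ∑ i : Fin 3, (D.η i x ^ 2 + D.θ i x ^ 2 + D.θ' i x ^ 2)

/-- the base measures on the `A_i` -/
noncomputable def m (i : Fin 3) : Measure (E d) := measOfDensity (fun x => D.η i x ^ 2)

/-- the marginal -/
noncomputable def mu : Measure (E d) := measOfDensity D.rho

/-- the optimal plan: cyclic symmetrisation of the three graphs. -/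
noncomputable def pi0 : Measure (E d × E d × E d) :=
  ∑ i : Fin 3, ((D.m i).map (fun x => (x, Y.β i x, Y.β' i x)) +
    (D.m i).map (fun x => (Y.β i x, Y.β' i x, x)) + (D.m i).map (fun x => (Y.β' i x, x, Y.β i x)))

end Dens

end Crest.Agent.MM
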