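import Crest.Agent.MM.Defs

/-! # DET: the Jacobian determinant of a smooth map is smooth.

Hint.  `ContDiffOn.fderiv_of_isOpen` gives smoothness of `x ↦ fderiv ℝ f x`; then `det` is a polynomial in the matrix
entries w.r.t. a basis (`LinearMap.det_toMatrix`, `Matrix.det_apply`), each entry being a continuous linear functional
of the operator. -/

set_option autoImplicit false
open MeasureTheory Metric Set
open scoped ENNReal ContDiff RealInnerProductSpace

namespace Crest.Agent.MM

theorem contDiff_det {F : Type*} [NormedAddCommGroup F] [NormedSpace ℝ F] [FiniteDimensional ℝ F] :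
    ContDiff ℝ ∞ (fun A : F →L[ℝ] F => A.det) := by
  classical
  let b := Module.finBasis ℝ F
  have h1 : ∀ A : F →L[ℝ] F, A.det =
      ∑ σ : Equiv.Perm (Fin (Module.finrank ℝ F)), (Equiv.Perm.sign σ : ℤ) •
        ∏ i, b.repr (A (b i)) (σ i) := by
    intro A
    change LinearMap.det (A : F →ₗ[ℝ] F) = _
    rw [← LinearMap.det_toMatrix b, Matrix.det_apply]
    refine Finset.sum_congr rfl (fun σ _ => ?_)
    congr 1
    refine Finset.prod_congr rfl (fun i _ => ?_)
    rw [LinearMap.toMatrix_apply]
    rfl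
  have h2 : (fun A : F →L[ℝ] F => A.det) = fun A : F →L[ℝ] F =>
      ∑ σ : Equiv.Perm (Fin (Module.finrank ℝ F)), (Equiv.Perm.sign σ : ℤ) •
        ∏ i, b.repr (A (b i)) (σ i) := funext h1
  rw [h2]
  refine ContDiff.sum (fun σ _ => ?_)
  refine ContDiff.const_smul _ ?_
  refine contDiff_prod (fun i _ => ?_)
  have h3 : (fun A : F →L[ℝ] F => b.repr (A (b i)) (σ i)) =
      fun A : F →L[ℝ] F =>
        ((LinearMap.toContinuousLinearMap (b.coord (σ i))).comp
          (ContinuousLinearMap.apply ℝ F (b i))) A := by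
    funext A
    simp
  rw [h3]
  exact ContinuousLinearMap.contDiff _

theorem contDiffOn_det_fderiv {F : Type*} [NormedAddCommGroup F] [NormedSpace ℝ F]
    [FiniteDimensional ℝ F] {U : Set F} (hU : IsOpen U) {f : F → F} (hf : ContDiffOn ℝ ∞ f U) :
    ContDiffOn ℝ ∞ (fun x => (fderiv ℝ f x).det) U := by
  have h1 : ContDiffOn ℝ ∞ (fun x => fderiv ℝ f x) U :=
    hf.fderiv_of_isOpen hU (by simp)
  exact contDiff_det.comp_contDiffOn h1

end Crest.Agent.MM
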