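import Crest.Agent.MM.Diffeo
import Crest.Agent.MM.Det

/-! # PUSH: push-forward of a smooth compactly supported squared density under a diffeomorphism.

Hint.  Let `g` be the inverse from `diffeo`.  Put `θ y = η (g y) * |det Dβ (g y)|^(-1/2)` on `β '' U`, `0` elsewhere.
Smooth on the open set `β '' U` (`contDiffOn_det_fderiv`, determinant nonvanishing; `|t|^(-1/2) = (t^2)^(-1/4)`), and
`= 0` on the open set `(β '' tsupport η)ᶜ`; the two open sets cover the space.  Measure identity: test on a measurable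
set and use `MeasureTheory.lintegral_image_eq_lintegral_abs_det_fderiv_mul`. -/

set_option autoImplicit false
open MeasureTheory Metric Set
open scoped ENNReal ContDiff RealInnerProductSpace
open Crest.AnalysisR.OT

namespace Crest.Agent.MM

theorem push {d : ℕ} {U : Set (E d)} (hU : IsOpen U) {β : E d → E d} (hβm : Measurable β)
    (hβ : ContDiffOn ℝ ∞ β U) {K : ℝ} (hK : ∀ x ∈ U, ∀ y ∈ U, ‖x - y‖ ≤ K * ‖β x - β y‖)
    {η : E d → ℝ} (hη : ContDiff ℝ ∞ η) (hη0 : ∀ x, 0 ≤ η x) (hηc : HasCompactSupport η)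
    (hηU : tsupport η ⊆ U) :
    ∃ θ : E d → ℝ, ContDiff ℝ ∞ θ ∧ (∀ x, 0 ≤ θ x) ∧ HasCompactSupport θ ∧
      Function.support θ = β '' Function.support η ∧ tsupport θ ⊆ β '' tsupport η ∧
      (measOfDensity (fun x => η x ^ 2)).map β = measOfDensity (fun x => θ x ^ 2) := by
  obtain ⟨hVo, hdet, g, hg, hgβ⟩ := diffeo hU hβ hK
  have hJ := contDiffOn_det_fderiv hU hβ
  have hne : (∞ : WithTop ℕ∞) ≠ 0 := by simp
  have hinj : InjOn β U := by
    intro x hx y hy hxy
    have := hK x hx y hy
    rw [hxy, sub_self, norm_zero, mul_zero] at this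
    exact sub_eq_zero.1 (norm_le_zero_iff.1 this)
  set V := β '' U with hV
  set J : E d → ℝ := fun x => (fderiv ℝ β x).det with hJdef
  set w : E d → ℝ := fun x => (Real.sqrt |J x|)⁻¹ with hw
  have hJpos : ∀ x ∈ U, 0 < |J x| := fun x hx => abs_pos.2 (hdet x hx)
  have hwpos : ∀ x ∈ U, 0 < w x := fun x hx => inv_pos.2 (Real.sqrt_pos.2 (hJpos x hx))
  have hwsq : ∀ x ∈ U, |J x| * (w x) ^ 2 = 1 := by
    intro x hx
    simp only [hw, inv_pow]
    rw [Real.sq_sqrt (hJpos x hx).le]
    exact mul_inv_cancel₀ (hJpos x hx).ne'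
  have hwsm : ∀ x ∈ U, ContDiffAt ℝ ∞ w x := by
    intro x hx
    have h1 : ContDiffAt ℝ ∞ J x := hJ.contDiffAt (hU.mem_nhds hx)
    have h2 := h1.abs (hdet x hx)
    have h3 := h2.sqrt (hJpos x hx).ne'
    exact h3.inv (Real.sqrt_pos.2 (hJpos x hx)).ne'
  set θ : E d → ℝ := V.indicator (fun y => η (g y) * w (g y)) with hθ
  have hθβ : ∀ x ∈ U, θ (β x) = η x * w x := by
    intro x hx
    have : β x ∈ V := mem_image_of_mem β hx
    simp only [hθ, indicator_of_mem this, hgβ x hx]
  have hθV : ∀ y, y ∉ V → θ y = 0 := fun y hy => indicator_of_notMem hy _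
  set C := β '' tsupport η with hC
  have hCc : IsCompact C := hηc.isCompact.image_of_continuousOn (hβ.continuousOn.mono hηU)
  have hCV : C ⊆ V := image_mono hηU
  have hθC : ∀ y, y ∉ C → θ y = 0 := by
    intro y hy
    by_cases hyV : y ∈ V
    · obtain ⟨x, hx, rfl⟩ := hyV
      rw [hθβ x hx]
      have : x ∉ tsupport η := fun h => hy (mem_image_of_mem β h)
      rw [image_eq_zero_of_notMem_tsupport this, zero_mul]
    · exact hθV y hyV
  have hsupp : Function.support θ = β '' Function.support η := by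
    ext y
    constructor
    · intro hy
      have hyV : y ∈ V := by
        by_contra h
        exact hy (hθV y h)
      obtain ⟨x, hx, rfl⟩ := hyV
      refine ⟨x, ?_, rfl⟩
      intro h0
      apply hy
      rw [hθβ x hx, h0, zero_mul]
    · rintro ⟨x, hx, rfl⟩
      have hxU : x ∈ U := hηU (subset_tsupport η hx)
      rw [Function.mem_support, hθβ x hxU]
      exact mul_ne_zero hx (hwpos x hxU).ne'
  have hts : tsupport θ ⊆ C := by
    apply closure_minimal _ hCc.isClosed
    rw [hsupp]
    exact image_mono (subset_tsupport η)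
  refine ⟨θ, ?_, ?_, ?_, hsupp, hts, ?_⟩
  · rw [contDiff_iff_contDiffAt]
    intro y
    by_cases hy : y ∈ V
    · have h1 : ContDiffAt ℝ ∞ g y := hg.contDiffAt (hVo.mem_nhds hy)
      have hgy : g y ∈ U := by
        obtain ⟨x, hx, rfl⟩ := hy
        rw [hgβ x hx]; exact hx
      have h2 : ContDiffAt ℝ ∞ (fun y => η (g y) * w (g y)) y :=
        (hη.contDiffAt.comp y h1).mul ((hwsm _ hgy).comp y h1)
      refine h2.congr_of_eventuallyEq ?_
      filter_upwards [hVo.mem_nhds hy] with z hz
      simp only [hθ, indicator_of_mem hz]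
    · have hyC : y ∈ Cᶜ := fun h => hy (hCV h)
      have h2 : ContDiffAt ℝ ∞ (fun _ : E d => (0 : ℝ)) y := contDiffAt_const
      refine h2.congr_of_eventuallyEq ?_
      filter_upwards [hCc.isClosed.isOpen_compl.mem_nhds hyC] with z hz
      exact hθC z hz
  · intro y
    by_cases hy : y ∈ V
    · obtain ⟨x, hx, rfl⟩ := hy
      rw [hθβ x hx]
      exact mul_nonneg (hη0 x) (hwpos x hx).le
    · rw [hθV y hy]
  · exact hCc.of_isClosed_subset (isClosed_tsupport θ) hts
  · ext S hS
    rw [Measure.map_apply hβm hS]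
    unfold measOfDensity
    rw [withDensity_apply _ (hβm hS), withDensity_apply _ hS]
    have hA : MeasurableSet (β ⁻¹' S ∩ U) := (hβm hS).inter hU.measurableSet
    have e1 : ∫⁻ x in β ⁻¹' S, ENNReal.ofReal (η x ^ 2) =
        ∫⁻ x in β ⁻¹' S ∩ U, ENNReal.ofReal (η x ^ 2) := by
      rw [← lintegral_indicator (hβm hS), ← lintegral_indicator hA]
      congr 1
      ext x
      by_cases hx : x ∈ U
      · by_cases hxS : x ∈ β ⁻¹' S
        · rw [indicator_of_mem hxS, indicator_of_mem (show x ∈ β ⁻¹' S ∩ U from ⟨hxS, hx⟩)]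
        · rw [indicator_of_notMem hxS, indicator_of_notMem (fun h => hxS h.1)]
      · have h0 : η x = 0 := image_eq_zero_of_notMem_tsupport (fun h => hx (hηU h))
        rw [indicator_of_notMem (fun h : x ∈ β ⁻¹' S ∩ U => hx h.2)]
        by_cases hxS : x ∈ β ⁻¹' S
        · rw [indicator_of_mem hxS, h0]; simp
        · rw [indicator_of_notMem hxS]
    have e2 : ∫⁻ y in S, ENNReal.ofReal (θ y ^ 2) =
        ∫⁻ y in S ∩ V, ENNReal.ofReal (θ y ^ 2) := by
      rw [← lintegral_indicator hS, ← lintegral_indicator (hS.inter hVo.measurableSet)]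
      congr 1
      ext y
      by_cases hy : y ∈ V
      · by_cases hyS : y ∈ S
        · rw [indicator_of_mem hyS, indicator_of_mem (show y ∈ S ∩ V from ⟨hyS, hy⟩)]
        · rw [indicator_of_notMem hyS, indicator_of_notMem (fun h => hyS h.1)]
      · have h0 : θ y = 0 := hθV y hy
        rw [indicator_of_notMem (fun h : y ∈ S ∩ V => hy h.2)]
        by_cases hyS : y ∈ S
        · rw [indicator_of_mem hyS, h0]; simp
        · rw [indicator_of_notMem hyS]
    have e3 : S ∩ V = β '' (β ⁻¹' S ∩ U) := (image_preimage_inter β U S).symm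
    rw [e1, e2, e3]
    rw [lintegral_image_eq_lintegral_abs_det_fderiv_mul volume hA
      (f' := fun x => fderiv ℝ β x) ?_ (hinj.mono inter_subset_right)]
    · refine setLIntegral_congr_fun hA ?_
      intro x hx
      have hxU : x ∈ U := hx.2
      simp only []
      rw [hθβ x hxU, ← ENNReal.ofReal_mul (abs_nonneg _)]
      congr 1
      have := hwsq x hxU
      simp only [hJdef] at this
      calc η x ^ 2 = η x ^ 2 * 1 := by ring
        _ = η x ^ 2 * (|(fderiv ℝ β x).det| * w x ^ 2) := by rw [this]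
        _ = _ := by ring
    · intro x hx
      have hxU : x ∈ U := hx.2
      exact (((hβ.contDiffAt (hU.mem_nhds hxU)).differentiableAt hne).hasFDerivAt).hasFDerivWithinAt

end Crest.Agent.MM
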