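import Crest.Agent.MM.DensDefs
import Crest.Agent.MM.Push

/-! # DENS: existence of a `Dens Y`.

Radii: `ε₂ = ε/2`.  By `diffeo` (applied to `β 2`, `β' 2` on `ball (a 2) ε₂`, smooth + antilipschitz there) the images
`β 2 '' ball (a 2) ε₂ ∋ c 0` and `β' 2 '' ball (a 2) ε₂ ∋ c 1` are open.
Choose `ε₁ ≤ ε/2` with `β' 1 '' closedBall (a 1) ε₁ ⊆ β 2 '' ball (a 2) ε₂` (continuity of `β' 1` at `a 1`, `β' 1 (a 1) = c 0`).
`β 1 '' ball (a 1) ε₁ ∋ c 2` is open.  Choose `ε₀ ≤ ε/2` with `β 0 '' closedBall (a 0) ε₀ ⊆ β' 2 '' ball (a 2) ε₂` and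
`β' 0 '' closedBall (a 0) ε₀ ⊆ β 1 '' ball (a 1) ε₁`.
`η i = κ_i • bump` with `bump : ContDiffBump (a i)`, `rOut = ε_i` (support `= ball (a i) ε_i`, tsupport `= closedBall`), `κ_i > 0` chosen
so that `∫ η_i² = 1/9`.  `θ i`, `θ' i` from `push` with `U = ball (a i) ε`; `support θ = β '' support η`, `tsupport θ ⊆ β '' tsupport η`. -/

set_option autoImplicit false
open MeasureTheory Metric Set
open scoped ENNReal ContDiff RealInnerProductSpace
open Crest.AnalysisR.OT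

namespace Crest.Agent.MM

/-- a normalised smooth bump: `η ≥ 0` smooth, support `= ball a r`, `∫ η² = 1/9`. -/
theorem exists_bump {d : ℕ} (a : E d) {r : ℝ} (hr : 0 < r) :
    ∃ η : E d → ℝ, ContDiff ℝ ∞ η ∧ (∀ x, 0 ≤ η x) ∧ HasCompactSupport η ∧
      Function.support η = ball a r ∧ tsupport η = closedBall a r ∧
      measOfDensity (fun x => η x ^ 2) univ = 1 / 9 := by
  let f : ContDiffBump a := ⟨r / 2, r, by positivity, by linarith⟩
  have hfs : ContDiff ℝ ∞ (f : E d → ℝ) := f.contDiff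
  have hfc : HasCompactSupport (f : E d → ℝ) := f.hasCompactSupport
  have hsupp : Function.support (f : E d → ℝ) = ball a r := f.support_eq
  have hsqc : Continuous (fun x => (f x) ^ 2) := (hfs.continuous).pow 2
  have hsqcs : HasCompactSupport (fun x => (f x) ^ 2) := by
    have : (fun x => (f x) ^ 2) = fun x => f x * f x := by funext x; ring
    rw [this]
    exact hfc.mul_left
  have hI : 0 < ∫ x, (f x) ^ 2 := by
    refine hsqc.integral_pos_of_hasCompactSupport_nonneg_nonzero hsqcs (fun x => sq_nonneg _) (x := a) ?_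
    have : f a ≠ 0 := by
      have : a ∈ Function.support (f : E d → ℝ) := by rw [hsupp]; exact mem_ball_self hr
      exact this
    exact pow_ne_zero 2 this
  set I : ℝ := ∫ x, (f x) ^ 2 with hIdef
  set κ : ℝ := 1 / (3 * Real.sqrt I) with hκ
  have hκ0 : 0 < κ := by positivity
  have hκsq : κ ^ 2 * I = 1 / 9 := by
    rw [hκ, div_pow, mul_pow, Real.sq_sqrt hI.le]
    field_simp
    norm_num
  have hsuppη : Function.support (fun x => κ * f x) = ball a r := by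
    rw [← hsupp]
    ext x
    simp [hκ0.ne']
  refine ⟨fun x => κ * f x, contDiff_const.mul hfs, fun x => mul_nonneg hκ0.le f.nonneg,
    hfc.mul_left, hsuppη, ?_, ?_⟩
  · rw [tsupport, hsuppη, closure_ball a hr.ne']
  · unfold measOfDensity
    rw [withDensity_apply _ MeasurableSet.univ, Measure.restrict_univ]
    have hint : Integrable (fun x => (κ * f x) ^ 2) := by
      have : (fun x => (κ * f x) ^ 2) = fun x => κ ^ 2 * (f x) ^ 2 := by funext x; ring
      rw [this]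
      exact (hsqc.integrable_of_hasCompactSupport hsqcs).const_mul _
    rw [← ofReal_integral_eq_lintegral_ofReal hint (Filter.Eventually.of_forall fun x => sq_nonneg _)]
    have : ∫ x, (κ * f x) ^ 2 = κ ^ 2 * I := by
      rw [hIdef, ← integral_const_mul]
      congr 1
      funext x
      ring
    rw [this, hκsq, ENNReal.ofReal_div_of_pos (by norm_num)]
    simp

/-- the image of a smaller ball is open. -/
theorem dens_isOpen_image {d : ℕ} {f : E d → E d} {a : E d} {ε e : ℝ} (he : e ≤ ε)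
    (hf : ContDiffOn ℝ ∞ f (ball a ε))
    (hK : ∃ K : ℝ, ∀ x ∈ ball a ε, ∀ y ∈ ball a ε, ‖x - y‖ ≤ K * ‖f x - f y‖) :
    IsOpen (f '' ball a e) := by
  obtain ⟨K, hK⟩ := hK
  have hsub : ball a e ⊆ ball a ε := ball_subset_ball he
  exact (diffeo isOpen_ball (hf.mono hsub) (fun x hx y hy => hK x (hsub hx) y (hsub hy))).1

/-- a small closed ball is mapped into a given open neighbourhood of the image of the centre. -/
theorem dens_small_radius {d : ℕ} {f : E d → E d} {a : E d} {ε : ℝ} (hε : 0 < ε)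
    (hf : ContDiffOn ℝ ∞ f (ball a ε)) {W : Set (E d)} (hW : IsOpen W) (ha : f a ∈ W) :
    ∃ ρ : ℝ, 0 < ρ ∧ ∀ e : ℝ, e < ρ → f '' closedBall a e ⊆ W := by
  have hc : ContinuousAt f a :=
    (hf.continuousOn).continuousAt (isOpen_ball.mem_nhds (mem_ball_self hε))
  have : f ⁻¹' W ∈ nhds a := hc (hW.mem_nhds ha)
  obtain ⟨ρ, hρ, hsub⟩ := Metric.mem_nhds_iff.1 this
  refine ⟨ρ, hρ, fun e he => ?_⟩
  rintro _ ⟨x, hx, rfl⟩
  exact hsub (closedBall_subset_ball he hx)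

/-- choice of the nested radii. -/
theorem exists_radii {d : ℕ} {s : ℝ} (Y : Sys d s) :
    ∃ e : Fin 3 → ℝ, (∀ i, 0 < e i) ∧ (∀ i, e i < Y.ε) ∧
      Y.β 0 '' closedBall (Y.a 0) (e 0) ⊆ Y.β' 2 '' ball (Y.a 2) (e 2) ∧
      Y.β' 0 '' closedBall (Y.a 0) (e 0) ⊆ Y.β 1 '' ball (Y.a 1) (e 1) ∧
      Y.β' 1 '' closedBall (Y.a 1) (e 1) ⊆ Y.β 2 '' ball (Y.a 2) (e 2) := by
  have hε := Y.ε_pos
  have h2 : 0 < Y.ε / 2 := by positivity
  have h2' : Y.ε / 2 ≤ Y.ε := by linarith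
  -- level 2
  have hW2 : IsOpen (Y.β 2 '' ball (Y.a 2) (Y.ε / 2)) :=
    dens_isOpen_image h2' (Y.β_smooth 2) (Y.β_anti 2)
  have hW2' : IsOpen (Y.β' 2 '' ball (Y.a 2) (Y.ε / 2)) :=
    dens_isOpen_image h2' (Y.β'_smooth 2) (Y.β'_anti 2)
  have hc0 : Y.β' 1 (Y.a 1) ∈ Y.β 2 '' ball (Y.a 2) (Y.ε / 2) := by
    refine ⟨Y.a 2, mem_ball_self h2, ?_⟩
    rw [Y.β_center 2, Y.β'_center 1]
    rfl
  have hc1 : Y.β 0 (Y.a 0) ∈ Y.β' 2 '' ball (Y.a 2) (Y.ε / 2) := by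
    refine ⟨Y.a 2, mem_ball_self h2, ?_⟩
    rw [Y.β'_center 2, Y.β_center 0]
    rfl
  obtain ⟨ρ1, hρ1, hs1⟩ := dens_small_radius hε (Y.β'_smooth 1) hW2 hc0
  set e1 : ℝ := min (ρ1 / 2) (Y.ε / 2) with he1
  have he1pos : 0 < e1 := lt_min (by positivity) h2
  have he1ρ : e1 < ρ1 := lt_of_le_of_lt (min_le_left _ _) (by linarith)
  have he1ε : e1 ≤ Y.ε := (min_le_right _ _).trans h2'
  have he1ε' : e1 < Y.ε := lt_of_le_of_lt (min_le_right _ _) (by linarith)
  have hW1 : IsOpen (Y.β 1 '' ball (Y.a 1) e1) :=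
    dens_isOpen_image he1ε (Y.β_smooth 1) (Y.β_anti 1)
  have hc2 : Y.β' 0 (Y.a 0) ∈ Y.β 1 '' ball (Y.a 1) e1 := by
    refine ⟨Y.a 1, mem_ball_self he1pos, ?_⟩
    rw [Y.β_center 1, Y.β'_center 0]
    rfl
  obtain ⟨ρ0, hρ0, hs0⟩ := dens_small_radius hε (Y.β_smooth 0) hW2' hc1
  obtain ⟨ρ0', hρ0', hs0'⟩ := dens_small_radius hε (Y.β'_smooth 0) hW1 hc2
  set e0 : ℝ := min (min (ρ0 / 2) (ρ0' / 2)) (Y.ε / 2) with he0
  have he0pos : 0 < e0 := lt_min (lt_min (by positivity) (by positivity)) h2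
  have he0ρ : e0 < ρ0 :=
    lt_of_le_of_lt ((min_le_left _ _).trans (min_le_left _ _)) (by linarith)
  have he0ρ' : e0 < ρ0' :=
    lt_of_le_of_lt ((min_le_left _ _).trans (min_le_right _ _)) (by linarith)
  have he0ε' : e0 < Y.ε := lt_of_le_of_lt (min_le_right _ _) (by linarith)
  refine ⟨![e0, e1, Y.ε / 2], ?_, ?_, ?_, ?_, ?_⟩
  · intro i
    fin_cases i
    · exact he0pos
    · exact he1pos
    · exact h2
  · intro i
    fin_cases i
    · exact he0ε'
    · exact he1ε'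
    · show Y.ε / 2 < Y.ε
      linarith
  · exact hs0 e0 he0ρ
  · exact hs0' e0 he0ρ'
  · exact hs1 e1 he1ρ

theorem exists_dens {d : ℕ} {s : ℝ} (Y : Sys d s) : Nonempty (Dens Y) := by
  obtain ⟨e, he0, heε, hn1, hn2, hn0⟩ := exists_radii Y
  choose η hηs hη0 hηc hηsupp hηts hηm using fun i => exists_bump (Y.a i) (he0 i)
  have hηU : ∀ i, tsupport (η i) ⊆ ball (Y.a i) Y.ε := fun i => by
    rw [hηts i]
    exact closedBall_subset_ball (heε i)
  have H : ∀ i, ∃ θ : E d → ℝ, ContDiff ℝ ∞ θ ∧ (∀ x, 0 ≤ θ x) ∧ HasCompactSupport θ ∧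
      Function.support θ = Y.β i '' Function.support (η i) ∧ tsupport θ ⊆ Y.β i '' tsupport (η i) ∧
      (measOfDensity (fun x => η i x ^ 2)).map (Y.β i) = measOfDensity (fun x => θ x ^ 2) := by
    intro i
    obtain ⟨K, hK⟩ := Y.β_anti i
    exact push isOpen_ball (Y.β_meas i) (Y.β_smooth i) hK (hηs i) (hη0 i) (hηc i) (hηU i)
  have H' : ∀ i, ∃ θ : E d → ℝ, ContDiff ℝ ∞ θ ∧ (∀ x, 0 ≤ θ x) ∧ HasCompactSupport θ ∧
      Function.support θ = Y.β' i '' Function.support (η i) ∧ tsupport θ ⊆ Y.β' i '' tsupport (η i) ∧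
      (measOfDensity (fun x => η i x ^ 2)).map (Y.β' i) = measOfDensity (fun x => θ x ^ 2) := by
    intro i
    obtain ⟨K, hK⟩ := Y.β'_anti i
    exact push isOpen_ball (Y.β'_meas i) (Y.β'_smooth i) hK (hηs i) (hη0 i) (hηc i) (hηU i)
  choose θ hθs hθ0 hθc hθsupp hθts hθp using H
  choose θ' hθ's hθ'0 hθ'c hθ'supp hθ'ts hθ'p using H'
  have hball : ∀ i, ball (Y.a i) (e i) ⊆ ball (Y.a i) Y.ε := fun i => ball_subset_ball (heε i).le
  refine ⟨{ η := η, θ := θ, θ' := θ', η_smooth := hηs, θ_smooth := hθs, θ'_smooth := hθ's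
            η_nonneg := hη0, θ_nonneg := hθ0, θ'_nonneg := hθ'0
            η_cpt := hηc, θ_cpt := hθc, θ'_cpt := hθ'c, η_supp := hηU
            θ_supp := ?_, θ'_supp := ?_, push := hθp, push' := hθ'p, mass := hηm
            nest1 := ?_, nest2 := ?_, nest0 := ?_ }⟩
  · intro i
    rw [hθsupp i, hηsupp i]
    rintro _ ⟨x, hx, rfl⟩
    exact Y.β_maps i x (hball i hx)
  · intro i
    rw [hθ'supp i, hηsupp i]
    rintro _ ⟨x, hx, rfl⟩
    exact Y.β'_maps i x (hball i hx)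
  · refine (hθts 0).trans ?_
    rw [hηts 0, hθ'supp 2, hηsupp 2]
    exact hn1
  · refine (hθ'ts 0).trans ?_
    rw [hηts 0, hθsupp 1, hηsupp 1]
    exact hn2
  · refine (hθ'ts 1).trans ?_
    rw [hηts 1, hθsupp 2, hηsupp 2]
    exact hn0

end Crest.Agent.MM
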