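import Crest.Agent.MM.Defs

/-! # DIFFEO: a smooth antilipschitz map on an open set of a finite-dimensional space is a diffeomorphism
onto an open image.

Hint.  (1) antilipschitz ⇒ `‖v‖ ≤ K‖Df(x) v‖` ⇒ `Df(x)` injective ⇒ equivalence (finite dim)
(`LinearEquiv.ofInjectiveEndo`, `LinearEquiv.toContinuousLinearEquiv`, `ContinuousLinearMap.det`,
`LinearMap.det` nonzero iff bijective: `LinearEquiv.det_ne_zero`/`LinearMap.isUnit_det`…).
(2) image open: `HasStrictFDerivAt.map_nhds_eq_of_equiv` at each point.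
(3) build an `OpenPartialHomeomorph` (source `U`, target `f '' U`, inverse `Function.invFunOn f U`, continuous since
`K`-Lipschitz) and use `OpenPartialHomeomorph.contDiffAt_symm`. -/

set_option autoImplicit false
open MeasureTheory Metric Set
open scoped ENNReal ContDiff RealInnerProductSpace

namespace Crest.Agent.MM

/-- the derivative of an antilipschitz map is antilipschitz. -/
theorem diffeo_aux_norm_le {F : Type*} [NormedAddCommGroup F] [NormedSpace ℝ F]
    {U : Set F} (hU : IsOpen U) {f : F → F} {K : ℝ}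
    (hK : ∀ x ∈ U, ∀ y ∈ U, ‖x - y‖ ≤ K * ‖f x - f y‖) {x : F} (hx : x ∈ U) {A : F →L[ℝ] F}
    (hA : HasFDerivAt f A x) (v : F) : ‖v‖ ≤ K * ‖A v‖ := by
  have h1 := (hA.hasLineDerivAt v).tendsto_slope_zero
  have h2 : Filter.Tendsto (fun t : ℝ => K * ‖t⁻¹ • (f (x + t • v) - f x)‖) (nhdsWithin 0 {0}ᶜ)
      (nhds (K * ‖A v‖)) := (h1.norm).const_mul K
  refine ge_of_tendsto h2 ?_
  have h3 : Filter.Tendsto (fun t : ℝ => x + t • v) (nhds 0) (nhds x) := by
    have : Continuous (fun t : ℝ => x + t • v) := by fun_prop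
    simpa using this.tendsto 0
  have h4 : ∀ᶠ t : ℝ in nhds 0, x + t • v ∈ U := h3 (hU.mem_nhds hx)
  have h5 : ∀ᶠ t : ℝ in nhdsWithin 0 {0}ᶜ, x + t • v ∈ U := h4.filter_mono nhdsWithin_le_nhds
  filter_upwards [h5, self_mem_nhdsWithin] with t ht ht0
  have ht0' : t ≠ 0 := ht0
  have h6 := hK _ ht _ hx
  have h7 : ‖x + t • v - x‖ = |t| * ‖v‖ := by
    rw [add_sub_cancel_left, norm_smul, Real.norm_eq_abs]
  rw [h7] at h6
  rw [norm_smul, norm_inv, Real.norm_eq_abs]
  have hpos : 0 < |t| := abs_pos.2 ht0'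
  have : ‖v‖ = |t|⁻¹ * (|t| * ‖v‖) := by field_simp
  rw [this]
  calc |t|⁻¹ * (|t| * ‖v‖) ≤ |t|⁻¹ * (K * ‖f (x + t • v) - f x‖) := by gcongr
    _ = K * (|t|⁻¹ * ‖f (x + t • v) - f x‖) := by ring

theorem diffeo {F : Type*} [NormedAddCommGroup F] [NormedSpace ℝ F] [FiniteDimensional ℝ F]
    {U : Set F} (hU : IsOpen U) {f : F → F} (hf : ContDiffOn ℝ ∞ f U) {K : ℝ}
    (hK : ∀ x ∈ U, ∀ y ∈ U, ‖x - y‖ ≤ K * ‖f x - f y‖) :
    IsOpen (f '' U) ∧ (∀ x ∈ U, (fderiv ℝ f x).det ≠ 0) ∧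
      ∃ g : F → F, ContDiffOn ℝ ∞ g (f '' U) ∧ ∀ x ∈ U, g (f x) = x := by
  haveI : CompleteSpace F := FiniteDimensional.complete ℝ F
  have hcd : ∀ x ∈ U, ContDiffAt ℝ ∞ f x := fun x hx => hf.contDiffAt (hU.mem_nhds hx)
  have hne : (∞ : WithTop ℕ∞) ≠ 0 := by simp
  have hfd : ∀ x ∈ U, HasFDerivAt f (fderiv ℝ f x) x := fun x hx =>
    ((hcd x hx).differentiableAt hne).hasFDerivAt
  have hdet : ∀ x ∈ U, (fderiv ℝ f x).det ≠ 0 := by
    intro x hx h0
    have h1 : (⊥ : Submodule ℝ F) < LinearMap.ker ((fderiv ℝ f x : F →L[ℝ] F) : F →ₗ[ℝ] F) :=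
      LinearMap.bot_lt_ker_of_det_eq_zero h0
    obtain ⟨v, hv, hv0⟩ := SetLike.exists_of_lt h1
    have hv' : fderiv ℝ f x v = 0 := by simpa using hv
    have h2 := diffeo_aux_norm_le hU hK hx (hfd x hx) v
    rw [hv', norm_zero, mul_zero] at h2
    apply hv0
    have : v = 0 := norm_le_zero_iff.1 h2
    simp [this]
  have hinj : InjOn f U := by
    intro x hx y hy hxy
    have := hK x hx y hy
    rw [hxy, sub_self, norm_zero, mul_zero] at this
    exact sub_eq_zero.1 (norm_le_zero_iff.1 this)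
  have hfd' : ∀ x (hx : x ∈ U), HasFDerivAt f
      (((fderiv ℝ f x).toContinuousLinearEquivOfDetNeZero (hdet x hx) : F ≃L[ℝ] F) : F →L[ℝ] F) x := by
    intro x hx
    rw [ContinuousLinearMap.coe_toContinuousLinearEquivOfDetNeZero]
    exact hfd x hx
  refine ⟨?_, hdet, Function.invFunOn f U, ?_, fun x hx => hinj.leftInvOn_invFunOn hx⟩
  · rw [isOpen_iff_mem_nhds]
    rintro _ ⟨x, hx, rfl⟩
    have hs := (hcd x hx).hasStrictFDerivAt' (hfd' x hx) hne
    rw [← hs.map_nhds_eq_of_equiv]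
    exact Filter.image_mem_map (hU.mem_nhds hx)
  · rintro _ ⟨x, hx, rfl⟩
    apply ContDiffAt.contDiffWithinAt
    have hs := (hcd x hx).hasStrictFDerivAt' (hfd' x hx) hne
    have h1 := (hcd x hx).to_localInverse (hfd' x hx) hne
    refine h1.congr_of_eventuallyEq ?_
    have h2 := hs.eventually_right_inverse
    have h3 : ∀ᶠ y in nhds (f x), hs.localInverse f _ x y ∈ U := by
      have := hs.localInverse_continuousAt
      apply this
      rw [hs.localInverse_apply_image]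
      exact hU.mem_nhds hx
    filter_upwards [h2, h3] with y hy1 hy2
    have := hinj.leftInvOn_invFunOn hy2
    rw [hy1] at this
    exact this

end Crest.Agent.MM
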