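import Crest.Agent.MM.DualLe

/-! # DUAL2: equality for a plan concentrated on tight triples; equality case.

`dual_eq`: integrate the pointwise identity
`ofReal (u p.1 + K) + ofReal (u p.2.1 + K) + ofReal (u p.2.2 + K) = tripleCost s p + ofReal (3K)`.
`dual_ae`: `f ≤ g` a.e., `∫⁻ g ≤ ∫⁻ f < ⊤` ⇒ `f = g` a.e. (`ae_eq_of_ae_le_of_lintegral_le`), then unfold: the cost is finite,
so the coordinates are distinct, and `ofReal` can be removed since all arguments are `≥ 0`. -/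

set_option autoImplicit false
open MeasureTheory Metric Set
open scoped ENNReal ContDiff RealInnerProductSpace
open Crest.AnalysisR.OT

namespace Crest.Agent.MM

/-- integral of the cost plus the constant shift. -/
theorem lintegral_cost_add_const {d : ℕ} (s : ℝ) {μ : Measure (E d)} [IsProbabilityMeasure μ] (K : ℝ)
    {π : Measure (E d × E d × E d)} (hπ : IsCoupling₃ μ π) :
    ∫⁻ p, (tripleCost s p + ENNReal.ofReal (3 * K)) ∂π =
      ∫⁻ p, tripleCost s p ∂π + ENNReal.ofReal (3 * K) := by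
  rw [lintegral_add_right _ measurable_const, lintegral_const, coupling_univ hπ, measure_univ,
    mul_one]

theorem dual_eq {d : ℕ} {s : ℝ} (hs : 0 < s) (μ : Measure (E d)) [IsProbabilityMeasure μ]
    {u : E d → ℝ} (hu : Measurable u) {K : ℝ} (huK : ∀ x, |u x| ≤ K)
    {π₀ : Measure (E d × E d × E d)} (hπ₀ : IsCoupling₃ μ π₀)
    (tight : ∀ᵐ p ∂π₀, p.1 ≠ p.2.1 ∧ p.1 ≠ p.2.2 ∧ p.2.1 ≠ p.2.2 ∧
      u p.1 + u p.2.1 + u p.2.2 = G3 s p.1 p.2.1 p.2.2) :
    ∫⁻ p, tripleCost s p ∂π₀ + ENNReal.ofReal (3 * K) = 3 * ∫⁻ x, ENNReal.ofReal (u x + K) ∂μ := by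
  have hf : Measurable fun x => ENNReal.ofReal (u x + K) := (hu.add_const K).ennreal_ofReal
  rw [← coupling_lintegral_sum hf hπ₀, ← lintegral_cost_add_const s K hπ₀]
  refine lintegral_congr_ae ?_
  filter_upwards [tight] with p hp
  obtain ⟨x, y, z⟩ := p
  obtain ⟨hxy, hxz, hyz, he⟩ := hp
  simp only at hxy hxz hyz he ⊢
  have hK : 0 ≤ K := (abs_nonneg _).trans (huK x)
  rw [tripleCost_eq s hxy hxz hyz, ofReal_sum_shift huK,
    ← ENNReal.ofReal_add (G3_nonneg s x y z) (by positivity), he]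

theorem dual_ae {d : ℕ} {s : ℝ} (hs : 0 < s) (μ : Measure (E d)) [IsProbabilityMeasure μ]
    {u : E d → ℝ} (hu : Measurable u) {K : ℝ} (huK : ∀ x, |u x| ≤ K)
    {S : Set (E d)} (hS : MeasurableSet S) (hμS : μ Sᶜ = 0)
    (feas : ∀ x ∈ S, ∀ y ∈ S, ∀ z ∈ S, x ≠ y → x ≠ z → y ≠ z → u x + u y + u z ≤ G3 s x y z)
    {π : Measure (E d × E d × E d)} (hπ : IsCoupling₃ μ π)
    (h : ∫⁻ p, tripleCost s p ∂π + ENNReal.ofReal (3 * K) ≤ 3 * ∫⁻ x, ENNReal.ofReal (u x + K) ∂μ) :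
    ∀ᵐ p ∂π, p.1 ∈ S ∧ p.2.1 ∈ S ∧ p.2.2 ∈ S ∧ p.1 ≠ p.2.1 ∧ p.1 ≠ p.2.2 ∧ p.2.1 ≠ p.2.2 ∧
      u p.1 + u p.2.1 + u p.2.2 = G3 s p.1 p.2.1 p.2.2 := by
  have hf : Measurable fun x => ENNReal.ofReal (u x + K) := (hu.add_const K).ennreal_ofReal
  have hmem := coupling_ae_mem hS hμS hπ
  have hle : (fun p : E d × E d × E d =>
      ENNReal.ofReal (u p.1 + K) + ENNReal.ofReal (u p.2.1 + K) + ENNReal.ofReal (u p.2.2 + K))
      ≤ᵐ[π] fun p => tripleCost s p + ENNReal.ofReal (3 * K) := by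
    filter_upwards [hmem] with p hp
    exact dual_pointwise hs huK feas p hp.1 hp.2.1 hp.2.2
  have hfin : ∫⁻ p : E d × E d × E d,
      (ENNReal.ofReal (u p.1 + K) + ENNReal.ofReal (u p.2.1 + K) + ENNReal.ofReal (u p.2.2 + K)) ∂π
        ≠ ⊤ := by
    rw [coupling_lintegral_sum hf hπ]
    refine ENNReal.mul_ne_top (by simp) ?_
    have : ∫⁻ x, ENNReal.ofReal (u x + K) ∂μ ≤ ∫⁻ _x, ENNReal.ofReal (2 * K) ∂μ := by
      refine lintegral_mono fun x => ENNReal.ofReal_le_ofReal ?_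
      have := (abs_le.1 (huK x)).2
      linarith
    refine ne_top_of_le_ne_top ?_ this
    rw [lintegral_const, measure_univ, mul_one]
    exact ENNReal.ofReal_ne_top
  have hg : AEMeasurable (fun p : E d × E d × E d => tripleCost s p + ENNReal.ofReal (3 * K)) π :=
    ((measurable_tripleCost s).add measurable_const).aemeasurable
  have hint : ∫⁻ p, (tripleCost s p + ENNReal.ofReal (3 * K)) ∂π ≤
      ∫⁻ p : E d × E d × E d,
      (ENNReal.ofReal (u p.1 + K) + ENNReal.ofReal (u p.2.1 + K) + ENNReal.ofReal (u p.2.2 + K)) ∂π := by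
    rw [coupling_lintegral_sum hf hπ, lintegral_cost_add_const s K hπ]
    exact h
  have heq := ae_eq_of_ae_le_of_lintegral_le hle hfin hg hint
  filter_upwards [hmem, heq] with p hp he
  obtain ⟨x, y, z⟩ := p
  simp only at hp he ⊢
  have hK : 0 ≤ K := (abs_nonneg _).trans (huK x)
  have hd : ¬ (x = y ∨ x = z ∨ y = z) := by
    intro hd
    rw [tripleCost_eq_top hs hd, ofReal_sum_shift huK] at he
    simp at he
  push Not at hd
  obtain ⟨hxy, hxz, hyz⟩ := hd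
  refine ⟨hp.1, hp.2.1, hp.2.2, hxy, hxz, hyz, ?_⟩
  rw [tripleCost_eq s hxy hxz hyz, ofReal_sum_shift huK,
    ← ENNReal.ofReal_add (G3_nonneg s x y z) (by positivity)] at he
  have h0 : 0 ≤ G3 s x y z + 3 * K := add_nonneg (G3_nonneg s x y z) (by positivity)
  have h1 : 0 ≤ u x + u y + u z + 3 * K := by
    have := (abs_le.1 (huK x)).1
    have := (abs_le.1 (huK y)).1
    have := (abs_le.1 (huK z)).1
    linarith
  have := (ENNReal.ofReal_eq_ofReal_iff h1 h0).1 he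
  linarith

end Crest.Agent.MM
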