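import Mathlib
import Crest.Prelude.Def_MultiMarginal

/-! # Row 130 (S0175), generic piece [MM-GEN-DUAL]: weak Kantorovich duality for three marginals. -/

set_option autoImplicit false
open MeasureTheory
open scoped ENNReal
open Crest.AnalysisR.OT

namespace Crest.Agent.MM

variable {X : Type*} [MeasurableSpace X]

/-- the separable lower bound `u x₁ + u x₂ + u x₃`. -/
def usum (u : X → ℝ) (p : X × X × X) : ℝ := u p.1 + u p.2.1 + u p.2.2

theorem measurable_usum {u : X → ℝ} (hu : Measurable u) : Measurable (usum u) := by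
  unfold usum
  exact ((hu.comp measurable_fst).add (hu.comp (measurable_fst.comp measurable_snd))).add
    (hu.comp (measurable_snd.comp measurable_snd))

theorem measurable_p1 : Measurable (fun p : X × X × X => p.1) := measurable_fst
theorem measurable_p2 : Measurable (fun p : X × X × X => p.2.1) :=
  measurable_fst.comp measurable_snd
theorem measurable_p3 : Measurable (fun p : X × X × X => p.2.2) :=
  measurable_snd.comp measurable_snd

theorem integrable_usum {μ : Measure X} {π : Measure (X × X × X)} (hπ : IsCoupling₃ μ π)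
    {u : X → ℝ} (hi : Integrable u μ) : Integrable (usum u) π := by
  obtain ⟨h1, h2, h3⟩ := hπ
  have i1 : Integrable (fun p : X × X × X => u p.1) π := by
    have : Integrable u (π.map fun p => p.1) := by rw [h1]; exact hi
    exact this.comp_measurable measurable_p1
  have i2 : Integrable (fun p : X × X × X => u p.2.1) π := by
    have : Integrable u (π.map fun p => p.2.1) := by rw [h2]; exact hi
    exact this.comp_measurable measurable_p2
  have i3 : Integrable (fun p : X × X × X => u p.2.2) π := by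
    have : Integrable u (π.map fun p => p.2.2) := by rw [h3]; exact hi
    exact this.comp_measurable measurable_p3
  exact (i1.add i2).add i3

theorem integral_usum {μ : Measure X} {π : Measure (X × X × X)} (hπ : IsCoupling₃ μ π)
    {u : X → ℝ} (hi : Integrable u μ) : ∫ p, usum u p ∂π = 3 * ∫ x, u x ∂μ := by
  obtain ⟨h1, h2, h3⟩ := hπ
  have a1 : AEStronglyMeasurable u (π.map fun p => p.1) := by rw [h1]; exact hi.1
  have a2 : AEStronglyMeasurable u (π.map fun p => p.2.1) := by rw [h2]; exact hi.1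
  have a3 : AEStronglyMeasurable u (π.map fun p => p.2.2) := by rw [h3]; exact hi.1
  have i1 : Integrable (fun p : X × X × X => u p.1) π := by
    have : Integrable u (π.map fun p => p.1) := by rw [h1]; exact hi
    exact this.comp_measurable measurable_p1
  have i2 : Integrable (fun p : X × X × X => u p.2.1) π := by
    have : Integrable u (π.map fun p => p.2.1) := by rw [h2]; exact hi
    exact this.comp_measurable measurable_p2
  have i3 : Integrable (fun p : X × X × X => u p.2.2) π := by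
    have : Integrable u (π.map fun p => p.2.2) := by rw [h3]; exact hi
    exact this.comp_measurable measurable_p3
  have e1 : ∫ p, u p.1 ∂π = ∫ x, u x ∂μ := by
    rw [← integral_map measurable_p1.aemeasurable a1, h1]
  have e2 : ∫ p, u p.2.1 ∂π = ∫ x, u x ∂μ := by
    rw [← integral_map measurable_p2.aemeasurable a2, h2]
  have e3 : ∫ p, u p.2.2 ∂π = ∫ x, u x ∂μ := by
    rw [← integral_map measurable_p3.aemeasurable a3, h3]
  unfold usum
  have i12 : Integrable (fun p : X × X × X => u p.1 + u p.2.1) π := i1.add i2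
  rw [integral_add i12 i3, integral_add i1 i2, e1, e2, e3]
  ring

/-- a coupling of `μ` is concentrated on `S × S × S` if `μ Sᶜ = 0`. -/
theorem ae_mem_of_coupling {μ : Measure X} {π : Measure (X × X × X)} (hπ : IsCoupling₃ μ π)
    {S : Set X} (hS : MeasurableSet S) (hμS : μ Sᶜ = 0) :
    ∀ᵐ p ∂π, p.1 ∈ S ∧ p.2.1 ∈ S ∧ p.2.2 ∈ S := by
  obtain ⟨h1, h2, h3⟩ := hπ
  have a1 : ∀ᵐ p ∂π, p.1 ∈ S := by
    have : ∀ᵐ x ∂(π.map fun p => p.1), x ∈ S := by
      rw [h1]; exact (measure_eq_zero_iff_ae_notMem.1 hμS).mono fun x hx => by simpa using hx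
    exact ae_of_ae_map measurable_p1.aemeasurable this
  have a2 : ∀ᵐ p ∂π, p.2.1 ∈ S := by
    have : ∀ᵐ x ∂(π.map fun p => p.2.1), x ∈ S := by
      rw [h2]; exact (measure_eq_zero_iff_ae_notMem.1 hμS).mono fun x hx => by simpa using hx
    exact ae_of_ae_map measurable_p2.aemeasurable this
  have a3 : ∀ᵐ p ∂π, p.2.2 ∈ S := by
    have : ∀ᵐ x ∂(π.map fun p => p.2.2), x ∈ S := by
      rw [h3]; exact (measure_eq_zero_iff_ae_notMem.1 hμS).mono fun x hx => by simpa using hx
    exact ae_of_ae_map measurable_p3.aemeasurable this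
  filter_upwards [a1, a2, a3] with p x1 x2 x3 using ⟨x1, x2, x3⟩

theorem ofReal_integral_le_lintegral_ofReal {α : Type*} [MeasurableSpace α] {ν : Measure α}
    {f : α → ℝ} (hf : Integrable f ν) :
    ENNReal.ofReal (∫ x, f x ∂ν) ≤ ∫⁻ x, ENNReal.ofReal (f x) ∂ν := by
  rw [integral_eq_lintegral_pos_part_sub_lintegral_neg_part hf]
  refine le_trans (ENNReal.ofReal_le_ofReal (sub_le_self _ ENNReal.toReal_nonneg)) ?_
  exact ENNReal.ofReal_toReal_le

/-- **(a) weak duality.** -/
theorem weak_duality {μ : Measure X} {π : Measure (X × X × X)} (hπ : IsCoupling₃ μ π)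
    {c : X × X × X → ℝ≥0∞} {u : X → ℝ} (hi : Integrable u μ)
    {S : Set X} (hS : MeasurableSet S) (hμS : μ Sᶜ = 0)
    (hle : ∀ x ∈ S, ∀ y ∈ S, ∀ z ∈ S, ENNReal.ofReal (u x + u y + u z) ≤ c (x, y, z)) :
    ENNReal.ofReal (3 * ∫ x, u x ∂μ) ≤ ∫⁻ p, c p ∂π := by
  rw [← integral_usum hπ hi]
  refine (ofReal_integral_le_lintegral_ofReal (integrable_usum hπ hi)).trans ?_
  refine lintegral_mono_ae ?_
  filter_upwards [ae_mem_of_coupling hπ hS hμS] with p hp
  exact hle p.1 hp.1 p.2.1 hp.2.1 p.2.2 hp.2.2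

/-- **(b)** a coupling concentrated on the contact set has cost `3 ∫ u`. -/
theorem lintegral_eq_of_contact {μ : Measure X} {π : Measure (X × X × X)} (hπ : IsCoupling₃ μ π)
    {c : X × X × X → ℝ≥0∞} {u : X → ℝ} (hi : Integrable u μ)
    (h0 : ∀ᵐ p ∂π, 0 ≤ usum u p)
    (heq : ∀ᵐ p ∂π, c p = ENNReal.ofReal (usum u p)) :
    ∫⁻ p, c p ∂π = ENNReal.ofReal (3 * ∫ x, u x ∂μ) := by
  rw [← integral_usum hπ hi, ofReal_integral_eq_lintegral_ofReal (integrable_usum hπ hi) h0]
  exact lintegral_congr_ae heq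

/-- **(c)** an optimal coupling is concentrated on the contact set. -/
theorem ae_contact_of_le {μ : Measure X} {π : Measure (X × X × X)} (hπ : IsCoupling₃ μ π)
    {c : X × X × X → ℝ≥0∞} (hc : Measurable c) {u : X → ℝ} (hi : Integrable u μ)
    {S : Set X} (hS : MeasurableSet S) (hμS : μ Sᶜ = 0)
    (hle : ∀ x ∈ S, ∀ y ∈ S, ∀ z ∈ S, ENNReal.ofReal (u x + u y + u z) ≤ c (x, y, z))
    (hopt : ∫⁻ p, c p ∂π ≤ ENNReal.ofReal (3 * ∫ x, u x ∂μ)) :
    ∀ᵐ p ∂π, c p = ENNReal.ofReal (usum u p) := by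
  have h1 : (fun p => ENNReal.ofReal (usum u p)) ≤ᵐ[π] c := by
    filter_upwards [ae_mem_of_coupling hπ hS hμS] with p hp
    exact hle p.1 hp.1 p.2.1 hp.2.1 p.2.2 hp.2.2
  have h2 : ENNReal.ofReal (3 * ∫ x, u x ∂μ) ≤ ∫⁻ p, ENNReal.ofReal (usum u p) ∂π := by
    rw [← integral_usum hπ hi]
    exact ofReal_integral_le_lintegral_ofReal (integrable_usum hπ hi)
  have h3 : ∫⁻ p, ENNReal.ofReal (usum u p) ∂π ≠ ⊤ := by
    refine ne_top_of_le_ne_top ENNReal.ofReal_ne_top ((lintegral_mono_ae h1).trans hopt)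
  have := ae_eq_of_ae_le_of_lintegral_le h1 h3 hc.aemeasurable (hopt.trans h2)
  exact this.mono fun p hp => hp.symm

/-! ### Monge plans -/

/-- the plan induced by two maps. -/
noncomputable def mongePlan (μ : Measure X) (T₂ T₃ : X → X) : Measure (X × X × X) :=
  μ.map fun x => (x, T₂ x, T₃ x)

theorem measurable_mongeMap {T₂ T₃ : X → X} (h2 : Measurable T₂) (h3 : Measurable T₃) :
    Measurable fun x => (x, T₂ x, T₃ x) := measurable_id.prodMk (h2.prodMk h3)

theorem isCoupling_mongePlan {μ : Measure X} {T₂ T₃ : X → X} (h2 : Measurable T₂)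
    (h3 : Measurable T₃) (m2 : μ.map T₂ = μ) (m3 : μ.map T₃ = μ) :
    IsCoupling₃ μ (mongePlan μ T₂ T₃) := by
  unfold mongePlan
  refine ⟨?_, ?_, ?_⟩
  · rw [Measure.map_map measurable_p1 (measurable_mongeMap h2 h3)]
    exact Measure.map_id
  · rw [Measure.map_map measurable_p2 (measurable_mongeMap h2 h3)]
    exact m2
  · rw [Measure.map_map measurable_p3 (measurable_mongeMap h2 h3)]
    exact m3

theorem lintegral_mongePlan {μ : Measure X} {T₂ T₃ : X → X} (h2 : Measurable T₂)
    (h3 : Measurable T₃) {c : X × X × X → ℝ≥0∞} (hc : Measurable c) :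
    ∫⁻ p, c p ∂(mongePlan μ T₂ T₃) = ∫⁻ x, c (x, T₂ x, T₃ x) ∂μ := by
  unfold mongePlan
  rw [lintegral_map hc (measurable_mongeMap h2 h3)]

/-- **(d)** Monge form of (c). -/
theorem ae_contact_of_monge_le {μ : Measure X} {T₂ T₃ : X → X} (h2 : Measurable T₂)
    (h3 : Measurable T₃) (m2 : μ.map T₂ = μ) (m3 : μ.map T₃ = μ)
    {c : X × X × X → ℝ≥0∞} (hc : Measurable c) {u : X → ℝ} (hu : Measurable u)
    (hi : Integrable u μ)
    {S : Set X} (hS : MeasurableSet S) (hμS : μ Sᶜ = 0)
    (hle : ∀ x ∈ S, ∀ y ∈ S, ∀ z ∈ S, ENNReal.ofReal (u x + u y + u z) ≤ c (x, y, z))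
    (hopt : ∫⁻ x, c (x, T₂ x, T₃ x) ∂μ ≤ ENNReal.ofReal (3 * ∫ x, u x ∂μ)) :
    ∀ᵐ x ∂μ, c (x, T₂ x, T₃ x) = ENNReal.ofReal (u x + u (T₂ x) + u (T₃ x)) := by
  have h := ae_contact_of_le (isCoupling_mongePlan h2 h3 m2 m3) hc hi hS hμS hle
    (by rw [lintegral_mongePlan h2 h3 hc]; exact hopt)
  unfold mongePlan at h
  have hm : MeasurableSet {p : X × X × X | c p = ENNReal.ofReal (usum u p)} :=
    measurableSet_eq_fun hc (measurable_usum hu).ennreal_ofReal
  exact (ae_map_iff (measurable_mongeMap h2 h3).aemeasurable hm).1 h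

end Crest.Agent.MM
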