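import Crest.Agent.MM.Cost
import Crest.Agent.MM.GenDual

/-! # DUAL1: weak duality in `ℝ≥0∞`.

Proof.  `π`-a.e. `p ∈ S ×ˢ S ×ˢ S` (marginals).  There, pointwise,
`ofReal (u p.1 + K) + ofReal (u p.2.1 + K) + ofReal (u p.2.2 + K) ≤ tripleCost s p + ofReal (3K)`
(if two coordinates coincide the cost is `⊤`; otherwise `tripleCost_eq` and `feas`).  Integrate; each term on the left
integrates to `∫⁻ ofReal (u + K) ∂μ` by the marginal condition (`lintegral_map`); `π` is a probability measure. -/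

set_option autoImplicit false
open MeasureTheory Metric Set
open scoped ENNReal ContDiff RealInnerProductSpace
open Crest.AnalysisR.OT

namespace Crest.Agent.MM

/-- the left-hand side as a single `ofReal`. -/
theorem ofReal_sum_shift {d : ℕ} {u : E d → ℝ} {K : ℝ} (huK : ∀ x, |u x| ≤ K) (x y z : E d) :
    ENNReal.ofReal (u x + K) + ENNReal.ofReal (u y + K) + ENNReal.ofReal (u z + K) =
      ENNReal.ofReal (u x + u y + u z + 3 * K) := by
  have hx : 0 ≤ u x + K := by have := (abs_le.1 (huK x)).1; linarith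
  have hy : 0 ≤ u y + K := by have := (abs_le.1 (huK y)).1; linarith
  have hz : 0 ≤ u z + K := by have := (abs_le.1 (huK z)).1; linarith
  rw [← ENNReal.ofReal_add hx hy, ← ENNReal.ofReal_add (add_nonneg hx hy) hz]
  congr 1
  ring

/-- pointwise inequality -/
theorem dual_pointwise {d : ℕ} {s : ℝ} (hs : 0 < s) {u : E d → ℝ} {K : ℝ} (huK : ∀ x, |u x| ≤ K)
    {S : Set (E d)}
    (feas : ∀ x ∈ S, ∀ y ∈ S, ∀ z ∈ S, x ≠ y → x ≠ z → y ≠ z → u x + u y + u z ≤ G3 s x y z)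
    (p : E d × E d × E d) (h1 : p.1 ∈ S) (h2 : p.2.1 ∈ S) (h3 : p.2.2 ∈ S) :
    ENNReal.ofReal (u p.1 + K) + ENNReal.ofReal (u p.2.1 + K) + ENNReal.ofReal (u p.2.2 + K) ≤
      tripleCost s p + ENNReal.ofReal (3 * K) := by
  obtain ⟨x, y, z⟩ := p
  simp only at h1 h2 h3 ⊢
  have hK : 0 ≤ K := (abs_nonneg _).trans (huK x)
  by_cases hd : x = y ∨ x = z ∨ y = z
  · rw [tripleCost_eq_top hs hd]; simp
  · push Not at hd
    obtain ⟨hxy, hxz, hyz⟩ := hd
    rw [tripleCost_eq s hxy hxz hyz, ofReal_sum_shift huK,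
      ← ENNReal.ofReal_add (G3_nonneg s x y z) (by positivity)]
    apply ENNReal.ofReal_le_ofReal
    have := feas x h1 y h2 z h3 hxy hxz hyz
    linarith

/-- a coupling of `μ` is concentrated on `S³` when `μ Sᶜ = 0`. -/
theorem coupling_ae_mem {d : ℕ} {μ : Measure (E d)} {S : Set (E d)} (hS : MeasurableSet S)
    (hμS : μ Sᶜ = 0) {π : Measure (E d × E d × E d)} (hπ : IsCoupling₃ μ π) :
    ∀ᵐ p ∂π, p.1 ∈ S ∧ p.2.1 ∈ S ∧ p.2.2 ∈ S :=
  ae_mem_of_coupling hπ hS hμS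

/-- the integral of the separable part. -/
theorem coupling_lintegral_sum {d : ℕ} {μ : Measure (E d)} {f : E d → ℝ≥0∞} (hf : Measurable f)
    {π : Measure (E d × E d × E d)} (hπ : IsCoupling₃ μ π) :
    ∫⁻ p, (f p.1 + f p.2.1 + f p.2.2) ∂π = 3 * ∫⁻ x, f x ∂μ := by
  obtain ⟨h1, h2, h3⟩ := hπ
  have e1 : ∫⁻ p, f p.1 ∂π = ∫⁻ x, f x ∂μ := by
    rw [← lintegral_map hf measurable_p1, h1]
  have e2 : ∫⁻ p, f p.2.1 ∂π = ∫⁻ x, f x ∂μ := by
    rw [← lintegral_map hf measurable_p2, h2]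
  have e3 : ∫⁻ p, f p.2.2 ∂π = ∫⁻ x, f x ∂μ := by
    rw [← lintegral_map hf measurable_p3, h3]
  have m2 : Measurable (fun p : E d × E d × E d => f p.2.1) := hf.comp measurable_p2
  have m3 : Measurable (fun p : E d × E d × E d => f p.2.2) := hf.comp measurable_p3
  rw [lintegral_add_right _ m3, lintegral_add_right _ m2, e1, e2, e3]
  ring

theorem coupling_univ {d : ℕ} {μ : Measure (E d)} {π : Measure (E d × E d × E d)}
    (hπ : IsCoupling₃ μ π) : π univ = μ univ := by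
  rw [← hπ.1, Measure.map_apply measurable_p1 MeasurableSet.univ, preimage_univ]

theorem dual_le {d : ℕ} {s : ℝ} (hs : 0 < s) (μ : Measure (E d)) [IsProbabilityMeasure μ]
    {u : E d → ℝ} (hu : Measurable u) {K : ℝ} (huK : ∀ x, |u x| ≤ K)
    {S : Set (E d)} (hS : MeasurableSet S) (hμS : μ Sᶜ = 0)
    (feas : ∀ x ∈ S, ∀ y ∈ S, ∀ z ∈ S, x ≠ y → x ≠ z → y ≠ z → u x + u y + u z ≤ G3 s x y z)
    {π : Measure (E d × E d × E d)} (hπ : IsCoupling₃ μ π) :
    3 * ∫⁻ x, ENNReal.ofReal (u x + K) ∂μ ≤ ∫⁻ p, tripleCost s p ∂π + ENNReal.ofReal (3 * K) := by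
  have hf : Measurable fun x => ENNReal.ofReal (u x + K) := (hu.add_const K).ennreal_ofReal
  rw [← coupling_lintegral_sum hf hπ]
  have h1 : ∫⁻ p, (tripleCost s p + ENNReal.ofReal (3 * K)) ∂π =
      ∫⁻ p, tripleCost s p ∂π + ENNReal.ofReal (3 * K) := by
    rw [lintegral_add_right _ measurable_const, lintegral_const, coupling_univ hπ, measure_univ,
      mul_one]
  rw [← h1]
  refine lintegral_mono_ae ?_
  filter_upwards [coupling_ae_mem hS hμS hπ] with p hp
  exact dual_pointwise hs huK feas p hp.1 hp.2.1 hp.2.2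

end Crest.Agent.MM
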