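import Crest.Agent.MM.Defs

/-! # PHI2: Lipschitz bounds for `phi`, `gphi`.

Hint.  With `N w = ‖w‖^(-s-2) • w`, `r = ‖w‖`, `r' = ‖w'‖` one has the identity
`‖N w - N w'‖² = (r^(-s) - r'^(-s)) * (r^(-s-2) - r'^(-s-2)) + (r r')^(-s-2) * ‖w - w'‖²`
(expand, use `2⟪w,w'⟫ = r² + r'² - ‖w-w'‖²`).  The first product is `≥ 0` (both factors have the same sign), which
gives the lower bound with `k = s * R^(-s-2)`.  For the upper bound use the 1-D mean value inequality for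
`t ↦ t^(-s)`, `t ↦ t^(-s-2)` on `[r₀,∞)` and `|r - r'| ≤ ‖w - w'‖`. -/

set_option autoImplicit false
open MeasureTheory Metric Set
open scoped ENNReal ContDiff RealInnerProductSpace

namespace Crest.Agent.MM

variable {F : Type*} [NormedAddCommGroup F] [InnerProductSpace ℝ F]

/-- 1-D mean value inequality for negative powers. -/
theorem rpow_neg_lipschitz {p : ℝ} (hp : 0 < p) {r₀ : ℝ} (hr₀ : 0 < r₀) {r r' : ℝ}
    (hr : r₀ ≤ r) (hr' : r₀ ≤ r') :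
    |r ^ (-p) - r' ^ (-p)| ≤ p * r₀ ^ (-p - 1) * |r - r'| := by
  have key := Convex.norm_image_sub_le_of_norm_deriv_le (𝕜 := ℝ) (f := fun t : ℝ => t ^ (-p))
    (C := p * r₀ ^ (-p - 1)) (s := Set.Ici r₀) (x := r') (y := r)
    (fun x hx => by
      have hx0 : x ≠ 0 := (lt_of_lt_of_le hr₀ hx).ne'
      exact Real.differentiableAt_rpow_const_of_ne _ hx0)
    (fun x hx => by
      have hx0 : 0 < x := lt_of_lt_of_le hr₀ hx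
      rw [Real.deriv_rpow_const, Real.norm_eq_abs, abs_mul, abs_neg, abs_of_pos hp,
        abs_of_nonneg (Real.rpow_nonneg hx0.le _)]
      exact mul_le_mul_of_nonneg_left
        (Real.rpow_le_rpow_of_nonpos hr₀ hx (by linarith)) hp.le)
    (convex_Ici r₀) hr' hr
  simpa [Real.norm_eq_abs] using key

theorem norm_smul_sub_smul_sq (a b : ℝ) (w w' : F) :
    ‖a • w - b • w'‖ ^ 2 = (a * ‖w‖ ^ 2 - b * ‖w'‖ ^ 2) * (a - b) + a * b * ‖w - w'‖ ^ 2 := by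
  rw [norm_sub_sq_real, norm_sub_sq_real, norm_smul, norm_smul, inner_smul_left, inner_smul_right,
    mul_pow, mul_pow, Real.norm_eq_abs, Real.norm_eq_abs, sq_abs, sq_abs]
  simp only [RCLike.conj_to_real]
  ring

theorem rpow_neg_sub_two_mul_sq {s r : ℝ} (hr : 0 < r) : r ^ (-s - 2) * r ^ 2 = r ^ (-s) := by
  rw [← Real.rpow_natCast, ← Real.rpow_add hr]
  congr 1
  push_cast
  ring

theorem gphi_sub (s : ℝ) (w w' : F) :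
    gphi s w - gphi s w' = (-s) • (‖w‖ ^ (-s - 2) • w - ‖w'‖ ^ (-s - 2) • w') := by
  unfold gphi
  rw [smul_sub, smul_smul, smul_smul]

theorem exists_phi_lipschitz {s : ℝ} (hs : 0 < s) {r₀ : ℝ} (hr₀ : 0 < r₀) :
    ∃ L : ℝ, 0 < L ∧ ∀ w w' : F, r₀ ≤ ‖w‖ → r₀ ≤ ‖w'‖ → |phi s w - phi s w'| ≤ L * ‖w - w'‖ := by
  refine ⟨s * r₀ ^ (-s - 1), by positivity, fun w w' hw hw' => ?_⟩
  unfold phi
  refine (rpow_neg_lipschitz hs hr₀ hw hw').trans ?_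
  exact mul_le_mul_of_nonneg_left (abs_norm_sub_norm_le w w') (by positivity)

theorem exists_gphi_lipschitz {s : ℝ} (hs : 0 < s) {r₀ : ℝ} (hr₀ : 0 < r₀) :
    ∃ L : ℝ, 0 < L ∧ ∀ w w' : F, r₀ ≤ ‖w‖ → r₀ ≤ ‖w'‖ →
      ‖gphi s w - gphi s w'‖ ≤ L * ‖w - w'‖ := by
  set L₁ : ℝ := s * r₀ ^ (-s - 1) with hL₁
  set L₂ : ℝ := (s + 2) * r₀ ^ (-(s + 2) - 1) with hL₂
  set K : ℝ := L₁ * L₂ + r₀ ^ (-s - 2) * r₀ ^ (-s - 2) with hK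
  have hL₁0 : 0 < L₁ := by positivity
  have hL₂0 : 0 < L₂ := by positivity
  have hK0 : 0 < K := by positivity
  refine ⟨s * Real.sqrt K, by positivity, fun w w' hw hw' => ?_⟩
  have hr : 0 < ‖w‖ := lt_of_lt_of_le hr₀ hw
  have hr' : 0 < ‖w'‖ := lt_of_lt_of_le hr₀ hw'
  rw [gphi_sub, norm_smul, Real.norm_eq_abs, abs_neg, abs_of_pos hs, mul_assoc]
  refine mul_le_mul_of_nonneg_left ?_ hs.le
  have hd : |‖w‖ - ‖w'‖| ≤ ‖w - w'‖ := abs_norm_sub_norm_le w w'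
  have h1 : |‖w‖ ^ (-s) - ‖w'‖ ^ (-s)| ≤ L₁ * ‖w - w'‖ :=
    (rpow_neg_lipschitz hs hr₀ hw hw').trans (mul_le_mul_of_nonneg_left hd hL₁0.le)
  have h2 : |‖w‖ ^ (-s - 2) - ‖w'‖ ^ (-s - 2)| ≤ L₂ * ‖w - w'‖ := by
    have e : -s - 2 = -(s + 2) := by ring
    rw [e]
    exact (rpow_neg_lipschitz (p := s + 2) (by linarith) hr₀ hw hw').trans
      (mul_le_mul_of_nonneg_left hd hL₂0.le)
  have ha : ‖w‖ ^ (-s - 2) ≤ r₀ ^ (-s - 2) := Real.rpow_le_rpow_of_nonpos hr₀ hw (by linarith)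
  have hb : ‖w'‖ ^ (-s - 2) ≤ r₀ ^ (-s - 2) := Real.rpow_le_rpow_of_nonpos hr₀ hw' (by linarith)
  have ha0 : 0 ≤ ‖w‖ ^ (-s - 2) := Real.rpow_nonneg hr.le _
  have hb0 : 0 ≤ ‖w'‖ ^ (-s - 2) := Real.rpow_nonneg hr'.le _
  have hsq : ‖‖w‖ ^ (-s - 2) • w - ‖w'‖ ^ (-s - 2) • w'‖ ^ 2 ≤ K * ‖w - w'‖ ^ 2 := by
    rw [norm_smul_sub_smul_sq, rpow_neg_sub_two_mul_sq hr, rpow_neg_sub_two_mul_sq hr']
    have p1 : (‖w‖ ^ (-s) - ‖w'‖ ^ (-s)) * (‖w‖ ^ (-s - 2) - ‖w'‖ ^ (-s - 2))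
        ≤ (L₁ * ‖w - w'‖) * (L₂ * ‖w - w'‖) := by
      refine (le_abs_self _).trans ?_
      rw [abs_mul]
      exact mul_le_mul h1 h2 (abs_nonneg _) (by positivity)
    have p2 : ‖w‖ ^ (-s - 2) * ‖w'‖ ^ (-s - 2) * ‖w - w'‖ ^ 2
        ≤ r₀ ^ (-s - 2) * r₀ ^ (-s - 2) * ‖w - w'‖ ^ 2 :=
      mul_le_mul_of_nonneg_right (mul_le_mul ha hb hb0 (by positivity)) (by positivity)
    rw [hK]
    nlinarith [p1, p2]
  have : ‖‖w‖ ^ (-s - 2) • w - ‖w'‖ ^ (-s - 2) • w'‖ ≤ Real.sqrt (K * ‖w - w'‖ ^ 2) :=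
    Real.le_sqrt_of_sq_le hsq
  rwa [Real.sqrt_mul hK0.le, Real.sqrt_sq (norm_nonneg _)] at this

theorem exists_gphi_antilipschitz {s : ℝ} (hs : 0 < s) {R : ℝ} (hR : 0 < R) :
    ∃ k : ℝ, 0 < k ∧ ∀ w w' : F, w ≠ 0 → w' ≠ 0 → ‖w‖ ≤ R → ‖w'‖ ≤ R →
      k * ‖w - w'‖ ≤ ‖gphi s w - gphi s w'‖ := by
  refine ⟨s * R ^ (-s - 2), by positivity, fun w w' hw0 hw0' hw hw' => ?_⟩
  have hr : 0 < ‖w‖ := norm_pos_iff.mpr hw0
  have hr' : 0 < ‖w'‖ := norm_pos_iff.mpr hw0'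
  rw [gphi_sub, norm_smul, Real.norm_eq_abs, abs_neg, abs_of_pos hs, mul_assoc]
  refine mul_le_mul_of_nonneg_left ?_ hs.le
  have ha : R ^ (-s - 2) ≤ ‖w‖ ^ (-s - 2) := Real.rpow_le_rpow_of_nonpos hr hw (by linarith)
  have hb : R ^ (-s - 2) ≤ ‖w'‖ ^ (-s - 2) := Real.rpow_le_rpow_of_nonpos hr' hw' (by linarith)
  have hR0 : 0 < R ^ (-s - 2) := by positivity
  have hsq : (R ^ (-s - 2) * ‖w - w'‖) ^ 2 ≤ ‖‖w‖ ^ (-s - 2) • w - ‖w'‖ ^ (-s - 2) • w'‖ ^ 2 := by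
    rw [norm_smul_sub_smul_sq, rpow_neg_sub_two_mul_sq hr, rpow_neg_sub_two_mul_sq hr']
    have p1 : 0 ≤ (‖w‖ ^ (-s) - ‖w'‖ ^ (-s)) * (‖w‖ ^ (-s - 2) - ‖w'‖ ^ (-s - 2)) := by
      rcases le_total ‖w‖ ‖w'‖ with h | h
      · have q1 : ‖w'‖ ^ (-s) ≤ ‖w‖ ^ (-s) := Real.rpow_le_rpow_of_nonpos hr h (by linarith)
        have q2 : ‖w'‖ ^ (-s - 2) ≤ ‖w‖ ^ (-s - 2) :=
          Real.rpow_le_rpow_of_nonpos hr h (by linarith)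
        exact mul_nonneg (by linarith) (by linarith)
      · have q1 : ‖w‖ ^ (-s) ≤ ‖w'‖ ^ (-s) := Real.rpow_le_rpow_of_nonpos hr' h (by linarith)
        have q2 : ‖w‖ ^ (-s - 2) ≤ ‖w'‖ ^ (-s - 2) :=
          Real.rpow_le_rpow_of_nonpos hr' h (by linarith)
        exact mul_nonneg_of_nonpos_of_nonpos (by linarith) (by linarith)
    have p2 : R ^ (-s - 2) * R ^ (-s - 2) * ‖w - w'‖ ^ 2
        ≤ ‖w‖ ^ (-s - 2) * ‖w'‖ ^ (-s - 2) * ‖w - w'‖ ^ 2 :=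
      mul_le_mul_of_nonneg_right (mul_le_mul ha hb hR0.le (hR0.le.trans ha)) (by positivity)
    nlinarith [p1, p2]
  exact (abs_le_of_sq_le_sq' hsq (norm_nonneg _)).2

end Crest.Agent.MM
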