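import Crest.Agent.MM.GeoGap
import Crest.Agent.MM.PhiLip

/-! # FEAS: strict feasibility of all non-tight blob triples, for small blob radius `δ₀`.

Let `L₀` be the Lipschitz constant of `phi s` on `{‖w‖ ≥ r₀}` (`exists_phi_lipschitz`), `P = max ‖p j‖`, `γ` from `center_gap`.
For `δ₀ ≤ r₀/2` and points in the `δ₀`-blobs of *different* labels, `‖x - y‖ ≥ 2 r₀ - 2 δ₀ ≥ r₀`, so
`phi s (x - y) ≥ phi s (ctr l - ctr l') - 2 L₀ δ₀`; `ub δ₀ (true,i) x ≤ UA + 2 L₀ δ₀` (by `center_tight`), `ub δ₀ (false,j) x ≤ V + P δ₀`.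
* three different labels, not tight: `G3 - Σ ub ≥ γ - 6 L₀ δ₀ - 3 max (2 L₀) P δ₀ > 0` for small `δ₀`.
* two equal labels: then `0 < ‖x - y‖ ≤ 2 δ₀` for that pair so `G3 ≥ (2 δ₀)^(-s)`, while `Σ ub ≤ 3 (|UA| + |V| + 1)`-ish
  (for `(true,i)`: `ub ≤ UA + 2 L₀ δ₀`); `(2 δ₀)^(-s) → ∞`. -/

set_option autoImplicit false
open MeasureTheory Metric Set
open scoped ENNReal ContDiff RealInnerProductSpace

namespace Crest.Agent.MM
namespace Geo

variable {d : ℕ} {s : ℝ} (g : Geo d s)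

theorem phi_nn {F : Type*} [NormedAddCommGroup F] (s : ℝ) (w : F) : 0 ≤ phi s w :=
  Real.rpow_nonneg (norm_nonneg _) _

theorem feas : ∃ δ₀ : ℝ, 0 < δ₀ ∧ δ₀ ≤ g.r₀ / 2 ∧ ∀ l₁ l₂ l₃ : Lab, ¬ TightLab l₁ l₂ l₃ →
    ∀ x ∈ closedBall (g.ctr l₁) δ₀, ∀ y ∈ closedBall (g.ctr l₂) δ₀, ∀ z ∈ closedBall (g.ctr l₃) δ₀,
    x ≠ y → x ≠ z → y ≠ z →
    g.ub δ₀ l₁ x + g.ub δ₀ l₂ y + g.ub δ₀ l₃ z < G3 s x y z := by
  have hs := g.s_pos
  have hr := g.r₀_pos
  obtain ⟨L, hL, hLip⟩ := exists_phi_lipschitz (F := E d) hs hr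
  obtain ⟨γ, hγ, hgap⟩ := g.center_gap
  set P : ℝ := ‖g.p 0‖ + ‖g.p 1‖ + ‖g.p 2‖ with hP
  have hP0 : 0 ≤ P := by positivity
  have hPj : ∀ j : Fin 3, ‖g.p j‖ ≤ P := by
    intro j
    have h0 := norm_nonneg (g.p 0)
    have h1 := norm_nonneg (g.p 1)
    have h2 := norm_nonneg (g.p 2)
    fin_cases j <;> simp only [hP] <;> simp <;> linarith
  set C : ℝ := 4 * L + P with hC
  have hC0 : 0 < C := by positivity
  set D : ℝ := 6 * L + 3 * C with hD
  have hD0 : 0 < D := by positivity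
  set B : ℝ := 3 * (|g.UA| + |g.V|) + 3 * C with hB
  have hB0 : 0 < B := by positivity
  set t : ℝ := (B + 1) ^ (-s⁻¹) with ht
  have ht0 : 0 < t := Real.rpow_pos_of_pos (by linarith) _
  set δ₀ : ℝ := min (min (g.r₀ / 2) 1) (min (γ / (2 * D)) (t / 2)) with hδ
  have hδ0 : 0 < δ₀ := by
    refine lt_min (lt_min (by linarith) one_pos) (lt_min (by positivity) (by linarith))
  have hδ1 : δ₀ ≤ g.r₀ / 2 := (min_le_left _ _).trans (min_le_left _ _)
  have hδ2 : δ₀ ≤ 1 := (min_le_left _ _).trans (min_le_right _ _)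
  have hδ3 : δ₀ ≤ γ / (2 * D) := (min_le_right _ _).trans (min_le_left _ _)
  have hδ4 : δ₀ ≤ t / 2 := (min_le_right _ _).trans (min_le_right _ _)
  have hDδ : D * δ₀ < γ := by
    have h1 : D * δ₀ ≤ D * (γ / (2 * D)) := mul_le_mul_of_nonneg_left hδ3 hD0.le
    have h2 : D * (γ / (2 * D)) = γ / 2 := by field_simp
    linarith
  -- lower bound of phi for different labels
  have hphi : ∀ (l l' : Lab) (x y : E d), l ≠ l' → x ∈ closedBall (g.ctr l) δ₀ →
      y ∈ closedBall (g.ctr l') δ₀ →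
      |phi s (x - y) - phi s (g.ctr l - g.ctr l')| ≤ 2 * L * δ₀ := by
    intro l l' x y hll hx hy
    rw [mem_closedBall, dist_eq_norm] at hx hy
    have hsep := g.sep_ctr hll
    have hdiff : ‖(x - y) - (g.ctr l - g.ctr l')‖ ≤ 2 * δ₀ := by
      have : (x - y) - (g.ctr l - g.ctr l') = (x - g.ctr l) - (y - g.ctr l') := by abel
      rw [this]
      exact (norm_sub_le _ _).trans (by linarith)
    have h1 : g.r₀ ≤ ‖x - y‖ := by
      have h := norm_sub_norm_le (g.ctr l - g.ctr l') (x - y)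
      rw [norm_sub_rev (g.ctr l - g.ctr l') (x - y)] at h
      linarith
    have h2 : g.r₀ ≤ ‖g.ctr l - g.ctr l'‖ := by linarith
    have h3 := hLip _ _ h1 h2
    have h4 : L * ‖(x - y) - (g.ctr l - g.ctr l')‖ ≤ L * (2 * δ₀) :=
      mul_le_mul_of_nonneg_left hdiff hL.le
    linarith
  have hself : ∀ l : Lab, g.ctr l ∈ closedBall (g.ctr l) δ₀ := fun l => mem_closedBall_self hδ0.le
  -- upper bound of ub
  have hub : ∀ (l : Lab) (x : E d), x ∈ closedBall (g.ctr l) δ₀ → g.ub δ₀ l x ≤ g.U l + C * δ₀ := by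
    rintro ⟨b, i⟩ x hx
    cases b
    · show g.V + ‖g.p i‖ * δ₀ ≤ g.V + C * δ₀
      have h1 : ‖g.p i‖ * δ₀ ≤ C * δ₀ :=
        mul_le_mul_of_nonneg_right ((hPj i).trans (by rw [hC]; linarith)) hδ0.le
      linarith
    · show G3 s x (g.cc (i + 1)) (g.cc (i + 2)) - 2 * g.V ≤ g.UA + C * δ₀
      have hct := g.center_tight i
      have h1 := hphi (true, i) (false, i + 1) x (g.cc (i + 1)) (by simp) hx (hself (false, i + 1))
      have h2 := hphi (true, i) (false, i + 2) x (g.cc (i + 2)) (by simp) hx (hself (false, i + 2))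
      have e1 : g.ctr (true, i) = g.a i := rfl
      have e2 : g.ctr (false, i + 1) = g.cc (i + 1) := rfl
      have e3 : g.ctr (false, i + 2) = g.cc (i + 2) := rfl
      rw [e1, e2] at h1
      rw [e1, e3] at h2
      unfold G3 at hct ⊢
      have h1' := (abs_le.mp h1).2
      have h2' := (abs_le.mp h2).2
      have h5 : 0 ≤ P * δ₀ := by positivity
      rw [hC]
      nlinarith
  have hU : ∀ l : Lab, g.U l ≤ |g.UA| + |g.V| := by
    rintro ⟨b, i⟩
    cases b
    · show g.V ≤ _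
      have := le_abs_self g.V
      have := abs_nonneg g.UA
      linarith
    · show g.UA ≤ _
      have := le_abs_self g.UA
      have := abs_nonneg g.V
      linarith
  have hCδ : C * δ₀ ≤ C := by nlinarith
  -- points in the same blob
  have hnear : ∀ (l : Lab) (x y : E d), x ∈ closedBall (g.ctr l) δ₀ → y ∈ closedBall (g.ctr l) δ₀ →
      x ≠ y → B + 1 ≤ phi s (x - y) := by
    intro l x y hx hy hxy
    rw [mem_closedBall, dist_eq_norm] at hx hy
    have h0 : 0 < ‖x - y‖ := norm_pos_iff.mpr (sub_ne_zero.mpr hxy)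
    have h1 : ‖x - y‖ ≤ t := by
      have : x - y = (x - g.ctr l) - (y - g.ctr l) := by abel
      rw [this]
      exact (norm_sub_le _ _).trans (by linarith)
    have h2 : t ^ (-s) ≤ ‖x - y‖ ^ (-s) := Real.rpow_le_rpow_of_nonpos h0 h1 (by linarith)
    have h3 : t ^ (-s) = B + 1 := by
      rw [ht, ← Real.rpow_mul (by linarith)]
      have : -s⁻¹ * -s = 1 := by field_simp
      rw [this, Real.rpow_one]
    unfold phi
    linarith
  refine ⟨δ₀, hδ0, hδ1, ?_⟩
  intro l₁ l₂ l₃ hnt x hx y hy z hz hxy hxz hyz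
  have u1 := hub l₁ x hx
  have u2 := hub l₂ y hy
  have u3 := hub l₃ z hz
  have U1 := hU l₁
  have U2 := hU l₂
  have U3 := hU l₃
  have n1 := Crest.Agent.MM.Geo.phi_nn s (x - y)
  have n2 := Crest.Agent.MM.Geo.phi_nn s (x - z)
  have n3 := Crest.Agent.MM.Geo.phi_nn s (y - z)
  unfold G3
  by_cases h12 : l₁ = l₂
  · subst h12
    have := hnear l₁ x y hx hy hxy
    rw [hB] at this
    linarith
  by_cases h13 : l₁ = l₃
  · subst h13
    have := hnear l₁ x z hx hz hxz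
    rw [hB] at this
    linarith
  by_cases h23 : l₂ = l₃
  · subst h23
    have := hnear l₂ y z hy hz hyz
    rw [hB] at this
    linarith
  have hg := hgap l₁ l₂ l₃ h12 h13 h23 hnt
  unfold G3 at hg
  have p1 := (abs_le.mp (hphi l₁ l₂ x y h12 hx hy)).1
  have p2 := (abs_le.mp (hphi l₁ l₃ x z h13 hx hz)).1
  have p3 := (abs_le.mp (hphi l₂ l₃ y z h23 hy hz)).1
  rw [hD] at hDδ
  nlinarith

end Geo
end Crest.Agent.MM
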