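import Crest.Agent.MM.GeoLam

/-! # GEO2: existence of the centres and of a `Geo`.

`cc 0 = e₀`, `cc 1 = -½ e₀ + (√3/2) e₁`, `cc 2 = -½ e₀ - (√3/2) e₁` with `e₀ e₁` the first two standard basis vectors
(`EuclideanSpace.single`). -/

set_option autoImplicit false
open MeasureTheory Metric Set
open scoped ENNReal ContDiff RealInnerProductSpace

namespace Crest.Agent.MM

theorem exists_centers {d : ℕ} (hd : 2 ≤ d) :
    ∃ cc : Fin 3 → E d, (∀ i, ⟪cc i, cc i⟫ = (1 : ℝ)) ∧ ∀ i j, i ≠ j → ⟪cc i, cc j⟫ = (-1 / 2 : ℝ) := by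
  set i0 : Fin d := ⟨0, by omega⟩ with hi0
  set i1 : Fin d := ⟨1, by omega⟩ with hi1
  have hne : i0 ≠ i1 := by
    intro h
    have := congrArg Fin.val h
    simp [hi0, hi1] at this
  set e0 : E d := EuclideanSpace.single i0 (1 : ℝ) with he0
  set e1 : E d := EuclideanSpace.single i1 (1 : ℝ) with he1
  have h00 : ⟪e0, e0⟫ = (1 : ℝ) := by
    simp [he0]
  have h11 : ⟪e1, e1⟫ = (1 : ℝ) := by
    simp [he1]
  have h01 : ⟪e0, e1⟫ = (0 : ℝ) := by
    rw [he0, he1, EuclideanSpace.inner_single_left, EuclideanSpace.single_apply, if_neg hne]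
    simp
  have h10 : ⟪e1, e0⟫ = (0 : ℝ) := by
    rw [real_inner_comm]; exact h01
  have h3 : Real.sqrt 3 * Real.sqrt 3 = 3 := Real.mul_self_sqrt (by norm_num)
  refine ⟨![e0, (-1 / 2 : ℝ) • e0 + (Real.sqrt 3 / 2) • e1,
    (-1 / 2 : ℝ) • e0 - (Real.sqrt 3 / 2) • e1], ?_, ?_⟩
  · intro i
    fin_cases i
    · simpa using h00
    · simp only [Fin.mk_one, Matrix.cons_val_one, Matrix.cons_val_zero, inner_add_left,
        inner_add_right, inner_smul_left, inner_smul_right, h00, h01, h10, h11]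
      simp
      nlinarith [h3]
    · simp only [Fin.reduceFinMk, Matrix.cons_val, inner_sub_left,
        inner_sub_right, inner_smul_left, inner_smul_right, h00, h01, h10, h11]
      simp
      nlinarith [h3]
  · intro i j hij
    fin_cases i <;> fin_cases j <;>
      first
      | exact absurd rfl hij
      | (simp only [Fin.zero_eta, Fin.mk_one, Fin.reduceFinMk, Matrix.cons_val, Matrix.cons_val_one,
          Matrix.cons_val_zero, inner_sub_left, inner_add_left, inner_add_right,
          inner_sub_right, inner_smul_left, inner_smul_right, h00, h01, h10, h11]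
         simp
         try nlinarith [h3])

theorem exists_geo {d : ℕ} (hd : 2 ≤ d) {s : ℝ} (hs : 0 < s) : Nonempty (Geo d s) := by
  obtain ⟨lam, h0, h1, he⟩ := exists_lam hs
  obtain ⟨cc, hc1, hc2⟩ := exists_centers hd
  exact ⟨⟨lam, cc, hs, h0, h1, he, hc1, hc2⟩⟩

end Crest.Agent.MM
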