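import Crest.Agent.MM.Defs

/-!
# S0175: the six-blob geometry — definitions.  FROZEN — do not edit.

Centres `cc j` (unit equilateral triangle), `a i = lam • cc i`.  Blobs `A_i` around `a i`, `B_j` around `cc j`.
Tight configuration types: `(A_i, B_{i+1}, B_{i+2})`, `i : Fin 3`.
-/

set_option autoImplicit false
open MeasureTheory Metric Set
open scoped ENNReal ContDiff RealInnerProductSpace

namespace Crest.Agent.MM

structure Geo (d : ℕ) (s : ℝ) where
  lam : ℝ
  cc : Fin 3 → E d
  s_pos : 0 < s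
  lam_pos : 0 < lam
  lam_lt_one : lam < 1
  lam_eq : lam * (1 + lam + lam ^ 2) ^ (-s / 2 - 1) = (3 : ℝ) ^ (-s / 2 - 1)
  inner_self : ∀ i, ⟪cc i, cc i⟫ = (1 : ℝ)
  inner_ne : ∀ i j, i ≠ j → ⟪cc i, cc j⟫ = (-1 / 2 : ℝ)

/-- blob labels: `(true, i)` is `A_i`, `(false, j)` is `B_j`. -/
abbrev Lab := Bool × Fin 3

/-- the label triple is (a permutation of) a tight type `(A_i, B_{i+1}, B_{i+2})`. -/
def TightLab (l₁ l₂ l₃ : Lab) : Prop :=
  ∃ i : Fin 3, ({l₁, l₂, l₃} : Finset Lab) = {(true, i), (false, i + 1), (false, i + 2)}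

instance (l₁ l₂ l₃ : Lab) : Decidable (TightLab l₁ l₂ l₃) := by
  unfold TightLab; infer_instance

namespace Geo

variable {d : ℕ} {s : ℝ} (g : Geo d s)

/-- inner centres -/
noncomputable def a (i : Fin 3) : E d := g.lam • g.cc i

noncomputable def q1 : ℝ := 1 + g.lam + g.lam ^ 2

/-- centre of a blob -/
noncomputable def ctr : Lab → E d
  | (true, i) => g.a i
  | (false, j) => g.cc j

/-- half the separation scale of the centres -/
noncomputable def r₀ : ℝ := min (1 - g.lam) g.lam / 2

/-- pair costs between centres -/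
noncomputable def tBB (_g : Geo d s) : ℝ := (3 : ℝ) ^ (-s / 2)
noncomputable def tAB : ℝ := g.q1 ^ (-s / 2)
noncomputable def tAA : ℝ := (3 * g.lam ^ 2) ^ (-s / 2)
noncomputable def tAB0 : ℝ := (1 - g.lam) ^ (-s)

noncomputable def Del : ℝ := g.tBB + g.tAA - 2 * g.tAB
noncomputable def kap : ℝ := g.Del / 4

/-- value of the potential at the centres `cc j` -/
noncomputable def V : ℝ := g.tBB - g.kap
/-- value of the potential at the centres `a i` -/
noncomputable def UA : ℝ := 2 * g.tAB + g.tBB - 2 * g.V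

/-- slope of the potential at `cc j` -/
noncomputable def p (j : Fin 3) : E d :=
  gphi s (g.cc j - g.a (j + 2)) + gphi s (g.cc j - g.cc (j + 1))

/-- upper bounds (independent of the curvature `M`) for the potential on the blobs of radius `δ₀`. -/
noncomputable def ub (δ₀ : ℝ) : Lab → E d → ℝ
  | (true, i), x => G3 s x (g.cc (i + 1)) (g.cc (i + 2)) - 2 * g.V
  | (false, j), _ => g.V + ‖g.p j‖ * δ₀

/-- the quadratic potential on `B_j` -/
noncomputable def v (M : ℝ) (j : Fin 3) (x : E d) : ℝ := vq g.V M (g.p j) (g.cc j) x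

/-- the function minimised in the `c`-transform of type `i` -/
noncomputable def H (M : ℝ) (i : Fin 3) (x y z : E d) : ℝ :=
  G3 s x y z - g.v M (i + 1) y - g.v M (i + 2) z

end Geo

end Crest.Agent.MM
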