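import Crest.Agent.MM.GeoNorms

/-! # GEO4: the pair-slack table at the centres.

`Del > 0`: AM–GM gives `tBB + tAA ≥ 2 (3 lam)^(-s/2)` and `3 lam < q1` (`⇔ (1-lam)^2 > 0`), so `(3 lam)^(-s/2) > tAB`.
`xi := tAB0 - tAB > 0` since `(1-lam)^2 < q1`.
Pair slacks `e(l,l') = phi(ctr l - ctr l') - (U l + U l')/2` with `U (A) = UA`, `U (B) = V`, `kap = Del/4`:
`e(A_i,A_j) = 2 kap`, `e(B_i,B_j) = kap`, `e(A_i,B_j) = -kap/2 (i ≠ j)`, `e(A_i,B_i) = xi - kap/2`.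
Sum over the three pairs:  AAA `6 kap`;  AAB `≥ kap`;  ABB tight `0`, non-tight `xi`;  BBB `3 kap`.  So `γ = min kap xi` works. -/

set_option autoImplicit false
open MeasureTheory Metric Set
open scoped ENNReal ContDiff RealInnerProductSpace

namespace Crest.Agent.MM
namespace Geo

variable {d : ℕ} {s : ℝ} (g : Geo d s)

/-- value of the potential at the centre of a blob -/
noncomputable def U : Lab → ℝ
  | (true, _) => g.UA
  | (false, _) => g.V

theorem Del_pos : 0 < g.Del := by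
  have hs := g.s_pos
  have hl := g.lam_pos
  have hl1 := g.lam_lt_one
  have h3 : (0 : ℝ) ≤ 3 := by norm_num
  have h3l : (0 : ℝ) ≤ 3 * g.lam ^ 2 := by positivity
  have e1 : g.tBB = ((3 : ℝ) ^ (-s / 4)) ^ 2 := by
    unfold tBB
    rw [← Real.rpow_two ((3 : ℝ) ^ (-s / 4)), ← Real.rpow_mul h3]
    congr 1
    ring
  have e2 : g.tAA = ((3 * g.lam ^ 2 : ℝ) ^ (-s / 4)) ^ 2 := by
    unfold tAA
    rw [← Real.rpow_two ((3 * g.lam ^ 2 : ℝ) ^ (-s / 4)), ← Real.rpow_mul h3l]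
    congr 1
    ring
  have e3 : (3 : ℝ) ^ (-s / 4) * (3 * g.lam ^ 2 : ℝ) ^ (-s / 4) = (3 * g.lam) ^ (-s / 2) := by
    rw [← Real.mul_rpow h3 h3l]
    have : (3 : ℝ) * (3 * g.lam ^ 2) = (3 * g.lam) ^ (2 : ℝ) := by
      rw [Real.rpow_two]; ring
    rw [this, ← Real.rpow_mul (by positivity)]
    congr 1
    ring
  have e4 : g.tAB < (3 * g.lam) ^ (-s / 2) := by
    unfold tAB q1
    apply Real.rpow_lt_rpow_of_neg (by positivity) _ (by linarith)
    nlinarith [sq_pos_of_pos (sub_pos.2 hl1)]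
  unfold Del
  rw [e1, e2]
  nlinarith [sq_nonneg ((3 : ℝ) ^ (-s / 4) - (3 * g.lam ^ 2 : ℝ) ^ (-s / 4))]

theorem xi_pos : 0 < g.tAB0 - g.tAB := by
  have hs := g.s_pos
  have hl := g.lam_pos
  have hl1 := g.lam_lt_one
  have h1 : (0 : ℝ) < 1 - g.lam := by linarith
  have e1 : g.tAB0 = ((1 - g.lam) ^ (2 : ℝ)) ^ (-s / 2) := by
    unfold tAB0
    rw [← Real.rpow_mul h1.le]
    congr 1
    ring
  rw [e1, sub_pos]
  unfold tAB q1
  apply Real.rpow_lt_rpow_of_neg (by positivity) _ (by linarith)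
  rw [Real.rpow_two]
  nlinarith

theorem center_tight (i : Fin 3) :
    g.UA + 2 * g.V = G3 s (g.a i) (g.cc (i + 1)) (g.cc (i + 2)) := by
  have h1 : i ≠ i + 1 := by revert i; decide
  have h2 : i ≠ i + 2 := by revert i; decide
  have h3 : i + 1 ≠ i + 2 := by revert i; decide
  rw [G3, g.phi_a_sub_cc h1, g.phi_a_sub_cc h2, g.phi_cc_sub_cc h3]
  unfold UA
  ring

/-- pair cost between two (different) centres. -/
noncomputable def pc : Lab → Lab → ℝ
  | (true, _), (true, _) => g.tAA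
  | (false, _), (false, _) => g.tBB
  | (true, i), (false, j) => if i = j then g.tAB0 else g.tAB
  | (false, i), (true, j) => if i = j then g.tAB0 else g.tAB

theorem phi_sub_comm {F : Type*} [NormedAddCommGroup F] (x y : F) :
    phi s (x - y) = phi s (y - x) := by
  unfold phi
  rw [norm_sub_rev]

theorem phi_ctr {l l' : Lab} (h : l ≠ l') : phi s (g.ctr l - g.ctr l') = g.pc l l' := by
  obtain ⟨b, i⟩ := l
  obtain ⟨b', j⟩ := l'
  cases b <;> cases b'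
  · have hij : i ≠ j := fun e => h (by rw [e])
    simp only [ctr, pc]
    exact g.phi_cc_sub_cc hij
  · simp only [ctr, pc]
    rw [phi_sub_comm]
    by_cases hij : i = j
    · subst hij
      rw [if_pos rfl]
      exact g.phi_a_sub_cc_self i
    · rw [if_neg hij]
      exact g.phi_a_sub_cc (Ne.symm hij)
  · simp only [ctr, pc]
    by_cases hij : i = j
    · subst hij
      rw [if_pos rfl]
      exact g.phi_a_sub_cc_self i
    · rw [if_neg hij]
      exact g.phi_a_sub_cc hij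
  · have hij : i ≠ j := fun e => h (by rw [e])
    simp only [ctr, pc]
    exact g.phi_a_sub_a hij

/-- coefficient of `kap / 2` in the pair slack. -/
def ek : Lab → Lab → ℤ
  | (true, _), (true, _) => 4
  | (false, _), (false, _) => 2
  | (true, _), (false, _) => -1
  | (false, _), (true, _) => -1

/-- coefficient of `xi` in the pair slack. -/
def ex : Lab → Lab → ℤ
  | (true, _), (true, _) => 0
  | (false, _), (false, _) => 0
  | (true, i), (false, j) => if i = j then 1 else 0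
  | (false, i), (true, j) => if i = j then 1 else 0

theorem pc_eq (l l' : Lab) : g.pc l l' =
    (g.U l + g.U l') / 2 + (ek l l' : ℝ) * (g.kap / 2) + (ex l l' : ℝ) * (g.tAB0 - g.tAB) := by
  obtain ⟨b, i⟩ := l
  obtain ⟨b', j⟩ := l'
  cases b <;> cases b'
  · simp only [pc, U, ek, ex, V]
    push_cast
    ring
  · simp only [pc, U, ek, ex, V, UA]
    by_cases hij : i = j
    · simp only [if_pos hij]
      push_cast
      ring
    · simp only [if_neg hij]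
      push_cast
      ring
  · simp only [pc, U, ek, ex, V, UA]
    by_cases hij : i = j
    · simp only [if_pos hij]
      push_cast
      ring
    · simp only [if_neg hij]
      push_cast
      ring
  · simp only [pc, U, ek, ex, V, UA, kap, Del]
    push_cast
    ring

theorem slack_table : ∀ l₁ l₂ l₃ : Lab, l₁ ≠ l₂ → l₁ ≠ l₃ → l₂ ≠ l₃ → ¬ TightLab l₁ l₂ l₃ →
    (2 ≤ ek l₁ l₂ + ek l₁ l₃ + ek l₂ l₃ ∧ 0 ≤ ex l₁ l₂ + ex l₁ l₃ + ex l₂ l₃) ∨
    (0 ≤ ek l₁ l₂ + ek l₁ l₃ + ek l₂ l₃ ∧ 1 ≤ ex l₁ l₂ + ex l₁ l₃ + ex l₂ l₃) := by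
  decide

theorem center_gap : ∃ γ : ℝ, 0 < γ ∧ ∀ l₁ l₂ l₃ : Lab, l₁ ≠ l₂ → l₁ ≠ l₃ → l₂ ≠ l₃ →
    ¬ TightLab l₁ l₂ l₃ →
    g.U l₁ + g.U l₂ + g.U l₃ + γ ≤ G3 s (g.ctr l₁) (g.ctr l₂) (g.ctr l₃) := by
  have hk : 0 < g.kap := by unfold kap; linarith [g.Del_pos]
  have hx := g.xi_pos
  refine ⟨min g.kap (g.tAB0 - g.tAB), lt_min hk hx, ?_⟩
  intro l₁ l₂ l₃ h12 h13 h23 ht
  have hγ1 := min_le_left g.kap (g.tAB0 - g.tAB)
  have hγ2 := min_le_right g.kap (g.tAB0 - g.tAB)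
  rw [G3, g.phi_ctr h12, g.phi_ctr h13, g.phi_ctr h23, g.pc_eq, g.pc_eq, g.pc_eq]
  have hsum : ((ek l₁ l₂ + ek l₁ l₃ + ek l₂ l₃ : ℤ) : ℝ) * (g.kap / 2) +
      ((ex l₁ l₂ + ex l₁ l₃ + ex l₂ l₃ : ℤ) : ℝ) * (g.tAB0 - g.tAB) ≥
      min g.kap (g.tAB0 - g.tAB) := by
    rcases slack_table l₁ l₂ l₃ h12 h13 h23 ht with ⟨h1, h2⟩ | ⟨h1, h2⟩
    · have h1' : (2 : ℝ) ≤ ((ek l₁ l₂ + ek l₁ l₃ + ek l₂ l₃ : ℤ) : ℝ) := by exact_mod_cast h1
      have h2' : (0 : ℝ) ≤ ((ex l₁ l₂ + ex l₁ l₃ + ex l₂ l₃ : ℤ) : ℝ) := by exact_mod_cast h2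
      have := mul_le_mul_of_nonneg_right h1' (by linarith : (0 : ℝ) ≤ g.kap / 2)
      have := mul_nonneg h2' hx.le
      linarith
    · have h1' : (0 : ℝ) ≤ ((ek l₁ l₂ + ek l₁ l₃ + ek l₂ l₃ : ℤ) : ℝ) := by exact_mod_cast h1
      have h2' : (1 : ℝ) ≤ ((ex l₁ l₂ + ex l₁ l₃ + ex l₂ l₃ : ℤ) : ℝ) := by exact_mod_cast h2
      have := mul_le_mul_of_nonneg_right h2' hx.le
      have := mul_nonneg h1' (by linarith : (0 : ℝ) ≤ g.kap / 2)
      linarith
  push_cast at hsum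
  linarith

end Geo
end Crest.Agent.MM
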