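import Crest.Agent.MM.GeoDefs

/-! # GEO1: existence of `lam`.

`f lam = lam * (1 + lam + lam^2)^(-s/2-1)` is continuous on `[0,1]`, `f 0 = 0 < 3^(-s/2-1) = f 1`, and `f' 1 = -(s/2) 3^(-s/2-1) < 0`,
so `f > f 1` slightly to the left of `1`; IVT on `[0, 1 - t]`.  (Either use the derivative at `1`, or an explicit `t` and
Bernoulli-type inequalities.) -/

set_option autoImplicit false
open MeasureTheory Metric Set
open scoped ENNReal ContDiff RealInnerProductSpace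

namespace Crest.Agent.MM

theorem exists_lam {s : ℝ} (hs : 0 < s) :
    ∃ lam : ℝ, 0 < lam ∧ lam < 1 ∧
      lam * (1 + lam + lam ^ 2) ^ (-s / 2 - 1) = (3 : ℝ) ^ (-s / 2 - 1) := by
  set a : ℝ := -s / 2 - 1 with ha
  set f : ℝ → ℝ := fun t => t * (1 + t + t ^ 2) ^ a with hf
  have hpos : ∀ t : ℝ, 0 < 1 + t + t ^ 2 := fun t => by nlinarith [sq_nonneg (t + 1 / 2)]
  have hcont : Continuous f := by
    apply continuous_id.mul
    apply Continuous.rpow_const (by fun_prop)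
    intro t
    exact Or.inl (hpos t).ne'
  have h3 : (0 : ℝ) < 3 ^ a := Real.rpow_pos_of_pos (by norm_num) _
  have hf1 : f 1 = 3 ^ a := by
    simp only [hf]; norm_num
  have hder : HasDerivAt f (1 * (1 + (1 : ℝ) + 1 ^ 2) ^ a +
      1 * ((0 + 1 + 2 * 1) * a * (1 + (1 : ℝ) + 1 ^ 2) ^ (a - 1))) 1 := by
    apply (hasDerivAt_id (1 : ℝ)).mul
    apply HasDerivAt.rpow_const
    · have h1 : HasDerivAt (fun t : ℝ => t ^ 2) (2 * 1) 1 := by
        simpa using hasDerivAt_pow 2 (1 : ℝ)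
      exact ((hasDerivAt_const (1 : ℝ) (1 : ℝ)).add (hasDerivAt_id (1 : ℝ))).add h1
    · exact Or.inl (hpos 1).ne'
  have hneg : 1 * (1 + (1 : ℝ) + 1 ^ 2) ^ a +
      1 * ((0 + 1 + 2 * 1) * a * (1 + (1 : ℝ) + 1 ^ 2) ^ (a - 1)) < 0 := by
    have e1 : (1 + (1 : ℝ) + 1 ^ 2) = 3 := by norm_num
    rw [e1]
    have e2 : (3 : ℝ) ^ a = 3 * 3 ^ (a - 1) := by
      have h5 := Real.rpow_sub_one (by norm_num : (3 : ℝ) ≠ 0) a
      rw [h5]
      have h6 : (3 : ℝ) ≠ 0 := by norm_num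
      exact (mul_div_cancel₀ _ h6).symm
    have h4 : (0 : ℝ) < 3 ^ (a - 1) := Real.rpow_pos_of_pos (by norm_num) _
    rw [e2]
    have : 1 + a < 0 := by rw [ha]; linarith
    nlinarith
  have hslope := (hasDerivAt_iff_tendsto_slope.1 hder).eventually (gt_mem_nhds hneg)
  have hslope' : ∀ᶠ y in nhdsWithin (1 : ℝ) (Iio 1), slope f 1 y < 0 :=
    hslope.filter_mono (nhdsWithin_mono _ (fun y hy => ne_of_lt hy))
  have hpos' : ∀ᶠ y in nhdsWithin (1 : ℝ) (Iio 1), (0 : ℝ) < y :=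
    (lt_mem_nhds (by norm_num : (0 : ℝ) < 1)).filter_mono nhdsWithin_le_nhds
  obtain ⟨t, ht1, ht2, ht3⟩ := (hslope'.and (hpos'.and self_mem_nhdsWithin)).exists
  have ht3' : t < 1 := ht3
  have hft : f 1 < f t := by
    rw [slope_def_field] at ht1
    have h5 : t - 1 < 0 := by linarith
    by_contra hcon
    rw [not_lt] at hcon
    have : 0 ≤ (f t - f 1) / (t - 1) := div_nonneg_of_nonpos (by linarith) h5.le
    linarith
  have hf0 : f 0 = 0 := by simp [hf]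
  have hivt := intermediate_value_Icc ht2.le hcont.continuousOn
  have hmem : (3 : ℝ) ^ a ∈ Icc (f 0) (f t) := ⟨by rw [hf0]; exact h3.le, by rw [← hf1]; exact hft.le⟩
  obtain ⟨lam, ⟨hl0, hl1⟩, hlam⟩ := hivt hmem
  refine ⟨lam, ?_, lt_of_le_of_lt hl1 ht3', hlam⟩
  rcases hl0.eq_or_lt with h | h
  · exfalso
    rw [← h, hf0] at hlam
    exact h3.ne hlam
  · exact h

end Crest.Agent.MM
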