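import Crest.Agent.MM.GeoDefs

/-! # GEO3: distances between the centres, their pair costs, separation, the force identity.

All norms: expand `‖x - y‖^2 = ⟪x,x⟫ - 2⟪x,y⟫ + ⟪y,y⟫`.  `phi s w = (‖w‖^2)^(-s/2)`.
Force identity: `gphi s w = -s (‖w‖^2)^(-s/2-1) • w`; the difference of the two sides is
`-s (lam q1^(-s/2-1) - 3^(-s/2-1)) • (cc (j+1) - cc (j+2))` (up to sign) `= 0` by `lam_eq`. -/

set_option autoImplicit false
open MeasureTheory Metric Set
open scoped ENNReal ContDiff RealInnerProductSpace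

namespace Crest.Agent.MM
namespace Geo

variable {d : ℕ} {s : ℝ} (g : Geo d s)

theorem normsq_cc (i : Fin 3) : ‖g.cc i‖ ^ 2 = 1 := by
  rw [← real_inner_self_eq_norm_sq]; exact g.inner_self i

theorem norm_cc (i : Fin 3) : ‖g.cc i‖ = 1 := by
  have h := g.normsq_cc i
  have h0 := norm_nonneg (g.cc i)
  nlinarith

theorem normsq_cc_sub_cc {i j : Fin 3} (h : i ≠ j) : ‖g.cc i - g.cc j‖ ^ 2 = 3 := by
  rw [norm_sub_sq_real, g.normsq_cc, g.normsq_cc, g.inner_ne i j h]; norm_num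

theorem normsq_a_sub_a {i j : Fin 3} (h : i ≠ j) : ‖g.a i - g.a j‖ ^ 2 = 3 * g.lam ^ 2 := by
  unfold a
  rw [← smul_sub, norm_smul, mul_pow, g.normsq_cc_sub_cc h, Real.norm_eq_abs, sq_abs]; ring

theorem normsq_a_sub_cc {i j : Fin 3} (h : i ≠ j) : ‖g.a i - g.cc j‖ ^ 2 = g.q1 := by
  unfold a q1
  rw [norm_sub_sq_real, norm_smul, mul_pow, g.normsq_cc, g.normsq_cc, real_inner_smul_left,
    g.inner_ne i j h, Real.norm_eq_abs, sq_abs]; ring

theorem norm_a_sub_cc_self (i : Fin 3) : ‖g.a i - g.cc i‖ = 1 - g.lam := by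
  have h : g.a i - g.cc i = (g.lam - 1) • g.cc i := by
    unfold a; rw [sub_smul, one_smul]
  rw [h, norm_smul, g.norm_cc, mul_one, Real.norm_eq_abs, abs_of_neg (by linarith [g.lam_lt_one])]
  ring

theorem phi_eq_normsq (w : E d) : phi s w = (‖w‖ ^ 2) ^ (-s / 2) := by
  unfold phi
  rw [← Real.rpow_natCast, ← Real.rpow_mul (norm_nonneg _)]
  congr 1; push_cast; ring

theorem gphi_eq_normsq (w : E d) : gphi s w = (-s * (‖w‖ ^ 2) ^ (-s / 2 - 1)) • w := by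
  unfold gphi
  rw [← Real.rpow_natCast ‖w‖ 2, ← Real.rpow_mul (norm_nonneg _)]
  congr 3; push_cast; ring

theorem phi_cc_sub_cc {i j : Fin 3} (h : i ≠ j) : phi s (g.cc i - g.cc j) = g.tBB := by
  rw [phi_eq_normsq, g.normsq_cc_sub_cc h]; rfl

theorem phi_a_sub_a {i j : Fin 3} (h : i ≠ j) : phi s (g.a i - g.a j) = g.tAA := by
  rw [phi_eq_normsq, g.normsq_a_sub_a h]; rfl

theorem phi_a_sub_cc {i j : Fin 3} (h : i ≠ j) : phi s (g.a i - g.cc j) = g.tAB := by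
  rw [phi_eq_normsq, g.normsq_a_sub_cc h]; rfl

theorem phi_a_sub_cc_self (i : Fin 3) : phi s (g.a i - g.cc i) = g.tAB0 := by
  unfold phi; rw [g.norm_a_sub_cc_self i]; rfl

theorem r₀_pos : 0 < g.r₀ := by
  unfold r₀
  have h1 := g.lam_pos
  have h2 := g.lam_lt_one
  have : 0 < min (1 - g.lam) g.lam := lt_min (by linarith) h1
  linarith

/-- the six centres are `2 r₀`-separated. -/
theorem sep_ctr {l l' : Lab} (h : l ≠ l') : 2 * g.r₀ ≤ ‖g.ctr l - g.ctr l'‖ := by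
  have h1 := g.lam_pos
  have h2 := g.lam_lt_one
  have hr : 2 * g.r₀ = min (1 - g.lam) g.lam := by unfold r₀; ring
  have hl : 2 * g.r₀ ≤ g.lam := by rw [hr]; exact min_le_right _ _
  have hl' : 2 * g.r₀ ≤ 1 - g.lam := by rw [hr]; exact min_le_left _ _
  have key : ∀ (w : E d) (Q : ℝ), ‖w‖ ^ 2 = Q → g.lam ^ 2 ≤ Q → 2 * g.r₀ ≤ ‖w‖ := by
    intro w Q hw hQ
    have h0 := norm_nonneg w
    have : g.lam ≤ ‖w‖ := by
      by_contra hc
      push Not at hc
      nlinarith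
    linarith
  have hAB : ∀ i j : Fin 3, 2 * g.r₀ ≤ ‖g.a i - g.cc j‖ := by
    intro i j
    by_cases hij : i = j
    · subst hij; rw [g.norm_a_sub_cc_self]; exact hl'
    · refine key _ _ (g.normsq_a_sub_cc hij) ?_
      unfold q1; nlinarith
  obtain ⟨b, i⟩ := l
  obtain ⟨b', j⟩ := l'
  cases b <;> cases b'
  · have hij : i ≠ j := fun e => h (by rw [e])
    exact key _ _ (g.normsq_cc_sub_cc hij) (by nlinarith)
  · show 2 * g.r₀ ≤ ‖g.cc i - g.a j‖
    rw [norm_sub_rev]; exact hAB j i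
  · exact hAB i j
  · have hij : i ≠ j := fun e => h (by rw [e])
    exact key _ _ (g.normsq_a_sub_a hij) (by nlinarith)

/-- the force identity: the two tight types through `B_j` need the same slope at `cc j`. -/
theorem force (j : Fin 3) :
    gphi s (g.cc j - g.a (j + 2)) + gphi s (g.cc j - g.cc (j + 1)) =
      gphi s (g.cc j - g.a (j + 1)) + gphi s (g.cc j - g.cc (j + 2)) := by
  have h1 : ∀ j : Fin 3, j ≠ j + 1 := by decide
  have h2 : ∀ j : Fin 3, j ≠ j + 2 := by decide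
  rw [gphi_eq_normsq, gphi_eq_normsq, gphi_eq_normsq, gphi_eq_normsq,
    norm_sub_rev (g.cc j) (g.a (j + 2)), norm_sub_rev (g.cc j) (g.a (j + 1)),
    g.normsq_a_sub_cc (h2 j).symm, g.normsq_a_sub_cc (h1 j).symm,
    g.normsq_cc_sub_cc (h1 j), g.normsq_cc_sub_cc (h2 j)]
  have hl := g.lam_eq
  have hq : g.q1 = 1 + g.lam + g.lam ^ 2 := rfl
  rw [← hq] at hl
  unfold a
  rw [← sub_eq_zero]
  have : (-s * g.q1 ^ (-s / 2 - 1)) • (g.cc j - g.lam • g.cc (j + 2)) +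
        (-s * (3:ℝ) ^ (-s / 2 - 1)) • (g.cc j - g.cc (j + 1)) -
      ((-s * g.q1 ^ (-s / 2 - 1)) • (g.cc j - g.lam • g.cc (j + 1)) +
        (-s * (3:ℝ) ^ (-s / 2 - 1)) • (g.cc j - g.cc (j + 2))) =
      (-s * (g.lam * g.q1 ^ (-s / 2 - 1) - (3:ℝ) ^ (-s / 2 - 1))) •
        (g.cc (j + 1) - g.cc (j + 2)) := by
    module
  rw [this, hl, sub_self, mul_zero, zero_smul]

end Geo
end Crest.Agent.MM
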