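import Crest.Agent.MM.Trans

/-! # GLUE: glue transports between two a.e.-partitions with equal masses into one measure preserving map.

For each `i` take `T i` from `trans` with `(μ.restrict (P i)).map (T i) = μ.restrict (P' i)`; define `T x = T i x` for
`x ∈ P i` (and `T x = x` outside all pieces).  `μ = ∑ i, μ.restrict (P i)` because the pieces are disjoint and exhaust the
mass; the same for `P'`.  `T x ∈ P' i` for a.e. `x ∈ P i` since `(μ.restrict (P i)).map (T i) (P' i)ᶜ = 0`. -/

set_option autoImplicit false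
open MeasureTheory Metric Set
open scoped ENNReal

namespace Crest.Agent.MM

/-- disjoint measurable pieces exhausting the mass decompose the measure. -/
theorem sum_restrict_of_exhaust {X : Type*} [MeasurableSpace X]
    (μ : Measure X) [IsFiniteMeasure μ] {I : Type*} [Fintype I]
    (P : I → Set X) (hPm : ∀ i, MeasurableSet (P i)) (hPd : Pairwise (Function.onFun Disjoint P))
    (hP : ∑ i, μ (P i) = μ univ) : μ = ∑ i, μ.restrict (P i) := by
  rw [← Measure.sum_fintype, ← Measure.restrict_iUnion hPd hPm]
  have htot : μ (⋃ k, P k) = μ univ := by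
    rw [measure_iUnion hPd hPm, tsum_fintype, hP]
  have hnull : μ (⋃ k, P k)ᶜ = 0 := by
    rw [measure_compl (MeasurableSet.iUnion hPm) (measure_ne_top _ _), htot, tsub_self]
  symm
  apply Measure.restrict_eq_self_of_ae_mem
  exact hnull

theorem glue {X : Type*} [MeasurableSpace X] [StandardBorelSpace X] [Nonempty X]
    (μ : Measure X) [IsFiniteMeasure μ] [NullSingletonClass μ] {I : Type*} [Fintype I]
    (P P' : I → Set X) (hPm : ∀ i, MeasurableSet (P i)) (hPm' : ∀ i, MeasurableSet (P' i))
    (hPd : Pairwise (Function.onFun Disjoint P)) (hPd' : Pairwise (Function.onFun Disjoint P'))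
    (hPP' : ∀ i, μ (P i) = μ (P' i)) (hP : ∑ i, μ (P i) = μ univ) :
    ∃ T : X → X, Measurable T ∧ μ.map T = μ ∧ ∀ i, ∀ᵐ x ∂μ, x ∈ P i → T x ∈ P' i := by
  have hμD : μ = Measure.sum (fun k => μ.restrict (P k)) := by
    rw [Measure.sum_fintype]; exact sum_restrict_of_exhaust μ P hPm hPd hP
  have hμE : μ = Measure.sum (fun k => μ.restrict (P' k)) := by
    rw [Measure.sum_fintype]
    exact sum_restrict_of_exhaust μ P' hPm' hPd' (by simp_rw [← hPP']; exact hP)
  rcases isEmpty_or_nonempty I with hκ | hκ
  · exact ⟨id, measurable_id, by simp, fun k => (hκ.false k).elim⟩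
  have h1 : ∀ k, ∃ T : X → X, Measurable T ∧ (μ.restrict (P k)).map T = μ.restrict (P' k) :=
    fun k => trans _ _ (by
      rw [Measure.restrict_apply MeasurableSet.univ, Measure.restrict_apply MeasurableSet.univ,
        univ_inter, univ_inter, hPP' k])
  choose Tk hTm hTk using h1
  obtain ⟨T, hT, hTeq⟩ := exists_measurable_piecewise P hPm Tk hTm (by
    intro i j hij x hx
    exact ((disjoint_left.1 (hPd hij)) hx.1 hx.2).elim)
  have hmapk : ∀ k, (μ.restrict (P k)).map T = μ.restrict (P' k) := by
    intro k
    rw [← hTk k]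
    apply Measure.map_congr
    filter_upwards [ae_restrict_mem (hPm k)] with x hx using hTeq k hx
  refine ⟨T, hT, ?_, ?_⟩
  · conv_lhs => rw [hμD]
    rw [Measure.map_sum hT.aemeasurable]
    simp_rw [hmapk]
    exact hμE.symm
  · intro k
    have h2 : (μ.restrict (P k)).map T (P' k)ᶜ = 0 := by
      rw [hmapk k, Measure.restrict_apply (hPm' k).compl]; simp
    rw [Measure.map_apply hT (hPm' k).compl] at h2
    have h3 : ∀ᵐ x ∂(μ.restrict (P k)), T x ∈ P' k := h2
    exact (ae_restrict_iff' (hPm k)).1 h3

end Crest.Agent.MM
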