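import Crest.Agent.MM.LocSep

/-! # LOC4: the critical-point maps are antilipschitz.

With `da = ‖x-x'‖`, `dy`, `dz`:  from `gy = 0` at both points,
`gphi (y-x) - gphi (y'-x') = -[gphi (y-z) - gphi (y'-z')] - M (y-y')`, so by `hk`, `hL`:
`k (da - dy) ≤ k ‖(y-x)-(y'-x')‖ ≤ L (dy + dz) + M dy`.                                   (1)
From `gz = 0`: `M dz ≤ L (dz + da) + L (dz + dy)`, i.e. `(M - 2L) dz ≤ L (da + dy)`.            (2)
`M - 2L ≥ 2L²/k` gives `L dz ≤ (k/2)(da + dy)`; plug in (1): `(k/2) da ≤ (3k/2 + L + M) dy`.  Symmetrically for `dz`. -/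

set_option autoImplicit false
open MeasureTheory Metric Set
open scoped ENNReal ContDiff RealInnerProductSpace

namespace Crest.Agent.MM
namespace LocCtx

variable {d : ℕ} (C : LocCtx d)

theorem crit_anti_real {k L M da dy dz : ℝ} (hk : 0 < k) (hL : 0 < L)
    (hM : 3 * L + 2 * L ^ 2 / k + 1 ≤ M) (hdz : 0 ≤ dz)
    (e1 : k * (da - dy) ≤ L * (dy + dz) + M * dy)
    (e2 : M * dz ≤ L * (dz + da) + L * (dz + dy)) :
    da ≤ ((3 * k + 2 * L + 2 * M) / k) * dy := by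
  have h3 : 2 * L ^ 2 / k * dz ≤ L * (da + dy) := by
    have : (2 * L ^ 2 / k) * dz ≤ (M - 2 * L) * dz :=
      mul_le_mul_of_nonneg_right (by linarith) hdz
    nlinarith
  have h4 : 2 * L * dz ≤ k * (da + dy) := by
    have h5 : L / k * (2 * L * dz) ≤ L / k * (k * (da + dy)) := by
      have e1 : L / k * (2 * L * dz) = 2 * L ^ 2 / k * dz := by field_simp
      have e2 : L / k * (k * (da + dy)) = L * (da + dy) := by field_simp
      rw [e1, e2]; exact h3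
    exact le_of_mul_le_mul_left h5 (by positivity)
  rw [div_mul_eq_mul_div, le_div_iff₀ hk]
  nlinarith

/-- abstract form of the two norm inequalities. -/
theorem crit_anti_norm {F : Type*} [NormedAddCommGroup F] [NormedSpace ℝ F]
    {A A' B B' p c y y' : F} {M : ℝ} (hM : 0 ≤ M)
    (h : A + B - p + M • (y - c) = 0) (h' : A' + B' - p + M • (y' - c) = 0) :
    ‖A - A'‖ ≤ ‖B - B'‖ + M * ‖y - y'‖ ∧ M * ‖y - y'‖ ≤ ‖A - A'‖ + ‖B - B'‖ := by
  have e : (A - A') + (B - B') + M • (y - y') = 0 := by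
    have : (A - A') + (B - B') + M • (y - y')
        = (A + B - p + M • (y - c)) - (A' + B' - p + M • (y' - c)) := by
      simp only [smul_sub]; abel
    rw [this, h, h', sub_zero]
  have hn : ‖M • (y - y')‖ = M * ‖y - y'‖ := by
    rw [norm_smul, Real.norm_eq_abs, abs_of_nonneg hM]
  constructor
  · have : A - A' = -(B - B') - M • (y - y') := by
      rw [eq_sub_iff_add_eq, eq_neg_iff_add_eq_zero]
      rw [← e]; abel
    rw [this, ← hn]
    calc ‖-(B - B') - M • (y - y')‖ ≤ ‖-(B - B')‖ + ‖M • (y - y')‖ := norm_sub_le _ _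
      _ = ‖B - B'‖ + ‖M • (y - y')‖ := by rw [norm_neg]
  · have : M • (y - y') = -(A - A') - (B - B') := by
      rw [eq_sub_iff_add_eq, eq_neg_iff_add_eq_zero]
      rw [← e]; abel
    rw [← hn, this]
    calc ‖-(A - A') - (B - B')‖ ≤ ‖-(A - A')‖ + ‖B - B'‖ := norm_sub_le _ _
      _ = ‖A - A'‖ + ‖B - B'‖ := by rw [norm_neg]

theorem M_pos : 0 < C.M := by
  have h1 := C.hM
  have h2 := C.hL0
  have h3 := C.hk0
  have : 0 ≤ 2 * C.L ^ 2 / C.k := by positivity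
  linarith

theorem crit_anti {x y z x' y' z' : E d} (hx : x ∈ closedBall C.a₀ C.δ₀)
    (hy : y ∈ closedBall C.c C.δ₀) (hz : z ∈ closedBall C.c' C.δ₀)
    (hx' : x' ∈ closedBall C.a₀ C.δ₀)
    (hy' : y' ∈ closedBall C.c C.δ₀) (hz' : z' ∈ closedBall C.c' C.δ₀)
    (h1 : C.gy x y z = 0) (h2 : C.gz x y z = 0) (h1' : C.gy x' y' z' = 0) (h2' : C.gz x' y' z' = 0) :
    ‖x - x'‖ ≤ ((3 * C.k + 2 * C.L + 2 * C.M) / C.k) * ‖y - y'‖ ∧
    ‖x - x'‖ ≤ ((3 * C.k + 2 * C.L + 2 * C.M) / C.k) * ‖z - z'‖ := by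
  have hM0 := C.M_pos.le
  have hr₀ := C.hr₀
  obtain ⟨ny1, ny2⟩ := crit_anti_norm hM0 h1 h1'
  obtain ⟨nz1, nz2⟩ := crit_anti_norm hM0 h2 h2'
  obtain ⟨syx, syx2⟩ := C.sep_yx hx hy
  obtain ⟨syx', syx2'⟩ := C.sep_yx hx' hy'
  obtain ⟨szx, szx2⟩ := C.sep_zx hx hz
  obtain ⟨szx', szx2'⟩ := C.sep_zx hx' hz'
  obtain ⟨syz, szy⟩ := C.sep_yz hy hz
  obtain ⟨syz', szy'⟩ := C.sep_yz hy' hz'
  have ne : ∀ w : E d, C.r₀ ≤ ‖w‖ → w ≠ 0 := fun w hw h0 => by
    rw [h0, norm_zero] at hw; linarith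
  -- Lipschitz / antilipschitz estimates
  have Lyx := C.hL _ _ syx syx'
  have Lzx := C.hL _ _ szx szx'
  have Lyz := C.hL _ _ syz syz'
  have Lzy := C.hL _ _ szy szy'
  have Kyx := C.hk _ _ (ne _ syx) (ne _ syx') syx2 syx2'
  have Kzx := C.hk _ _ (ne _ szx) (ne _ szx') szx2 szx2'
  -- triangle inequalities
  have t1 : ‖x - x'‖ - ‖y - y'‖ ≤ ‖(y - x) - (y' - x')‖ := by
    have : x - x' = (y - y') - ((y - x) - (y' - x')) := by abel
    have h := norm_sub_le (y - y') ((y - x) - (y' - x'))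
    rw [← this] at h; linarith
  have t2 : ‖x - x'‖ - ‖z - z'‖ ≤ ‖(z - x) - (z' - x')‖ := by
    have : x - x' = (z - z') - ((z - x) - (z' - x')) := by abel
    have h := norm_sub_le (z - z') ((z - x) - (z' - x'))
    rw [← this] at h; linarith
  have t3 : ‖(y - x) - (y' - x')‖ ≤ ‖y - y'‖ + ‖x - x'‖ := by
    have : (y - x) - (y' - x') = (y - y') - (x - x') := by abel
    rw [this]; exact norm_sub_le _ _
  have t4 : ‖(z - x) - (z' - x')‖ ≤ ‖z - z'‖ + ‖x - x'‖ := by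
    have : (z - x) - (z' - x') = (z - z') - (x - x') := by abel
    rw [this]; exact norm_sub_le _ _
  have t5 : ‖(y - z) - (y' - z')‖ ≤ ‖y - y'‖ + ‖z - z'‖ := by
    have : (y - z) - (y' - z') = (y - y') - (z - z') := by abel
    rw [this]; exact norm_sub_le _ _
  have t6 : ‖(z - y) - (z' - y')‖ ≤ ‖z - z'‖ + ‖y - y'‖ := by
    have : (z - y) - (z' - y') = (z - z') - (y - y') := by abel
    rw [this]; exact norm_sub_le _ _
  have hL0 := C.hL0
  have hk0 := C.hk0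
  constructor
  · refine crit_anti_real hk0 hL0 C.hM (norm_nonneg (z - z')) ?_ ?_
    · have a1 : C.k * (‖x - x'‖ - ‖y - y'‖) ≤ C.k * ‖(y - x) - (y' - x')‖ :=
        mul_le_mul_of_nonneg_left t1 hk0.le
      have a2 : C.L * ‖(y - z) - (y' - z')‖ ≤ C.L * (‖y - y'‖ + ‖z - z'‖) :=
        mul_le_mul_of_nonneg_left t5 hL0.le
      linarith
    · have a1 : C.L * ‖(z - x) - (z' - x')‖ ≤ C.L * (‖z - z'‖ + ‖x - x'‖) :=
        mul_le_mul_of_nonneg_left t4 hL0.le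
      have a2 : C.L * ‖(z - y) - (z' - y')‖ ≤ C.L * (‖z - z'‖ + ‖y - y'‖) :=
        mul_le_mul_of_nonneg_left t6 hL0.le
      linarith
  · refine crit_anti_real hk0 hL0 C.hM (norm_nonneg (y - y')) ?_ ?_
    · have a1 : C.k * (‖x - x'‖ - ‖z - z'‖) ≤ C.k * ‖(z - x) - (z' - x')‖ :=
        mul_le_mul_of_nonneg_left t2 hk0.le
      have a2 : C.L * ‖(z - y) - (z' - y')‖ ≤ C.L * (‖z - z'‖ + ‖y - y'‖) :=
        mul_le_mul_of_nonneg_left t6 hL0.le
      linarith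
    · have a1 : C.L * ‖(y - x) - (y' - x')‖ ≤ C.L * (‖y - y'‖ + ‖x - x'‖) :=
        mul_le_mul_of_nonneg_left t3 hL0.le
      have a2 : C.L * ‖(y - z) - (y' - z')‖ ≤ C.L * (‖y - y'‖ + ‖z - z'‖) :=
        mul_le_mul_of_nonneg_left t5 hL0.le
      linarith

end LocCtx
end Crest.Agent.MM
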