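import Crest.Agent.MM.Defs

/-! # PHI1: calculus of `phi`, `gphi`. -/

set_option autoImplicit false
open MeasureTheory Metric Set
open scoped ENNReal ContDiff RealInnerProductSpace

namespace Crest.Agent.MM

variable {F : Type*} [NormedAddCommGroup F] [InnerProductSpace ℝ F]

theorem phi_neg (s : ℝ) (w : F) : phi s (-w) = phi s w := by
  simp [phi, norm_neg]

theorem gphi_neg (s : ℝ) (w : F) : gphi s (-w) = -gphi s w := by
  simp [gphi, norm_neg]

theorem phi_nonneg (s : ℝ) (w : F) : 0 ≤ phi s w :=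
  Real.rpow_nonneg (norm_nonneg _) _

theorem phi_hasFDerivAt (s : ℝ) {w : F} (hw : w ≠ 0) :
    HasFDerivAt (phi s) (innerSL ℝ (gphi s w)) w := by
  have hn : 0 < ‖w‖ := norm_pos_iff.mpr hw
  have h1 : HasFDerivAt (fun x : F => ‖x‖ ^ 2) (2 • innerSL ℝ w) w :=
    (hasStrictFDerivAt_norm_sq w).hasFDerivAt
  have h2 := h1.rpow_const (p := -s / 2) (Or.inl (by positivity))
  have e1 : (phi s : F → ℝ) = fun x : F => (‖x‖ ^ 2) ^ (-s / 2) := by
    funext x
    unfold phi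
    rw [← Real.rpow_natCast, ← Real.rpow_mul (norm_nonneg x)]
    congr 1
    push_cast
    ring
  have e2 : (‖w‖ ^ 2) ^ (-s / 2 - 1) = ‖w‖ ^ (-s - 2) := by
    rw [← Real.rpow_natCast, ← Real.rpow_mul (norm_nonneg w)]
    congr 1
    push_cast
    ring
  have e3 : innerSL ℝ (gphi s w) = (-s / 2 * (‖w‖ ^ 2) ^ (-s / 2 - 1)) • (2 : ℕ) • innerSL ℝ w := by
    rw [e2]
    unfold gphi
    rw [map_smul, ← Nat.cast_smul_eq_nsmul ℝ, smul_smul]
    congr 1
    push_cast
    ring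
  rw [e1, e3]
  exact h2

theorem phi_contDiffAt (s : ℝ) {w : F} (hw : w ≠ 0) : ContDiffAt ℝ ∞ (phi s) w := by
  unfold phi
  exact (contDiffAt_norm ℝ hw).rpow_const_of_ne (norm_ne_zero_iff.mpr hw)

theorem gphi_contDiffAt (s : ℝ) {w : F} (hw : w ≠ 0) : ContDiffAt ℝ ∞ (gphi s : F → F) w := by
  unfold gphi
  exact (contDiffAt_const.mul
    ((contDiffAt_norm ℝ hw).rpow_const_of_ne (norm_ne_zero_iff.mpr hw))).smul contDiffAt_id

end Crest.Agent.MM
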