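import Crest.Agent.MM.LocSep
import Crest.Agent.MM.Phi
import Crest.Agent.MM.Diffeo

/-! # LOC3: `Phi` is smooth and antilipschitz on `Om`; hence smooth critical-point maps `β, β'` near `a₀`.

Antilipschitz (sup norm on products): with `da = ‖x-x'‖` etc. and `N = ‖Phi X - Phi X'‖`:
`N ≥ da`, `N ≥ ‖gy - gy'‖ ≥ M dy - L (dy + da) - L (dy + dz)`, `N ≥ ‖gz - gz'‖ ≥ M dz - L (dz + da) - L (dz + dy)`.
Adding: `(M - 3L)(dy + dz) ≤ 2N + 2L da ≤ 2 (1 + L) N`, and `M - 3L ≥ 1`.  So `K = 2 (1 + L)` works.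
`exists_crit`: by `diffeo`, `Phi '' Om` is open, contains `(a₀, 0, 0) = Phi (a₀, c, c')`, with smooth inverse `g`.  Take `ε` with
`ball (a₀,0,0) ε ⊆ Phi '' Om`, `β x = (g (x,0,0)).2.1`, `β' x = (g (x,0,0)).2.2`; note `(g (x,0,0)).1 = x`. -/

set_option autoImplicit false
open MeasureTheory Metric Set
open scoped ENNReal ContDiff RealInnerProductSpace

namespace Crest.Agent.MM
namespace LocCtx

variable {d : ℕ} (C : LocCtx d)

theorem isOpen_Om : IsOpen C.Om :=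
  isOpen_ball.prod (isOpen_ball.prod isOpen_ball)

theorem mem_Om_iff {X : E d × E d × E d} :
    X ∈ C.Om ↔ X.1 ∈ ball C.a₀ C.δ₀ ∧ X.2.1 ∈ ball C.c C.δ₀ ∧ X.2.2 ∈ ball C.c' C.δ₀ := by
  unfold Om
  simp only [Set.mem_prod]

theorem ne_zero_of_le {w : E d} (h : C.r₀ ≤ ‖w‖) : w ≠ 0 := by
  intro h0
  rw [h0, norm_zero] at h
  exact absurd C.hr₀ (not_lt.2 h)

theorem Phi_contDiffOn : ContDiffOn ℝ ∞ C.Phi C.Om := by
  intro X hX
  apply ContDiffAt.contDiffWithinAt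
  obtain ⟨hx, hy, hz⟩ := (C.mem_Om_iff).1 hX
  have hx' := ball_subset_closedBall hx
  have hy' := ball_subset_closedBall hy
  have hz' := ball_subset_closedBall hz
  have n1 : X.2.1 - X.1 ≠ 0 := C.ne_zero_of_le (C.sep_yx hx' hy').1
  have n2 : X.2.2 - X.1 ≠ 0 := C.ne_zero_of_le (C.sep_zx hx' hz').1
  have n3 : X.2.1 - X.2.2 ≠ 0 := C.ne_zero_of_le (C.sep_yz hy' hz').1
  have n4 : X.2.2 - X.2.1 ≠ 0 := C.ne_zero_of_le (C.sep_yz hy' hz').2
  have c1 : ContDiffAt ℝ ∞ (fun Y : E d × E d × E d => Y.1) X := contDiffAt_fst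
  have c2 : ContDiffAt ℝ ∞ (fun Y : E d × E d × E d => Y.2.1) X :=
    contDiffAt_fst.comp X contDiffAt_snd
  have c3 : ContDiffAt ℝ ∞ (fun Y : E d × E d × E d => Y.2.2) X :=
    contDiffAt_snd.comp X contDiffAt_snd
  have g1 : ContDiffAt ℝ ∞ (fun Y : E d × E d × E d => gphi C.s (Y.2.1 - Y.1)) X :=
    ContDiffAt.comp (g := gphi C.s) (f := fun Y : E d × E d × E d => Y.2.1 - Y.1) X
      (gphi_contDiffAt C.s n1) (c2.sub c1)
  have g2 : ContDiffAt ℝ ∞ (fun Y : E d × E d × E d => gphi C.s (Y.2.2 - Y.1)) X :=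
    ContDiffAt.comp (g := gphi C.s) (f := fun Y : E d × E d × E d => Y.2.2 - Y.1) X
      (gphi_contDiffAt C.s n2) (c3.sub c1)
  have g3 : ContDiffAt ℝ ∞ (fun Y : E d × E d × E d => gphi C.s (Y.2.1 - Y.2.2)) X :=
    ContDiffAt.comp (g := gphi C.s) (f := fun Y : E d × E d × E d => Y.2.1 - Y.2.2) X
      (gphi_contDiffAt C.s n3) (c2.sub c3)
  have g4 : ContDiffAt ℝ ∞ (fun Y : E d × E d × E d => gphi C.s (Y.2.2 - Y.2.1)) X :=
    ContDiffAt.comp (g := gphi C.s) (f := fun Y : E d × E d × E d => Y.2.2 - Y.2.1) X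
      (gphi_contDiffAt C.s n4) (c3.sub c2)
  have hgy : ContDiffAt ℝ ∞ (fun Y : E d × E d × E d => C.gy Y.1 Y.2.1 Y.2.2) X := by
    unfold gy
    exact ((g1.add g3).sub contDiffAt_const).add ((c2.sub contDiffAt_const).const_smul C.M)
  have hgz : ContDiffAt ℝ ∞ (fun Y : E d × E d × E d => C.gz Y.1 Y.2.1 Y.2.2) X := by
    unfold gz
    exact ((g2.add g4).sub contDiffAt_const).add ((c3.sub contDiffAt_const).const_smul C.M)
  exact c1.prodMk (hgy.prodMk hgz)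

theorem Phi_anti : ∀ X ∈ C.Om, ∀ X' ∈ C.Om, ‖X - X'‖ ≤ (2 * (1 + C.L)) * ‖C.Phi X - C.Phi X'‖ := by
  intro X hX X' hX'
  obtain ⟨hx, hy, hz⟩ := (C.mem_Om_iff).1 hX
  obtain ⟨hx2, hy2, hz2⟩ := (C.mem_Om_iff).1 hX'
  have hx' := ball_subset_closedBall hx
  have hy' := ball_subset_closedBall hy
  have hz' := ball_subset_closedBall hz
  have hx2' := ball_subset_closedBall hx2
  have hy2' := ball_subset_closedBall hy2
  have hz2' := ball_subset_closedBall hz2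
  obtain ⟨x, y, z⟩ := X
  obtain ⟨x', y', z'⟩ := X'
  simp only at hx' hy' hz' hx2' hy2' hz2'
  set N := ‖C.Phi (x, y, z) - C.Phi (x', y', z')‖ with hN
  have hL0 := C.hL0
  have hk0 := C.hk0
  have hM := C.hM
  have hN0 : 0 ≤ N := norm_nonneg _
  have e0 : C.Phi (x, y, z) - C.Phi (x', y', z') =
      (x - x', C.gy x y z - C.gy x' y' z', C.gz x y z - C.gz x' y' z') := rfl
  have b1 : ‖x - x'‖ ≤ N := by
    rw [hN, e0]; exact norm_fst_le (x - x', C.gy x y z - C.gy x' y' z', C.gz x y z - C.gz x' y' z')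
  have b23 : ‖(C.gy x y z - C.gy x' y' z', C.gz x y z - C.gz x' y' z')‖ ≤ N := by
    rw [hN, e0]; exact norm_snd_le (x - x', C.gy x y z - C.gy x' y' z', C.gz x y z - C.gz x' y' z')
  have b2 : ‖C.gy x y z - C.gy x' y' z'‖ ≤ N :=
    (norm_fst_le (C.gy x y z - C.gy x' y' z', C.gz x y z - C.gz x' y' z')).trans b23
  have b3 : ‖C.gz x y z - C.gz x' y' z'‖ ≤ N :=
    (norm_snd_le (C.gy x y z - C.gy x' y' z', C.gz x y z - C.gz x' y' z')).trans b23
  -- Lipschitz estimates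
  have l1 : ‖gphi C.s (y - x) - gphi C.s (y' - x')‖ ≤ C.L * (‖y - y'‖ + ‖x - x'‖) := by
    refine (C.hL _ _ (C.sep_yx hx' hy').1 (C.sep_yx hx2' hy2').1).trans ?_
    refine mul_le_mul_of_nonneg_left ?_ hL0.le
    have : y - x - (y' - x') = (y - y') - (x - x') := by abel
    rw [this]; exact norm_sub_le _ _
  have l2 : ‖gphi C.s (y - z) - gphi C.s (y' - z')‖ ≤ C.L * (‖y - y'‖ + ‖z - z'‖) := by
    refine (C.hL _ _ (C.sep_yz hy' hz').1 (C.sep_yz hy2' hz2').1).trans ?_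
    refine mul_le_mul_of_nonneg_left ?_ hL0.le
    have : y - z - (y' - z') = (y - y') - (z - z') := by abel
    rw [this]; exact norm_sub_le _ _
  have l3 : ‖gphi C.s (z - x) - gphi C.s (z' - x')‖ ≤ C.L * (‖z - z'‖ + ‖x - x'‖) := by
    refine (C.hL _ _ (C.sep_zx hx' hz').1 (C.sep_zx hx2' hz2').1).trans ?_
    refine mul_le_mul_of_nonneg_left ?_ hL0.le
    have : z - x - (z' - x') = (z - z') - (x - x') := by abel
    rw [this]; exact norm_sub_le _ _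
  have l4 : ‖gphi C.s (z - y) - gphi C.s (z' - y')‖ ≤ C.L * (‖z - z'‖ + ‖y - y'‖) := by
    refine (C.hL _ _ (C.sep_yz hy' hz').2 (C.sep_yz hy2' hz2').2).trans ?_
    refine mul_le_mul_of_nonneg_left ?_ hL0.le
    have : z - y - (z' - y') = (z - z') - (y - y') := by abel
    rw [this]; exact norm_sub_le _ _
  have hMpos : 0 ≤ C.M := by
    have : 0 ≤ 2 * C.L ^ 2 / C.k := by positivity
    linarith
  have m1 : C.M * ‖y - y'‖ ≤ N + C.L * (‖y - y'‖ + ‖x - x'‖) + C.L * (‖y - y'‖ + ‖z - z'‖) := by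
    have e : C.M • (y - y') = (C.gy x y z - C.gy x' y' z')
        - (gphi C.s (y - x) - gphi C.s (y' - x')) - (gphi C.s (y - z) - gphi C.s (y' - z')) := by
      unfold gy
      have : C.M • (y - y') = C.M • (y - C.c) - C.M • (y' - C.c) := by
        rw [← smul_sub]; congr 1; abel
      rw [this]; abel
    have h1 : ‖C.M • (y - y')‖ = C.M * ‖y - y'‖ := by
      rw [norm_smul, Real.norm_eq_abs, abs_of_nonneg hMpos]
    rw [← h1, e]
    refine (norm_sub_le _ _).trans ?_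
    refine add_le_add ((norm_sub_le _ _).trans (add_le_add b2 l1)) l2
  have m2 : C.M * ‖z - z'‖ ≤ N + C.L * (‖z - z'‖ + ‖x - x'‖) + C.L * (‖z - z'‖ + ‖y - y'‖) := by
    have e : C.M • (z - z') = (C.gz x y z - C.gz x' y' z')
        - (gphi C.s (z - x) - gphi C.s (z' - x')) - (gphi C.s (z - y) - gphi C.s (z' - y')) := by
      unfold gz
      have : C.M • (z - z') = C.M • (z - C.c') - C.M • (z' - C.c') := by
        rw [← smul_sub]; congr 1; abel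
      rw [this]; abel
    have h1 : ‖C.M • (z - z')‖ = C.M * ‖z - z'‖ := by
      rw [norm_smul, Real.norm_eq_abs, abs_of_nonneg hMpos]
    rw [← h1, e]
    refine (norm_sub_le _ _).trans ?_
    refine add_le_add ((norm_sub_le _ _).trans (add_le_add b3 l3)) l4
  have hy0 : 0 ≤ ‖y - y'‖ := norm_nonneg _
  have hz0 : 0 ≤ ‖z - z'‖ := norm_nonneg _
  have hM1 : 1 ≤ C.M - 3 * C.L := by
    have : 0 ≤ 2 * C.L ^ 2 / C.k := by positivity
    linarith
  have key : ‖y - y'‖ + ‖z - z'‖ ≤ 2 * (1 + C.L) * N := by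
    have h1 : (C.M - 3 * C.L) * (‖y - y'‖ + ‖z - z'‖) ≤ 2 * N + 2 * C.L * ‖x - x'‖ := by
      nlinarith [m1, m2]
    have h2 : ‖y - y'‖ + ‖z - z'‖ ≤ (C.M - 3 * C.L) * (‖y - y'‖ + ‖z - z'‖) := by
      nlinarith [add_nonneg hy0 hz0]
    have h3 : 2 * C.L * ‖x - x'‖ ≤ 2 * C.L * N := by
      exact mul_le_mul_of_nonneg_left b1 (by positivity)
    nlinarith
  have e1 : ((x, y, z) : E d × E d × E d) - (x', y', z') = (x - x', y - y', z - z') := rfl
  rw [e1, Prod.norm_def, Prod.norm_def]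
  simp only
  refine max_le ?_ (max_le ?_ ?_)
  · nlinarith
  · linarith
  · linarith

theorem exists_crit : ∃ ε : ℝ, 0 < ε ∧ ε ≤ C.δ₀ ∧ ∃ β β' : E d → E d,
    ContDiffOn ℝ ∞ β (ball C.a₀ ε) ∧ ContDiffOn ℝ ∞ β' (ball C.a₀ ε) ∧ β C.a₀ = C.c ∧ β' C.a₀ = C.c' ∧
    ∀ x ∈ ball C.a₀ ε, β x ∈ ball C.c C.δ₀ ∧ β' x ∈ ball C.c' C.δ₀ ∧
      C.gy x (β x) (β' x) = 0 ∧ C.gz x (β x) (β' x) = 0 := by
  obtain ⟨hopen, -, g, hg, hgl⟩ := diffeo C.isOpen_Om C.Phi_contDiffOn C.Phi_anti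
  have hX₀ : ((C.a₀, C.c, C.c') : E d × E d × E d) ∈ C.Om :=
    (C.mem_Om_iff).2 ⟨mem_ball_self C.hδ₀, mem_ball_self C.hδ₀, mem_ball_self C.hδ₀⟩
  have hPhi₀ : C.Phi (C.a₀, C.c, C.c') = (C.a₀, 0, 0) := by
    unfold Phi
    simp only [C.gy_center, C.gz_center]
  have hmem : ((C.a₀, 0, 0) : E d × E d × E d) ∈ C.Phi '' C.Om := ⟨_, hX₀, hPhi₀⟩
  obtain ⟨ε₁, hε₁, hball⟩ := Metric.isOpen_iff.1 hopen _ hmem
  have hin : ∀ x ∈ ball C.a₀ (min ε₁ C.δ₀), ((x, 0, 0) : E d × E d × E d) ∈ C.Phi '' C.Om := by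
    intro x hx
    apply hball
    rw [mem_ball, Prod.dist_eq, Prod.dist_eq]
    simp only [dist_self]
    have h1 : dist x C.a₀ < ε₁ := lt_of_lt_of_le (mem_ball.1 hx) (min_le_left _ _)
    simp only [max_self]
    exact max_lt h1 hε₁
  have hpt : ∀ x ∈ ball C.a₀ (min ε₁ C.δ₀), g (x, 0, 0) ∈ C.Om ∧ C.Phi (g (x, 0, 0)) = (x, 0, 0) := by
    intro x hx
    obtain ⟨X, hX, hXe⟩ := hin x hx
    have := hgl X hX
    rw [hXe] at this
    rw [this]
    exact ⟨hX, hXe⟩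
  have hι : ContDiff ℝ ∞ (fun x : E d => ((x, 0, 0) : E d × E d × E d)) :=
    contDiff_id.prodMk contDiff_const
  have hcomp : ContDiffOn ℝ ∞ (fun x : E d => g (x, 0, 0)) (ball C.a₀ (min ε₁ C.δ₀)) :=
    hg.comp hι.contDiffOn (fun x hx => hin x hx)
  refine ⟨min ε₁ C.δ₀, lt_min hε₁ C.hδ₀, min_le_right _ _, fun x => (g (x, 0, 0)).2.1,
    fun x => (g (x, 0, 0)).2.2, ?_, ?_, ?_, ?_, ?_⟩
  · exact (contDiff_fst.comp contDiff_snd).comp_contDiffOn hcomp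
  · exact (contDiff_snd.comp contDiff_snd).comp_contDiffOn hcomp
  · have := hgl _ hX₀
    rw [hPhi₀] at this
    simp only [this]
  · have := hgl _ hX₀
    rw [hPhi₀] at this
    simp only [this]
  · intro x hx
    obtain ⟨h1, h2⟩ := hpt x hx
    obtain ⟨-, hy, hz⟩ := (C.mem_Om_iff).1 h1
    have h3 : (g (x, 0, 0)).1 = x := congrArg Prod.fst h2
    have h4 : C.gy (g (x, 0, 0)).1 (g (x, 0, 0)).2.1 (g (x, 0, 0)).2.2 = 0 :=
      congrArg (fun Y : E d × E d × E d => Y.2.1) h2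
    have h5 : C.gz (g (x, 0, 0)).1 (g (x, 0, 0)).2.1 (g (x, 0, 0)).2.2 = 0 :=
      congrArg (fun Y : E d × E d × E d => Y.2.2) h2
    rw [h3] at h4 h5
    exact ⟨hy, hz, h4, h5⟩

end LocCtx
end Crest.Agent.MM
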