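import Crest.Agent.MM.LocMin
import Crest.Agent.MM.LocPhi
import Crest.Agent.MM.LocAnti
import Crest.Agent.MM.PhiLip

/-! # LOC: the local lemma, assembled.

Get `L` from `exists_gphi_lipschitz` (`r₀`), `k` from `exists_gphi_antilipschitz` (`R = ‖a₀-c‖ + ‖a₀-c'‖ + 2δ₀`),
`M₀ = 3L + 2L²/k + 1`; for `M ≥ M₀` build the `LocCtx`, apply `exists_crit`, `min_of_crit`, `crit_anti`.  To make the maps
globally measurable replace them outside `ball a₀ ε` by constants (`ContinuousOn.measurable_piecewise` or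
`Measurable.piecewise` + continuity on the open ball). -/

set_option autoImplicit false
open MeasureTheory Metric Set
open scoped ENNReal ContDiff RealInnerProductSpace

namespace Crest.Agent.MM

theorem loc {d : ℕ} {s : ℝ} (hs : 0 < s) (a₀ c c' : E d) {r₀ δ₀ : ℝ} (hr₀ : 0 < r₀) (hδ₀ : 0 < δ₀)
    (hδ : δ₀ ≤ r₀ / 2) (h1 : 2 * r₀ ≤ ‖a₀ - c‖) (h2 : 2 * r₀ ≤ ‖a₀ - c'‖) (h3 : 2 * r₀ ≤ ‖c - c'‖) :
    ∃ M₀ : ℝ, ∀ M : ℝ, M₀ ≤ M → ∀ V V' : ℝ, ∃ ε : ℝ, 0 < ε ∧ ε ≤ δ₀ ∧ ∃ β β' : E d → E d,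
      Measurable β ∧ Measurable β' ∧ β a₀ = c ∧ β' a₀ = c' ∧
      ContDiffOn ℝ ∞ β (ball a₀ ε) ∧ ContDiffOn ℝ ∞ β' (ball a₀ ε) ∧
      (∀ x ∈ ball a₀ ε, β x ∈ closedBall c δ₀ ∧ β' x ∈ closedBall c' δ₀) ∧
      (∃ K : ℝ, ∀ x ∈ ball a₀ ε, ∀ y ∈ ball a₀ ε, ‖x - y‖ ≤ K * ‖β x - β y‖) ∧
      (∃ K : ℝ, ∀ x ∈ ball a₀ ε, ∀ y ∈ ball a₀ ε, ‖x - y‖ ≤ K * ‖β' x - β' y‖) ∧
      ∀ x ∈ ball a₀ ε, ∀ y ∈ closedBall c δ₀, ∀ z ∈ closedBall c' δ₀,
        (G3 s x (β x) (β' x) - vq V M (gphi s (c - a₀) + gphi s (c - c')) c (β x)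
            - vq V' M (gphi s (c' - a₀) + gphi s (c' - c)) c' (β' x) ≤
          G3 s x y z - vq V M (gphi s (c - a₀) + gphi s (c - c')) c y
            - vq V' M (gphi s (c' - a₀) + gphi s (c' - c)) c' z) ∧
        (G3 s x y z - vq V M (gphi s (c - a₀) + gphi s (c - c')) c y
            - vq V' M (gphi s (c' - a₀) + gphi s (c' - c)) c' z =
          G3 s x (β x) (β' x) - vq V M (gphi s (c - a₀) + gphi s (c - c')) c (β x)
            - vq V' M (gphi s (c' - a₀) + gphi s (c' - c)) c' (β' x) → y = β x ∧ z = β' x) := by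
  classical
  obtain ⟨L, hL0, hL⟩ := exists_gphi_lipschitz (F := E d) hs hr₀
  have hR : 0 < ‖a₀ - c‖ + ‖a₀ - c'‖ + 2 * δ₀ := by positivity
  obtain ⟨k, hk0, hk⟩ := exists_gphi_antilipschitz (F := E d) hs hR
  refine ⟨3 * L + 2 * L ^ 2 / k + 1, fun M hM V V' => ?_⟩
  let C : LocCtx d :=
    { s := s, a₀ := a₀, c := c, c' := c', r₀ := r₀, δ₀ := δ₀
      R := ‖a₀ - c‖ + ‖a₀ - c'‖ + 2 * δ₀, L := L, k := k, M := M
      hs := hs, hr₀ := hr₀, hδ₀ := hδ₀, hδ := hδ, h1 := h1, h2 := h2, h3 := h3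
      hR1 := by have := norm_nonneg (a₀ - c'); linarith
      hR2 := by have := norm_nonneg (a₀ - c); linarith
      hL0 := hL0, hL := hL, hk0 := hk0, hk := hk, hM := hM }
  obtain ⟨ε, hε0, hεδ, β, β', hβ, hβ', hβa, hβ'a, hcrit⟩ := C.exists_crit
  change ε ≤ δ₀ at hεδ
  change ContDiffOn ℝ ∞ β (ball a₀ ε) at hβ
  change ContDiffOn ℝ ∞ β' (ball a₀ ε) at hβ'
  change β a₀ = c at hβa
  change β' a₀ = c' at hβ'a
  have hcrit' : ∀ x ∈ ball a₀ ε, β x ∈ ball c δ₀ ∧ β' x ∈ ball c' δ₀ ∧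
      C.gy x (β x) (β' x) = 0 ∧ C.gz x (β x) (β' x) = 0 := hcrit
  have ha₀ : a₀ ∈ ball a₀ ε := mem_ball_self hε0
  have hsub : ∀ x ∈ ball a₀ ε, x ∈ closedBall a₀ δ₀ := fun x hx =>
    ball_subset_closedBall (ball_subset_ball hεδ hx)
  have eb : ∀ x ∈ ball a₀ ε, (ball a₀ ε).piecewise β (fun _ => c) x = β x := fun x hx =>
    piecewise_eq_of_mem _ _ _ hx
  have eb' : ∀ x ∈ ball a₀ ε, (ball a₀ ε).piecewise β' (fun _ => c') x = β' x := fun x hx =>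
    piecewise_eq_of_mem _ _ _ hx
  refine ⟨ε, hε0, hεδ, (ball a₀ ε).piecewise β (fun _ => c), (ball a₀ ε).piecewise β' (fun _ => c'),
    ?_, ?_, ?_, ?_, ?_, ?_, ?_, ?_, ?_, ?_⟩
  · exact hβ.continuousOn.measurable_piecewise continuousOn_const measurableSet_ball
  · exact hβ'.continuousOn.measurable_piecewise continuousOn_const measurableSet_ball
  · rw [eb _ ha₀, hβa]
  · rw [eb' _ ha₀, hβ'a]
  · exact hβ.congr eb
  · exact hβ'.congr eb'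
  · intro x hx
    rw [eb x hx, eb' x hx]
    exact ⟨ball_subset_closedBall (hcrit' x hx).1, ball_subset_closedBall (hcrit' x hx).2.1⟩
  · refine ⟨(3 * k + 2 * L + 2 * M) / k, fun x hx y hy => ?_⟩
    rw [eb x hx, eb y hy]
    obtain ⟨a1, a2, a3, a4⟩ := hcrit' x hx
    obtain ⟨b1, b2, b3, b4⟩ := hcrit' y hy
    exact (C.crit_anti (hsub x hx) (ball_subset_closedBall a1) (ball_subset_closedBall a2)
      (hsub y hy) (ball_subset_closedBall b1) (ball_subset_closedBall b2) a3 a4 b3 b4).1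
  · refine ⟨(3 * k + 2 * L + 2 * M) / k, fun x hx y hy => ?_⟩
    rw [eb' x hx, eb' y hy]
    obtain ⟨a1, a2, a3, a4⟩ := hcrit' x hx
    obtain ⟨b1, b2, b3, b4⟩ := hcrit' y hy
    exact (C.crit_anti (hsub x hx) (ball_subset_closedBall a1) (ball_subset_closedBall a2)
      (hsub y hy) (ball_subset_closedBall b1) (ball_subset_closedBall b2) a3 a4 b3 b4).2
  · intro x hx y hy z hz
    rw [eb x hx, eb' x hx]
    obtain ⟨a1, a2, a3, a4⟩ := hcrit' x hx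
    exact C.min_of_crit V V' (hsub x hx) (ball_subset_closedBall a1) (ball_subset_closedBall a2)
      a3 a4 hy hz

end Crest.Agent.MM
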