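import Crest.Agent.MM.Defs

/-!
# S0175: the local lemma (strong convexity + inverse function theorem) — context.  FROZEN — do not edit.

One tight type with centres `(a₀, c, c')`.  `H x y z = G3 s x y z - vq V M p c y - vq V' M p' c' z`;
its partial gradients in `y`, `z` are `gy`, `gz`.
-/

set_option autoImplicit false
open MeasureTheory Metric Set
open scoped ENNReal ContDiff RealInnerProductSpace

namespace Crest.Agent.MM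

structure LocCtx (d : ℕ) where
  s : ℝ
  a₀ : E d
  c : E d
  c' : E d
  r₀ : ℝ
  δ₀ : ℝ
  R : ℝ
  L : ℝ
  k : ℝ
  M : ℝ
  hs : 0 < s
  hr₀ : 0 < r₀
  hδ₀ : 0 < δ₀
  hδ : δ₀ ≤ r₀ / 2
  h1 : 2 * r₀ ≤ ‖a₀ - c‖
  h2 : 2 * r₀ ≤ ‖a₀ - c'‖
  h3 : 2 * r₀ ≤ ‖c - c'‖
  hR1 : ‖a₀ - c‖ + 2 * δ₀ ≤ R
  hR2 : ‖a₀ - c'‖ + 2 * δ₀ ≤ R
  hL0 : 0 < L
  hL : ∀ w w' : E d, r₀ ≤ ‖w‖ → r₀ ≤ ‖w'‖ → ‖gphi s w - gphi s w'‖ ≤ L * ‖w - w'‖
  hk0 : 0 < k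
  hk : ∀ w w' : E d, w ≠ 0 → w' ≠ 0 → ‖w‖ ≤ R → ‖w'‖ ≤ R → k * ‖w - w'‖ ≤ ‖gphi s w - gphi s w'‖
  hM : 3 * L + 2 * L ^ 2 / k + 1 ≤ M

namespace LocCtx

variable {d : ℕ} (C : LocCtx d)

noncomputable def p : E d := gphi C.s (C.c - C.a₀) + gphi C.s (C.c - C.c')
noncomputable def p' : E d := gphi C.s (C.c' - C.a₀) + gphi C.s (C.c' - C.c)

/-- `∇_y H` -/
noncomputable def gy (x y z : E d) : E d :=
  gphi C.s (y - x) + gphi C.s (y - z) - C.p + C.M • (y - C.c)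

/-- `∇_z H` -/
noncomputable def gz (x y z : E d) : E d :=
  gphi C.s (z - x) + gphi C.s (z - y) - C.p' + C.M • (z - C.c')

noncomputable def H (V V' : ℝ) (x y z : E d) : ℝ :=
  G3 C.s x y z - vq V C.M C.p C.c y - vq V' C.M C.p' C.c' z

/-- the map to be inverted -/
noncomputable def Phi (X : E d × E d × E d) : E d × E d × E d :=
  (X.1, C.gy X.1 X.2.1 X.2.2, C.gz X.1 X.2.1 X.2.2)

/-- the open region -/
def Om : Set (E d × E d × E d) := ball C.a₀ C.δ₀ ×ˢ ball C.c C.δ₀ ×ˢ ball C.c' C.δ₀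

end LocCtx

end Crest.Agent.MM
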