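import Crest.Agent.MM.LocMono

/-! # LOC2: a critical point in the region is the unique minimiser of `H x` over the region.

Let `h t = H x (y₀ + t (y - y₀)) (z₀ + t (z - z₀))`, `t ∈ [0,1]` (the segment stays in the product of closed balls, all
differences are `≠ 0` by `sep_*`).  `h' t = ⟪gy x y_t z_t, y - y₀⟫ + ⟪gz x y_t z_t, z - z₀⟫` (`phi_hasFDerivAt`, `gphi_neg`).
Since `gy = gz = 0` at `(y₀,z₀)`, `mono` gives `t h' t ≥ (M - 3L) t² D`, `D = ‖y-y₀‖² + ‖z-z₀‖²`, and `M - 3L ≥ 1`.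
So `h' > 0` on `(0,1]` when `D > 0`: `h` strictly increasing (`strictMonoOn_of_deriv_pos`), `h 0 < h 1`. -/

set_option autoImplicit false
open MeasureTheory Metric Set
open scoped ENNReal ContDiff RealInnerProductSpace

namespace Crest.Agent.MM

theorem phi_line_hasDerivAt {d : ℕ} (s : ℝ) (w₀ e : E d) (t : ℝ) (h : w₀ + t • e ≠ 0) :
    HasDerivAt (fun t : ℝ => phi s (w₀ + t • e)) ⟪gphi s (w₀ + t • e), e⟫ t := by
  have h1 : HasDerivAt (fun t : ℝ => w₀ + t • e) e t := by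
    simpa using ((hasDerivAt_id t).smul_const e).const_add w₀
  have h2 := (phi_hasFDerivAt s h).comp_hasDerivAt t h1
  have h3 : (innerSL ℝ (gphi s (w₀ + t • e))) e = ⟪gphi s (w₀ + t • e), e⟫ := by simp
  rw [h3] at h2
  exact h2

theorem vq_line_hasDerivAt {d : ℕ} (V M : ℝ) (p c y₀ e : E d) (t : ℝ) :
    HasDerivAt (fun t : ℝ => vq V M p c (y₀ + t • e)) (⟪p, e⟫ - M * ⟪y₀ + t • e - c, e⟫) t := by
  have h1 : HasDerivAt (fun t : ℝ => y₀ + t • e - c) e t := by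
    simpa using (((hasDerivAt_id t).smul_const e).const_add y₀).sub_const c
  have hin := (hasDerivAt_const t p).inner ℝ h1
  have hsq := h1.norm_sq
  have := (hin.const_add V).sub (hsq.const_mul (M / 2))
  unfold vq
  refine this.congr_deriv ?_
  simp
  ring

namespace LocCtx

variable {d : ℕ} (C : LocCtx d)

/-- derivative of `H` along a segment. -/
theorem H_hasDerivAt (V V' : ℝ) {x y₀ z₀ : E d} (ey ez : E d) (t : ℝ)
    (h1 : y₀ + t • ey - x ≠ 0) (h2 : z₀ + t • ez - x ≠ 0) (h3 : y₀ + t • ey - (z₀ + t • ez) ≠ 0) :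
    HasDerivAt (fun t : ℝ => C.H V V' x (y₀ + t • ey) (z₀ + t • ez))
      (⟪C.gy x (y₀ + t • ey) (z₀ + t • ez), ey⟫ + ⟪C.gz x (y₀ + t • ey) (z₀ + t • ez), ez⟫) t := by
  have e1 : ∀ t : ℝ, y₀ + t • ey - x = (y₀ - x) + t • ey := fun t => by abel
  have e2 : ∀ t : ℝ, z₀ + t • ez - x = (z₀ - x) + t • ez := fun t => by abel
  have e3 : ∀ t : ℝ, y₀ + t • ey - (z₀ + t • ez) = (y₀ - z₀) + t • (ey - ez) := fun t => by
    rw [smul_sub]; abel
  have d1 := phi_line_hasDerivAt C.s (y₀ - x) ey t (by rw [← e1]; exact h1)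
  have d2 := phi_line_hasDerivAt C.s (z₀ - x) ez t (by rw [← e2]; exact h2)
  have d3 := phi_line_hasDerivAt C.s (y₀ - z₀) (ey - ez) t (by rw [← e3]; exact h3)
  have d4 := vq_line_hasDerivAt V C.M C.p C.c y₀ ey t
  have d5 := vq_line_hasDerivAt V' C.M C.p' C.c' z₀ ez t
  have hfun : (fun t : ℝ => C.H V V' x (y₀ + t • ey) (z₀ + t • ez)) = fun t : ℝ =>
      phi C.s ((y₀ - x) + t • ey) + phi C.s ((z₀ - x) + t • ez)
        + phi C.s ((y₀ - z₀) + t • (ey - ez)) - vq V C.M C.p C.c (y₀ + t • ey)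
        - vq V' C.M C.p' C.c' (z₀ + t • ez) := by
    funext t
    unfold H G3
    rw [← e1, ← e2, ← e3, ← phi_neg C.s (y₀ + t • ey - x), ← phi_neg C.s (z₀ + t • ez - x),
      neg_sub, neg_sub]
  rw [hfun]
  refine ((((d1.add d2).add d3).sub d4).sub d5).congr_deriv ?_
  unfold gy gz
  rw [← e1, ← e2, ← e3]
  have hneg : gphi C.s (z₀ + t • ez - (y₀ + t • ey)) = - gphi C.s (y₀ + t • ey - (z₀ + t • ez)) := by
    rw [← gphi_neg, neg_sub]
  rw [hneg]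
  simp only [inner_add_left, inner_sub_left, inner_sub_right, inner_neg_left, inner_smul_left]
  simp
  ring

theorem min_of_crit (V V' : ℝ) {x y₀ z₀ y z : E d} (hx : x ∈ closedBall C.a₀ C.δ₀)
    (hy₀ : y₀ ∈ closedBall C.c C.δ₀) (hz₀ : z₀ ∈ closedBall C.c' C.δ₀)
    (hgy : C.gy x y₀ z₀ = 0) (hgz : C.gz x y₀ z₀ = 0)
    (hy : y ∈ closedBall C.c C.δ₀) (hz : z ∈ closedBall C.c' C.δ₀) :
    C.H V V' x y₀ z₀ ≤ C.H V V' x y z ∧ (C.H V V' x y z = C.H V V' x y₀ z₀ → y = y₀ ∧ z = z₀) := by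
  by_cases hD : y = y₀ ∧ z = z₀
  · obtain ⟨rfl, rfl⟩ := hD
    exact ⟨le_rfl, fun _ => ⟨rfl, rfl⟩⟩
  set D : ℝ := ‖y - y₀‖ ^ 2 + ‖z - z₀‖ ^ 2 with hDdef
  have hDpos : 0 < D := by
    rcases not_and_or.1 hD with h | h
    · have : 0 < ‖y - y₀‖ := norm_pos_iff.2 (sub_ne_zero.2 h)
      positivity
    · have : 0 < ‖z - z₀‖ := norm_pos_iff.2 (sub_ne_zero.2 h)
      positivity
  have hML : 1 ≤ C.M - 3 * C.L := by
    have h1 : 0 ≤ 2 * C.L ^ 2 / C.k := by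
      have := C.hk0
      positivity
    have := C.hM
    linarith
  let h : ℝ → ℝ := fun t => C.H V V' x (y₀ + t • (y - y₀)) (z₀ + t • (z - z₀))
  have hyt : ∀ t ∈ Icc (0 : ℝ) 1, y₀ + t • (y - y₀) ∈ closedBall C.c C.δ₀ := fun t ht =>
    (convex_closedBall C.c C.δ₀).add_smul_sub_mem hy₀ hy ht
  have hzt : ∀ t ∈ Icc (0 : ℝ) 1, z₀ + t • (z - z₀) ∈ closedBall C.c' C.δ₀ := fun t ht =>
    (convex_closedBall C.c' C.δ₀).add_smul_sub_mem hz₀ hz ht
  have hne : ∀ w : E d, C.r₀ ≤ ‖w‖ → w ≠ 0 := by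
    intro w hw h0
    rw [h0, norm_zero] at hw
    exact absurd C.hr₀ (not_lt.2 hw)
  have hder : ∀ t ∈ Icc (0 : ℝ) 1, HasDerivAt h
      (⟪C.gy x (y₀ + t • (y - y₀)) (z₀ + t • (z - z₀)), y - y₀⟫ +
        ⟪C.gz x (y₀ + t • (y - y₀)) (z₀ + t • (z - z₀)), z - z₀⟫) t := by
    intro t ht
    exact C.H_hasDerivAt V V' (y - y₀) (z - z₀) t
      (hne _ (C.sep_yx hx (hyt t ht)).1) (hne _ (C.sep_zx hx (hzt t ht)).1)
      (hne _ (C.sep_yz (hyt t ht) (hzt t ht)).1)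
  have hpos : ∀ t ∈ Ioc (0 : ℝ) 1, 0 <
      ⟪C.gy x (y₀ + t • (y - y₀)) (z₀ + t • (z - z₀)), y - y₀⟫ +
        ⟪C.gz x (y₀ + t • (y - y₀)) (z₀ + t • (z - z₀)), z - z₀⟫ := by
    intro t ht
    have ht' : t ∈ Icc (0 : ℝ) 1 := ⟨ht.1.le, ht.2⟩
    have hm := C.mono hx (hyt t ht') (hzt t ht') hy₀ hz₀
    rw [hgy, hgz, sub_zero, sub_zero, add_sub_cancel_left, add_sub_cancel_left,
      inner_smul_right, inner_smul_right, norm_smul, norm_smul, mul_pow, mul_pow,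
      Real.norm_eq_abs, sq_abs, ← mul_add, ← mul_add] at hm
    have h1 : 0 < (C.M - 3 * C.L) * (t ^ 2 * D) := by
      have := ht.1
      have h2 : 0 < C.M - 3 * C.L := by linarith
      positivity
    have h2 := lt_of_lt_of_le h1 hm
    exact (pos_iff_pos_of_mul_pos h2).1 ht.1
  have hmono : StrictMonoOn h (Icc (0 : ℝ) 1) := by
    refine strictMonoOn_of_deriv_pos (convex_Icc 0 1) ?_ ?_
    · intro t ht
      exact (hder t ht).continuousAt.continuousWithinAt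
    · intro t ht
      rw [interior_Icc] at ht
      rw [(hder t ⟨ht.1.le, ht.2.le⟩).deriv]
      exact hpos t ⟨ht.1, ht.2.le⟩
  have hlt : h 0 < h 1 := hmono (by simp) (by simp) one_pos
  have h0 : h 0 = C.H V V' x y₀ z₀ := by simp [h]
  have h1 : h 1 = C.H V V' x y z := by simp [h]
  rw [h0, h1] at hlt
  exact ⟨hlt.le, fun he => absurd he hlt.ne'⟩

end LocCtx
end Crest.Agent.MM
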