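import Crest.Agent.MM.LocSep
import Crest.Agent.MM.Phi

/-! # LOC1: strong monotonicity of the gradient `(gy, gz)` in `(y, z)`.

`gy x y z - gy x y' z' = [gphi (y-x) - gphi (y'-x)] + [gphi (y-z) - gphi (y'-z')] + M (y-y')`, similarly for `gz`, and
`gphi (z-y) = -gphi (y-z)` (`gphi_neg`), so the two cross terms combine to
`⟪gphi (y-z) - gphi (y'-z'), (y-z) - (y'-z')⟫ ≥ -L ‖(y-z)-(y'-z')‖² ≥ -2L (‖y-y'‖² + ‖z-z'‖²)`.
The other two are `≥ -L‖y-y'‖²`, `≥ -L‖z-z'‖²` (Cauchy–Schwarz + `hL`). -/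

set_option autoImplicit false
open MeasureTheory Metric Set
open scoped ENNReal ContDiff RealInnerProductSpace

namespace Crest.Agent.MM
namespace LocCtx

variable {d : ℕ} (C : LocCtx d)

/-- Cauchy–Schwarz + Lipschitz bound. -/
theorem inner_gphi_ge {w w' : E d} (hw : C.r₀ ≤ ‖w‖) (hw' : C.r₀ ≤ ‖w'‖) :
    -(C.L * ‖w - w'‖ ^ 2) ≤ ⟪gphi C.s w - gphi C.s w', w - w'⟫ := by
  have h1 := abs_real_inner_le_norm (gphi C.s w - gphi C.s w') (w - w')
  have h2 := C.hL w w' hw hw'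
  have h3 : ‖gphi C.s w - gphi C.s w'‖ * ‖w - w'‖ ≤ C.L * ‖w - w'‖ * ‖w - w'‖ :=
    mul_le_mul_of_nonneg_right h2 (norm_nonneg _)
  have h4 := (abs_le.mp h1).1
  nlinarith

theorem mono {x y z y' z' : E d} (hx : x ∈ closedBall C.a₀ C.δ₀)
    (hy : y ∈ closedBall C.c C.δ₀) (hz : z ∈ closedBall C.c' C.δ₀)
    (hy' : y' ∈ closedBall C.c C.δ₀) (hz' : z' ∈ closedBall C.c' C.δ₀) :
    (C.M - 3 * C.L) * (‖y - y'‖ ^ 2 + ‖z - z'‖ ^ 2) ≤
      ⟪C.gy x y z - C.gy x y' z', y - y'⟫ + ⟪C.gz x y z - C.gz x y' z', z - z'⟫ := by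
  have a1 := C.inner_gphi_ge (C.sep_yx hx hy).1 (C.sep_yx hx hy').1
  have a2 := C.inner_gphi_ge (C.sep_zx hx hz).1 (C.sep_zx hx hz').1
  have a3 := C.inner_gphi_ge (C.sep_yz hy hz).1 (C.sep_yz hy' hz').1
  have e1 : y - x - (y' - x) = y - y' := by abel
  have e2 : z - x - (z' - x) = z - z' := by abel
  have e3 : y - z - (y' - z') = (y - y') - (z - z') := by abel
  rw [e1] at a1
  rw [e2] at a2
  rw [e3] at a3
  have n1 : gphi C.s (z - y) = -gphi C.s (y - z) := by
    rw [← gphi_neg, neg_sub]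
  have n2 : gphi C.s (z' - y') = -gphi C.s (y' - z') := by
    rw [← gphi_neg, neg_sub]
  have g1 : C.gy x y z - C.gy x y' z' =
      (gphi C.s (y - x) - gphi C.s (y' - x)) + (gphi C.s (y - z) - gphi C.s (y' - z'))
        + C.M • (y - y') := by
    unfold gy
    have : C.M • (y - y') = C.M • (y - C.c) - C.M • (y' - C.c) := by
      rw [← smul_sub]; congr 1; abel
    rw [this]; abel
  have g2 : C.gz x y z - C.gz x y' z' =
      (gphi C.s (z - x) - gphi C.s (z' - x)) - (gphi C.s (y - z) - gphi C.s (y' - z'))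
        + C.M • (z - z') := by
    unfold gz
    have : C.M • (z - z') = C.M • (z - C.c') - C.M • (z' - C.c') := by
      rw [← smul_sub]; congr 1; abel
    rw [this, n1, n2]; abel
  rw [g1, g2]
  generalize gphi C.s (y - x) - gphi C.s (y' - x) = A at *
  generalize gphi C.s (z - x) - gphi C.s (z' - x) = B at *
  generalize gphi C.s (y - z) - gphi C.s (y' - z') = D at *
  generalize y - y' = u at *
  generalize z - z' = v at *
  rw [inner_add_left, inner_add_left, inner_add_left, inner_sub_left, inner_smul_left,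
    inner_smul_left, real_inner_self_eq_norm_sq, real_inner_self_eq_norm_sq]
  rw [inner_sub_right] at a3
  simp only [RCLike.conj_to_real]
  -- parallelogram-type bound
  have p1 : ‖u - v‖ ^ 2 ≤ 2 * (‖u‖ ^ 2 + ‖v‖ ^ 2) := by
    have h := parallelogram_law_with_norm ℝ u v
    nlinarith [sq_nonneg ‖u + v‖]
  have hL0 := C.hL0
  nlinarith

end LocCtx
end Crest.Agent.MM
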