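import Crest.Agent.MM.LocDefs

/-! # LOC0: separation in the region (triangle inequalities). -/

set_option autoImplicit false
open MeasureTheory Metric Set
open scoped ENNReal ContDiff RealInnerProductSpace

namespace Crest.Agent.MM
namespace LocCtx

variable {d : ℕ} (C : LocCtx d)

theorem tri_lower (a c x y : E d) : ‖a - c‖ ≤ ‖x - a‖ + ‖y - x‖ + ‖y - c‖ := by
  have h : a - c = -(x - a) + -(y - x) + (y - c) := by abel
  calc ‖a - c‖ = ‖-(x - a) + -(y - x) + (y - c)‖ := by rw [← h]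
    _ ≤ ‖-(x - a) + -(y - x)‖ + ‖y - c‖ := norm_add_le _ _
    _ ≤ ‖-(x - a)‖ + ‖-(y - x)‖ + ‖y - c‖ := by gcongr; exact norm_add_le _ _
    _ = ‖x - a‖ + ‖y - x‖ + ‖y - c‖ := by rw [norm_neg, norm_neg]

theorem tri_upper (a c x y : E d) : ‖y - x‖ ≤ ‖x - a‖ + ‖a - c‖ + ‖y - c‖ := by
  have h : y - x = -(x - a) + -(a - c) + (y - c) := by abel
  calc ‖y - x‖ = ‖-(x - a) + -(a - c) + (y - c)‖ := by rw [← h]
    _ ≤ ‖-(x - a) + -(a - c)‖ + ‖y - c‖ := norm_add_le _ _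
    _ ≤ ‖-(x - a)‖ + ‖-(a - c)‖ + ‖y - c‖ := by gcongr; exact norm_add_le _ _
    _ = ‖x - a‖ + ‖a - c‖ + ‖y - c‖ := by rw [norm_neg, norm_neg]

theorem sep_yx {x y : E d} (hx : x ∈ closedBall C.a₀ C.δ₀) (hy : y ∈ closedBall C.c C.δ₀) :
    C.r₀ ≤ ‖y - x‖ ∧ ‖y - x‖ ≤ C.R := by
  rw [mem_closedBall_iff_norm] at hx hy
  have h1 := tri_lower C.a₀ C.c x y
  have h2 := tri_upper C.a₀ C.c x y
  have := C.h1
  have := C.hR1
  have := C.hδ
  constructor <;> linarith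

theorem sep_zx {x z : E d} (hx : x ∈ closedBall C.a₀ C.δ₀) (hz : z ∈ closedBall C.c' C.δ₀) :
    C.r₀ ≤ ‖z - x‖ ∧ ‖z - x‖ ≤ C.R := by
  rw [mem_closedBall_iff_norm] at hx hz
  have h1 := tri_lower C.a₀ C.c' x z
  have h2 := tri_upper C.a₀ C.c' x z
  have := C.h2
  have := C.hR2
  have := C.hδ
  constructor <;> linarith

theorem sep_yz {y z : E d} (hy : y ∈ closedBall C.c C.δ₀) (hz : z ∈ closedBall C.c' C.δ₀) :
    C.r₀ ≤ ‖y - z‖ ∧ C.r₀ ≤ ‖z - y‖ := by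
  rw [mem_closedBall_iff_norm] at hy hz
  have h1 := tri_lower C.c C.c' y z
  have := C.h3
  have := C.hδ
  have h : C.r₀ ≤ ‖z - y‖ := by linarith
  exact ⟨by rw [norm_sub_rev]; exact h, h⟩

theorem gy_center : C.gy C.a₀ C.c C.c' = 0 := by
  simp [gy, p]

theorem gz_center : C.gz C.a₀ C.c C.c' = 0 := by
  simp [gz, p']

end LocCtx
end Crest.Agent.MM
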