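import Crest.Agent.MM.Defs

/-! # NM: the abstract non-existence mechanism.

Proof.  For `k = 1, 2` let `W = {x ∈ B_k | T x ∈ A ∧ x = β_k (T x)}` (measurable) and `P = A ∩ β_k ⁻¹' W`.
Then `W ⊆ T ⁻¹' P`, so `μ P = μ (T ⁻¹' P) ≥ μ W = (μ.restrict B_k) W = (μ.restrict A).map β_k W + o_k W = μ P + o_k W`;
`μ` finite ⇒ `o_k W = 0` ⇒ (abs. continuity) `(μ.restrict A).map β_k W = 0` ⇒ `μ W = 0`.
Finally `μ A = μ (T ⁻¹' A) ≤ μ W₁ + μ W₂ = 0`. -/

set_option autoImplicit false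
open MeasureTheory Metric Set
open scoped ENNReal ContDiff RealInnerProductSpace

namespace Crest.Agent.MM

/-- one branch of the mechanism. -/
theorem no_monge_aux {d : ℕ} (μ : Measure (E d)) [IsFiniteMeasure μ] {T : E d → E d}
    (hT : Measurable T) (hTμ : μ.map T = μ)
    {A B : Set (E d)} (hA : MeasurableSet A) (hB : MeasurableSet B)
    {β : E d → E d} (hβ : Measurable β) {o : Measure (E d)}
    (h : μ.restrict B = (μ.restrict A).map β + o)
    (hac : (μ.restrict A).map β ≪ o) :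
    μ {x | x ∈ B ∧ T x ∈ A ∧ x = β (T x)} = 0 := by
  set W : Set (E d) := {x | x ∈ B ∧ T x ∈ A ∧ x = β (T x)} with hW
  have hWm : MeasurableSet W := by
    have h1 : MeasurableSet {x : E d | x = β (T x)} :=
      measurableSet_eq_fun measurable_id (hβ.comp hT)
    have h2 : W = B ∩ (T ⁻¹' A ∩ {x : E d | x = β (T x)}) := by
      ext x
      constructor
      · rintro ⟨a, b, c⟩; exact ⟨a, b, c⟩
      · rintro ⟨a, b, c⟩; exact ⟨a, b, c⟩
    rw [h2]
    exact hB.inter ((hT hA).inter h1)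
  set P : Set (E d) := A ∩ β ⁻¹' W with hP
  have hPm : MeasurableSet P := hA.inter (hβ hWm)
  have hsub : W ⊆ T ⁻¹' P := by
    intro x hx
    have hx' := hx
    obtain ⟨_, h2, h3⟩ := hx
    refine ⟨h2, ?_⟩
    show β (T x) ∈ W
    rw [← h3]; exact hx'
  have e1 : μ P = μ (T ⁻¹' P) := by
    conv_lhs => rw [← hTμ]
    exact Measure.map_apply hT hPm
  have e2 : μ W ≤ μ P := by rw [e1]; exact measure_mono hsub
  have e3 : μ W = (μ.restrict B) W := by
    rw [Measure.restrict_apply hWm]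
    congr 1
    ext x
    constructor
    · intro hx; exact ⟨hx, hx.1⟩
    · intro hx; exact hx.1
  have e4 : ((μ.restrict A).map β) W = μ P := by
    rw [Measure.map_apply hβ hWm, Measure.restrict_apply (hβ hWm), hP, Set.inter_comm]
  have e5 : μ W = μ P + o W := by
    rw [e3, h, Measure.add_apply, e4]
  have e6 : o W = 0 := by
    have h7 : μ P + o W ≤ μ P + 0 := by rw [add_zero, ← e5]; exact e2
    have := (ENNReal.add_le_add_iff_left (measure_ne_top μ P)).1 h7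
    exact le_antisymm this zero_le
  have e7 : ((μ.restrict A).map β) W = 0 := hac e6
  rw [e5, ← e4, e7, e6, add_zero]

theorem no_monge {d : ℕ} (μ : Measure (E d)) [IsFiniteMeasure μ] {T : E d → E d}
    (hT : Measurable T) (hTμ : μ.map T = μ)
    {A B₁ B₂ : Set (E d)} (hA : MeasurableSet A) (hB₁ : MeasurableSet B₁) (hB₂ : MeasurableSet B₂)
    {β₁ β₂ : E d → E d} (hβ₁ : Measurable β₁) (hβ₂ : Measurable β₂) {o₁ o₂ : Measure (E d)}
    (h₁ : μ.restrict B₁ = (μ.restrict A).map β₁ + o₁)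
    (h₂ : μ.restrict B₂ = (μ.restrict A).map β₂ + o₂)
    (hac₁ : (μ.restrict A).map β₁ ≪ o₁) (hac₂ : (μ.restrict A).map β₂ ≪ o₂)
    (hT' : ∀ᵐ x ∂μ, T x ∈ A → (x ∈ B₁ ∧ x = β₁ (T x)) ∨ (x ∈ B₂ ∧ x = β₂ (T x))) :
    μ A = 0 := by
  have w1 := no_monge_aux μ hT hTμ hA hB₁ hβ₁ h₁ hac₁
  have w2 := no_monge_aux μ hT hTμ hA hB₂ hβ₂ h₂ hac₂
  have e1 : μ A = μ (T ⁻¹' A) := by
    conv_lhs => rw [← hTμ]
    exact Measure.map_apply hT hA
  rw [e1]
  have hnull : μ {x | ¬ (T x ∈ A → (x ∈ B₁ ∧ x = β₁ (T x)) ∨ (x ∈ B₂ ∧ x = β₂ (T x)))} = 0 := hT'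
  refine measure_mono_null ?_ (measure_union_null (measure_union_null w1 w2) hnull)
  intro x hx
  by_cases hc : (T x ∈ A → (x ∈ B₁ ∧ x = β₁ (T x)) ∨ (x ∈ B₂ ∧ x = β₂ (T x)))
  · rcases hc hx with h | h
    · exact Or.inl (Or.inl ⟨h.1, hx, h.2⟩)
    · exact Or.inl (Or.inr ⟨h.1, hx, h.2⟩)
  · exact Or.inr hc

end Crest.Agent.MM
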