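import Crest.Agent.MM.DualEq

/-! # OPT: optimality package, from `dual_le`, `dual_eq`, `dual_ae`. -/

set_option autoImplicit false
open MeasureTheory Metric Set
open scoped ENNReal ContDiff RealInnerProductSpace
open Crest.AnalysisR.OT

namespace Crest.Agent.MM

/-- the dual value is finite. -/
theorem dual_value_ne_top {d : ℕ} (μ : Measure (E d)) [IsProbabilityMeasure μ]
    {u : E d → ℝ} {K : ℝ} (huK : ∀ x, |u x| ≤ K) :
    3 * ∫⁻ x, ENNReal.ofReal (u x + K) ∂μ ≠ ⊤ := by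
  refine ENNReal.mul_ne_top (by simp) ?_
  have : ∫⁻ x, ENNReal.ofReal (u x + K) ∂μ ≤ ∫⁻ _x, ENNReal.ofReal (2 * K) ∂μ := by
    refine lintegral_mono fun x => ENNReal.ofReal_le_ofReal ?_
    have := (abs_le.1 (huK x)).2
    linarith
  refine ne_top_of_le_ne_top ?_ this
  rw [lintegral_const, measure_univ, mul_one]
  exact ENNReal.ofReal_ne_top

theorem opt {d : ℕ} {s : ℝ} (hs : 0 < s) (μ : Measure (E d)) [IsProbabilityMeasure μ]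
    {u : E d → ℝ} (hu : Measurable u) {K : ℝ} (huK : ∀ x, |u x| ≤ K)
    {S : Set (E d)} (hS : MeasurableSet S) (hμS : μ Sᶜ = 0)
    (feas : ∀ x ∈ S, ∀ y ∈ S, ∀ z ∈ S, x ≠ y → x ≠ z → y ≠ z → u x + u y + u z ≤ G3 s x y z)
    {π₀ : Measure (E d × E d × E d)} (hπ₀ : IsCoupling₃ μ π₀)
    (tight : ∀ᵐ p ∂π₀, p.1 ≠ p.2.1 ∧ p.1 ≠ p.2.2 ∧ p.2.1 ≠ p.2.2 ∧
      u p.1 + u p.2.1 + u p.2.2 = G3 s p.1 p.2.1 p.2.2) :
    ∫⁻ p, tripleCost s p ∂π₀ < ⊤ ∧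
    (∀ π : Measure (E d × E d × E d), IsCoupling₃ μ π →
      ∫⁻ p, tripleCost s p ∂π₀ ≤ ∫⁻ p, tripleCost s p ∂π) ∧
    (∀ T₂ T₃ : E d → E d, Measurable T₂ → Measurable T₃ → μ.map T₂ = μ → μ.map T₃ = μ →
      ∫⁻ x, tripleCost s (x, T₂ x, T₃ x) ∂μ ≤ ∫⁻ p, tripleCost s p ∂π₀ →
      ∀ᵐ x ∂μ, x ∈ S ∧ T₂ x ∈ S ∧ T₃ x ∈ S ∧ x ≠ T₂ x ∧ x ≠ T₃ x ∧ T₂ x ≠ T₃ x ∧
        u x + u (T₂ x) + u (T₃ x) = G3 s x (T₂ x) (T₃ x)) := by
  have heq := dual_eq hs μ hu huK hπ₀ tight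
  have hfin := dual_value_ne_top μ huK
  refine ⟨?_, ?_, ?_⟩
  · refine lt_of_le_of_lt (le_add_right le_rfl) (lt_top_iff_ne_top.2 (heq ▸ hfin))
  · intro π hπ
    have hle := dual_le hs μ hu huK hS hμS feas hπ
    rw [← heq] at hle
    exact (ENNReal.add_le_add_iff_right ENNReal.ofReal_ne_top).1 hle
  · intro T₂ T₃ h2 h3 m2 m3 hcost
    have hc := isCoupling_mongePlan h2 h3 m2 m3
    have hle : ∫⁻ p, tripleCost s p ∂(mongePlan μ T₂ T₃) + ENNReal.ofReal (3 * K) ≤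
        3 * ∫⁻ x, ENNReal.ofReal (u x + K) ∂μ := by
      rw [lintegral_mongePlan h2 h3 (measurable_tripleCost s), ← heq]
      gcongr
    have h := dual_ae hs μ hu huK hS hμS feas hc hle
    unfold mongePlan at h
    exact ae_of_ae_map (measurable_mongeMap h2 h3).aemeasurable h

end Crest.Agent.MM
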