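import Crest.Agent.MM.SysDefs
import Crest.Agent.MM.Feas
import Crest.Agent.MM.Loc

/-! # POT: existence of a `Pot g`, from `Geo.feas` (gives `δ₀`) and `loc` applied to the three types
`(a₀, c, c') = (g.a i, g.cc (i+1), g.cc (i+2))` with `V = V' = g.V`.

Separation hypotheses from `Geo.sep_ctr`.  `M = max` of the three `M₀` and `0`; `ε = min` of the three `ε`.
Slopes: `gphi (c - a₀) + gphi (c - c') = g.p (i+1)` by definition (`i+1+2 = i`, `i+1+1 = i+2` in `Fin 3`), and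
`gphi (c' - a₀) + gphi (c' - c) = g.p (i+2)` by `Geo.force (i+2)` (`i+2+1 = i`, `i+2+2 = i+1`).  `fin_cases i` helps. -/

set_option autoImplicit false
open MeasureTheory Metric Set
open scoped ENNReal ContDiff RealInnerProductSpace

namespace Crest.Agent.MM

theorem Geo.slope1 {d : ℕ} {s : ℝ} (g : Geo d s) (i : Fin 3) :
    gphi s (g.cc (i + 1) - g.a i) + gphi s (g.cc (i + 1) - g.cc (i + 2)) = g.p (i + 1) := by
  have e1 : i + 1 + 2 = i := by revert i; decide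
  have e2 : i + 1 + 1 = i + 2 := by revert i; decide
  unfold Geo.p
  rw [e1, e2]

theorem Geo.slope2 {d : ℕ} {s : ℝ} (g : Geo d s) (i : Fin 3) :
    gphi s (g.cc (i + 2) - g.a i) + gphi s (g.cc (i + 2) - g.cc (i + 1)) = g.p (i + 2) := by
  have e1 : i + 2 + 1 = i := by revert i; decide
  have e2 : i + 2 + 2 = i + 1 := by revert i; decide
  unfold Geo.p
  rw [g.force (i + 2), e1, e2]

/-- `loc` for the type `i`, rewritten with `g.H`. -/
theorem Geo.loc_type {d : ℕ} {s : ℝ} (g : Geo d s) {δ₀ : ℝ} (hδ₀ : 0 < δ₀) (hδ : δ₀ ≤ g.r₀ / 2)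
    (i : Fin 3) :
    ∃ M₀ : ℝ, ∀ M : ℝ, M₀ ≤ M → ∃ ε : ℝ, 0 < ε ∧ ε ≤ δ₀ ∧ ∃ β β' : E d → E d,
      Measurable β ∧ Measurable β' ∧ β (g.a i) = g.cc (i + 1) ∧ β' (g.a i) = g.cc (i + 2) ∧
      ContDiffOn ℝ ∞ β (ball (g.a i) ε) ∧ ContDiffOn ℝ ∞ β' (ball (g.a i) ε) ∧
      (∀ x ∈ ball (g.a i) ε, β x ∈ closedBall (g.cc (i + 1)) δ₀ ∧
        β' x ∈ closedBall (g.cc (i + 2)) δ₀) ∧
      (∃ K : ℝ, ∀ x ∈ ball (g.a i) ε, ∀ y ∈ ball (g.a i) ε, ‖x - y‖ ≤ K * ‖β x - β y‖) ∧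
      (∃ K : ℝ, ∀ x ∈ ball (g.a i) ε, ∀ y ∈ ball (g.a i) ε, ‖x - y‖ ≤ K * ‖β' x - β' y‖) ∧
      ∀ x ∈ ball (g.a i) ε, ∀ y ∈ closedBall (g.cc (i + 1)) δ₀, ∀ z ∈ closedBall (g.cc (i + 2)) δ₀,
        (g.H M i x (β x) (β' x) ≤ g.H M i x y z) ∧
        (g.H M i x y z = g.H M i x (β x) (β' x) → y = β x ∧ z = β' x) := by
  have key : ∀ j : Fin 3, j + 1 ≠ j + 2 := by decide
  have n1 : ((true, i) : Lab) ≠ (false, i + 1) := by simp
  have n2 : ((true, i) : Lab) ≠ (false, i + 2) := by simp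
  have n3 : ((false, i + 1) : Lab) ≠ (false, i + 2) := by
    intro h
    have h' : i + 1 = i + 2 := (Prod.ext_iff.1 h).2
    exact key i h'
  have h1 : 2 * g.r₀ ≤ ‖g.a i - g.cc (i + 1)‖ := by
    have h := g.sep_ctr n1
    exact h
  have h2 : 2 * g.r₀ ≤ ‖g.a i - g.cc (i + 2)‖ := by
    have h := g.sep_ctr n2
    exact h
  have h3 : 2 * g.r₀ ≤ ‖g.cc (i + 1) - g.cc (i + 2)‖ := by
    have h := g.sep_ctr n3
    exact h
  obtain ⟨M₀, hM₀⟩ := loc g.s_pos (g.a i) (g.cc (i + 1)) (g.cc (i + 2)) g.r₀_pos hδ₀ hδ h1 h2 h3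
  refine ⟨M₀, fun M hM => ?_⟩
  have := hM₀ M hM g.V g.V
  rw [g.slope1 i, g.slope2 i] at this
  simp only [Geo.H, Geo.v]
  exact this

theorem exists_pot {d : ℕ} {s : ℝ} (g : Geo d s) : Nonempty (Pot g) := by
  obtain ⟨δ₀, hδ0, hδle, hnt⟩ := g.feas
  choose M₀ hM₀ using fun i => g.loc_type hδ0 hδle i
  set M : ℝ := max (max (M₀ 0) (M₀ 1)) (max (M₀ 2) 0) with hM
  have hMi : ∀ i, M₀ i ≤ M := by
    intro i
    fin_cases i
    · exact (le_max_left _ _).trans (le_max_left _ _)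
    · exact (le_max_right _ _).trans (le_max_left _ _)
    · exact (le_max_left _ _).trans (le_max_right _ _)
  have hM0 : 0 ≤ M := (le_max_right _ _).trans (le_max_right _ _)
  choose ε' hε'0 hε'le β β' hβm hβ'm hβc hβ'c hβs hβ's hmaps hanti hanti' hmin using
    fun i => hM₀ i M (hMi i)
  set ε : ℝ := min (min (ε' 0) (ε' 1)) (ε' 2) with hε
  have hεi : ∀ i, ε ≤ ε' i := by
    intro i
    fin_cases i
    · exact (min_le_left _ _).trans (min_le_left _ _)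
    · exact (min_le_left _ _).trans (min_le_right _ _)
    · exact min_le_right _ _
  have hε0 : 0 < ε := lt_min (lt_min (hε'0 0) (hε'0 1)) (hε'0 2)
  have hsub : ∀ i, ball (g.a i) ε ⊆ ball (g.a i) (ε' i) := fun i => ball_subset_ball (hεi i)
  exact ⟨{
    δ₀ := δ₀
    M := M
    ε := ε
    β := β
    β' := β'
    δ₀_pos := hδ0
    δ₀_le := hδle
    M_nonneg := hM0
    ε_pos := hε0
    ε_le := (hεi 0).trans (hε'le 0)
    nontight := hnt
    β_meas := hβm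
    β'_meas := hβ'm
    β_center := hβc
    β'_center := hβ'c
    β_smooth := fun i => (hβs i).mono (hsub i)
    β'_smooth := fun i => (hβ's i).mono (hsub i)
    β_maps := fun i x hx => (hmaps i x (hsub i hx)).1
    β'_maps := fun i x hx => (hmaps i x (hsub i hx)).2
    β_anti := fun i => by
      obtain ⟨K, hK⟩ := hanti i
      exact ⟨K, fun x hx y hy => hK x (hsub i hx) y (hsub i hy)⟩
    β'_anti := fun i => by
      obtain ⟨K, hK⟩ := hanti' i
      exact ⟨K, fun x hx y hy => hK x (hsub i hx) y (hsub i hy)⟩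
    min_le := fun i x hx y hy z hz => (hmin i x (hsub i hx) y hy z hz).1
    min_eq := fun i x hx y hy z hz => (hmin i x (hsub i hx) y hy z hz).2 }⟩

end Crest.Agent.MM
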