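import Crest.Agent.MM.PotFeas
import Crest.Agent.MM.PotExists
import Crest.Agent.MM.GeoCenters

/-! # SYS: existence of a `Sys d s` (pure assembly of `exists_geo`, `exists_pot`, `Pot.*`, `Geo.sep_ctr`, `Geo.r₀_pos`). -/

set_option autoImplicit false
open MeasureTheory Metric Set
open scoped ENNReal ContDiff RealInnerProductSpace

namespace Crest.Agent.MM

theorem exists_sys {d : ℕ} (hd : 2 ≤ d) {s : ℝ} (hs : 0 < s) : Nonempty (Sys d s) := by
  obtain ⟨g⟩ := exists_geo hd hs
  obtain ⟨P⟩ := exists_pot g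
  obtain ⟨K, hK⟩ := P.u_bdd
  exact ⟨{
    a := g.a
    c := g.cc
    r₀ := g.r₀
    δ₀ := P.δ₀
    ε := P.ε
    β := P.β
    β' := P.β'
    u := P.u
    K := K
    s_pos := hs
    r₀_pos := g.r₀_pos
    δ₀_pos := P.δ₀_pos
    δ₀_le := P.δ₀_le
    ε_pos := P.ε_pos
    ε_le := P.ε_le
    sep_aa := fun i j h => g.sep_ctr (l := (true, i)) (l' := (true, j)) (fun e => h (Prod.ext_iff.1 e).2)
    sep_cc := fun i j h => g.sep_ctr (l := (false, i)) (l' := (false, j)) (fun e => h (Prod.ext_iff.1 e).2)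
    sep_ac := fun i j => g.sep_ctr (l := (true, i)) (l' := (false, j))
      (fun e => Bool.noConfusion (Prod.ext_iff.1 e).1)
    β_meas := P.β_meas
    β'_meas := P.β'_meas
    β_center := P.β_center
    β'_center := P.β'_center
    β_smooth := P.β_smooth
    β'_smooth := P.β'_smooth
    β_maps := P.β_maps
    β'_maps := P.β'_maps
    β_anti := P.β_anti
    β'_anti := P.β'_anti
    u_meas := P.u_measurable
    u_bdd := hK
    feas := fun x hx y hy z hz hxy hxz hyz => P.feas hx hy hz hxy hxz hyz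
    eq_imp := fun x hx y hy z hz hxy hxz hyz h i hyi => P.eq_imp hx hy hz hxy hxz hyz h i hyi
    tight_eq := fun i x hx => P.tight_eq i hx }⟩

end Crest.Agent.MM
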