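import Crest.Agent.MM.Pi0
import Crest.Agent.MM.Opt
import Crest.Agent.MM.NoMonge
import Crest.Agent.MM.Approx
import Crest.Agent.MM.DensExists
import Crest.Agent.MM.SysExists

/-! # MAIN: the final assembly.

`no_monge_opt`: suppose the Monge cost is `≤` the cost of `pi0`.  By `opt` (third part), for `mu`-a.e. `x` the triple `(x, T₂ x, T₃ x)` is in `S³`,
distinct and tight; `Sys.eq_imp` with `i = 0`, `y = T₂ x` gives: `T₂ x ∈ ball (a 0) ε → x = β 0 (T₂ x) ∨ x = β' 0 (T₂ x)`, and then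
`x ∈ closedBall (c 1) δ₀` resp. `closedBall (c 2) δ₀` (`β_maps`).  Apply `no_monge` with `A = ball (a 0) ε`, `B₁ = closedBall (c 1) δ₀`,
`B₂ = closedBall (c 2) δ₀`, `β₁ = β 0`, `β₂ = β' 0`, `o₁ = (m 2).map (β' 2)`, `o₂ = (m 1).map (β 1)` (`mu_restrict_A`, `mu_restrict_B`, `ac1`, `ac2`):
`mu (ball (a 0) ε) = 0`, but it equals `m 0 univ = 1/9`. -/

set_option autoImplicit false
open MeasureTheory Metric Set
open scoped ENNReal ContDiff RealInnerProductSpace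
open Crest.AnalysisR.OT

namespace Crest.Agent.MM
namespace Dens

variable {d : ℕ} {s : ℝ} {Y : Sys d s} (D : Dens Y)

theorem no_monge_opt (T₂ T₃ : E d → E d) (h₂ : Measurable T₂) (h₃ : Measurable T₃)
    (hm₂ : D.mu.map T₂ = D.mu) (hm₃ : D.mu.map T₃ = D.mu) :
    ∫⁻ p, tripleCost s p ∂D.pi0 < ∫⁻ x, tripleCost s (x, T₂ x, T₃ x) ∂D.mu := by
  by_contra hcon
  rw [not_lt] at hcon
  have hprob : IsProbabilityMeasure D.mu := ⟨D.mu_univ⟩
  obtain ⟨-, -, h3⟩ := opt Y.s_pos D.mu Y.u_meas Y.u_bdd (Dens.measurableSet_S (Y := Y)) D.mu_compl_S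
    (fun x hx y hy z hz => Y.feas x hx y hy z hz) D.pi0_coupling D.pi0_tight
  have hae := h3 T₂ T₃ h₂ h₃ hm₂ hm₃ hcon
  have e12 : (1 + 2 : Fin 3) = 0 := by decide
  have e11 : (1 + 1 : Fin 3) = 2 := by decide
  have e22 : (2 + 2 : Fin 3) = 1 := by decide
  have e21 : (2 + 1 : Fin 3) = 0 := by decide
  have e01 : (0 + 1 : Fin 3) = 1 := by decide
  have e02 : (0 + 2 : Fin 3) = 2 := by decide
  have hB1 : D.mu.restrict (closedBall (Y.c 1) Y.δ₀) =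
      (D.mu.restrict (ball (Y.a 0) Y.ε)).map (Y.β 0) + (D.m 2).map (Y.β' 2) := by
    have := D.mu_restrict_B 1
    rw [e12, e11] at this
    rw [this, D.mu_restrict_A 0]
  have hB2 : D.mu.restrict (closedBall (Y.c 2) Y.δ₀) =
      (D.mu.restrict (ball (Y.a 0) Y.ε)).map (Y.β' 0) + (D.m 1).map (Y.β 1) := by
    have := D.mu_restrict_B 2
    rw [e22, e21] at this
    rw [this, D.mu_restrict_A 0, add_comm]
  have hzero : D.mu (ball (Y.a 0) Y.ε) = 0 := by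
    refine no_monge D.mu h₂ hm₂ measurableSet_ball measurableSet_closedBall
      measurableSet_closedBall (Y.β_meas 0) (Y.β'_meas 0) hB1 hB2 ?_ ?_ ?_
    · rw [D.mu_restrict_A 0]; exact D.ac1
    · rw [D.mu_restrict_A 0]; exact D.ac2
    · filter_upwards [hae] with x hx hxA
      obtain ⟨hxS, hyS, hzS, hxy, hxz, hyz, heq⟩ := hx
      rcases Y.eq_imp x hxS (T₂ x) hyS (T₃ x) hzS hxy hxz hyz heq 0 hxA with h | h
      · left
        refine ⟨?_, h⟩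
        have := Y.β_maps 0 (T₂ x) hxA
        rw [e01, ← h] at this
        exact this
      · right
        refine ⟨?_, h⟩
        have := Y.β'_maps 0 (T₂ x) hxA
        rw [e02, ← h] at this
        exact this
  have hmass : D.mu (ball (Y.a 0) Y.ε) = 1 / 9 := by
    have h1 : D.mu (ball (Y.a 0) Y.ε) = (D.mu.restrict (ball (Y.a 0) Y.ε)) univ := by
      rw [Measure.restrict_apply MeasurableSet.univ, univ_inter]
    rw [h1, D.mu_restrict_A 0]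
    exact D.mass 0
  rw [hzero] at hmass
  have h9 : (1 / 9 : ℝ≥0∞) ≠ 0 := by simp
  exact h9 hmass.symm

end Dens

theorem main (d : ℕ) (hd : 2 ≤ d) (s : ℝ) (hs : 0 < s) :
    ∃ ρ : EuclideanSpace ℝ (Fin d) → ℝ, (∀ x, 0 ≤ ρ x) ∧ ContDiff ℝ ∞ ρ ∧ HasCompactSupport ρ ∧
      ContDiff ℝ ∞ (fun x => Real.sqrt (ρ x)) ∧ ∫ x, ρ x = 1 ∧
      ∃ π₀ : Measure (EuclideanSpace ℝ (Fin d) × EuclideanSpace ℝ (Fin d) × EuclideanSpace ℝ (Fin d)),
        IsCoupling₃ (measOfDensity ρ) π₀ ∧ ∫⁻ p, tripleCost s p ∂π₀ < ⊤ ∧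
        (∀ π : Measure (EuclideanSpace ℝ (Fin d) × EuclideanSpace ℝ (Fin d) × EuclideanSpace ℝ (Fin d)), IsCoupling₃ (measOfDensity ρ) π →
          ∫⁻ p, tripleCost s p ∂π₀ ≤ ∫⁻ p, tripleCost s p ∂π) ∧
        (∀ T₂ T₃ : EuclideanSpace ℝ (Fin d) → EuclideanSpace ℝ (Fin d), Measurable T₂ → Measurable T₃ →
          (measOfDensity ρ).map T₂ = measOfDensity ρ → (measOfDensity ρ).map T₃ = measOfDensity ρ →
          ∫⁻ p, tripleCost s p ∂π₀ < ∫⁻ x, tripleCost s (x, T₂ x, T₃ x) ∂(measOfDensity ρ)) ∧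
        (∀ ε : ℝ≥0∞, 0 < ε → ∃ T₂ T₃ : EuclideanSpace ℝ (Fin d) → EuclideanSpace ℝ (Fin d), Measurable T₂ ∧ Measurable T₃ ∧
          (measOfDensity ρ).map T₂ = measOfDensity ρ ∧ (measOfDensity ρ).map T₃ = measOfDensity ρ ∧
          ∫⁻ x, tripleCost s (x, T₂ x, T₃ x) ∂(measOfDensity ρ) < ∫⁻ p, tripleCost s p ∂π₀ + ε) := by
  obtain ⟨Y⟩ := exists_sys hd hs
  obtain ⟨D⟩ := exists_dens Y
  have hprob : IsProbabilityMeasure D.mu := ⟨D.mu_univ⟩
  obtain ⟨h1, h2, -⟩ := opt Y.s_pos D.mu Y.u_meas Y.u_bdd (Dens.measurableSet_S (Y := Y)) D.mu_compl_S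
    (fun x hx y hy z hz => Y.feas x hx y hy z hz) D.pi0_coupling D.pi0_tight
  obtain ⟨R, hR⟩ := D.mu_bounded
  exact ⟨D.rho, D.rho_nonneg, D.rho_smooth, D.rho_cpt, D.sqrt_rho_smooth, D.integral_rho, D.pi0,
    D.pi0_coupling, h1, h2, D.no_monge_opt,
    fun ε hε => approx (by omega) hs D.mu D.mu_ac R hR D.pi0 D.pi0_coupling Y.r₀ Y.r₀_pos
      D.pi0_sep ε hε⟩

end Crest.Agent.MM
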