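import Crest.Agent.MM.Pieces
import Crest.Agent.MM.Glue
import Crest.Agent.MM.CellsAux

/-! # CELLS: a Monge pair with the same cell statistics as a given coupling.

Let `w j k l = π₀ (Q j ×ˢ Q k ×ˢ Q l)`.  By the marginal conditions `∑_{k,l} w j k l = μ (Q j)` etc.  `pieces` (three times,
with `κ = ι × ι` and re-indexing) gives `P¹ P² P³ : ι × ι × ι → Set X` with `P¹ (j,k,l) ⊆ Q j`, `P² (j,k,l) ⊆ Q k`,
`P³ (j,k,l) ⊆ Q l`, all of `μ`-mass `w j k l`.  `glue` gives `T₂` (`P¹ → P²`) and `T₃` (`P¹ → P³`).  A.e. `x` lies in exactly one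
`P¹ I`, and then `x ∈ Q j ∩ T₂⁻¹ Q k ∩ T₃⁻¹ Q l` iff `I = (j,k,l)` (cells are disjoint). -/

set_option autoImplicit false
open MeasureTheory Metric Set
open scoped ENNReal
open Crest.AnalysisR.OT

namespace Crest.Agent.MM

/-- re-indexing of a fibre sum. -/
theorem sum_filter_reindex {ι : Type*} [Fintype ι] [DecidableEq ι] (F : ι × ι × ι → ℝ≥0∞)
    (f : ι × ι × ι → ι) (i : ι) (g : ι × ι → ι × ι × ι) (hg : Function.Injective g)
    (hfg : ∀ k, f k = i ↔ ∃ a, g a = k) :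
    ∑ k ∈ Finset.univ.filter (fun k => f k = i), F k = ∑ a, F (g a) := by
  have : Finset.univ.filter (fun k => f k = i) = Finset.univ.image g := by
    ext k
    simp [hfg k]
  rw [this, Finset.sum_image (fun a _ b _ h => hg h)]

/-- marginal sums of the cell weights. -/
theorem cell_sums {X : Type*} [MeasurableSpace X] (μ : Measure X) {ι : Type*} [Fintype ι]
    (Q : ι → Set X) (hQm : ∀ i, MeasurableSet (Q i)) (hQd : Pairwise (Function.onFun Disjoint Q))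
    (hQc : ⋃ i, Q i = univ) (π₀ : Measure (X × X × X)) (hπ₀ : IsCoupling₃ μ π₀) :
    (∀ j, ∑ kl : ι × ι, π₀ (Q j ×ˢ Q kl.1 ×ˢ Q kl.2) = μ (Q j)) ∧
    (∀ k, ∑ jl : ι × ι, π₀ (Q jl.1 ×ˢ Q k ×ˢ Q jl.2) = μ (Q k)) ∧
    (∀ l, ∑ jk : ι × ι, π₀ (Q jk.1 ×ˢ Q jk.2 ×ˢ Q l) = μ (Q l)) := by
  classical
  obtain ⟨h1, h2, h3⟩ := hπ₀
  refine ⟨fun j => ?_, fun k => ?_, fun l => ?_⟩
  · rw [← marginal_sum Q hQm hQd hQc π₀ _ measurable_fst h1 (fun k => k.1) (fun k p hp => hp.1) j]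
    rw [sum_filter_reindex (fun k => π₀ (cell Q k)) (fun k => k.1) j (fun a => (j, a.1, a.2))]
    · rfl
    · intro a b h
      simp only [Prod.mk.injEq, true_and] at h
      exact Prod.ext h.1 h.2
    · rintro ⟨a, b, c⟩
      constructor
      · rintro rfl
        exact ⟨(b, c), rfl⟩
      · rintro ⟨x, hx⟩
        simp only [Prod.mk.injEq] at hx
        exact hx.1.symm
  · rw [← marginal_sum Q hQm hQd hQc π₀ _ (measurable_fst.comp measurable_snd) h2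
      (fun k => k.2.1) (fun k p hp => hp.2.1) k]
    rw [sum_filter_reindex (fun k => π₀ (cell Q k)) (fun k => k.2.1) k (fun a => (a.1, k, a.2))]
    · rfl
    · intro a b h
      simp only [Prod.mk.injEq, true_and] at h
      exact Prod.ext h.1 h.2
    · rintro ⟨a, b, c⟩
      constructor
      · rintro rfl
        exact ⟨(a, c), rfl⟩
      · rintro ⟨x, hx⟩
        simp only [Prod.mk.injEq] at hx
        exact hx.2.1.symm
  · rw [← marginal_sum Q hQm hQd hQc π₀ _ (measurable_snd.comp measurable_snd) h3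
      (fun k => k.2.2) (fun k p hp => hp.2.2) l]
    rw [sum_filter_reindex (fun k => π₀ (cell Q k)) (fun k => k.2.2) l (fun a => (a.1, a.2, l))]
    · rfl
    · intro a b h
      simp only [Prod.mk.injEq, and_true] at h
      exact Prod.ext h.1 h.2
    · rintro ⟨a, b, c⟩
      constructor
      · rintro rfl
        exact ⟨(a, b), rfl⟩
      · rintro ⟨x, hx⟩
        simp only [Prod.mk.injEq] at hx
        exact hx.2.2.symm

theorem monge_cells {X : Type*} [MeasurableSpace X] [StandardBorelSpace X] [Nonempty X]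
    (μ : Measure X) [IsFiniteMeasure μ] [NullSingletonClass μ] {ι : Type*} [Fintype ι]
    (Q : ι → Set X) (hQm : ∀ i, MeasurableSet (Q i)) (hQd : Pairwise (Function.onFun Disjoint Q))
    (hQc : ⋃ i, Q i = univ) (π₀ : Measure (X × X × X)) (hπ₀ : IsCoupling₃ μ π₀) :
    ∃ T₂ T₃ : X → X, Measurable T₂ ∧ Measurable T₃ ∧ μ.map T₂ = μ ∧ μ.map T₃ = μ ∧
      ∀ j k l, μ (Q j ∩ T₂ ⁻¹' (Q k) ∩ T₃ ⁻¹' (Q l)) = π₀ (Q j ×ˢ Q k ×ˢ Q l) := by
  classical
  obtain ⟨hs1, hs2, hs3⟩ := cell_sums μ Q hQm hQd hQc π₀ hπ₀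
  obtain ⟨P1, hP1m, hP1Q, hP1d, hP1w⟩ := pieces μ Q hQm hQd
    (fun j (kl : ι × ι) => π₀ (Q j ×ˢ Q kl.1 ×ˢ Q kl.2)) hs1
  obtain ⟨P2, hP2m, hP2Q, hP2d, hP2w⟩ := pieces μ Q hQm hQd
    (fun k (jl : ι × ι) => π₀ (Q jl.1 ×ˢ Q k ×ˢ Q jl.2)) hs2
  obtain ⟨P3, hP3m, hP3Q, hP3d, hP3w⟩ := pieces μ Q hQm hQd
    (fun l (jk : ι × ι) => π₀ (Q jk.1 ×ˢ Q jk.2 ×ˢ Q l)) hs3
  set D1 : ι × ι × ι → Set X := fun I => P1 I.1 (I.2.1, I.2.2) with hD1
  set D2 : ι × ι × ι → Set X := fun I => P2 I.2.1 (I.1, I.2.2) with hD2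
  set D3 : ι × ι × ι → Set X := fun I => P3 I.2.2 (I.1, I.2.1) with hD3
  have hD1m : ∀ I, MeasurableSet (D1 I) := fun I => hP1m _ _
  have hD2m : ∀ I, MeasurableSet (D2 I) := fun I => hP2m _ _
  have hD3m : ∀ I, MeasurableSet (D3 I) := fun I => hP3m _ _
  have hD1d : Pairwise (Function.onFun Disjoint D1) := by
    rintro ⟨a, b, c⟩ ⟨a', b', c'⟩ h
    apply hP1d
    intro h'
    apply h
    simp only [Prod.mk.injEq] at h' ⊢
    exact ⟨h'.1, h'.2.1, h'.2.2⟩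
  have hD2d : Pairwise (Function.onFun Disjoint D2) := by
    rintro ⟨a, b, c⟩ ⟨a', b', c'⟩ h
    apply hP2d
    intro h'
    apply h
    simp only [Prod.mk.injEq] at h' ⊢
    exact ⟨h'.2.1, h'.1, h'.2.2⟩
  have hD3d : Pairwise (Function.onFun Disjoint D3) := by
    rintro ⟨a, b, c⟩ ⟨a', b', c'⟩ h
    apply hP3d
    intro h'
    apply h
    simp only [Prod.mk.injEq] at h' ⊢
    exact ⟨h'.2.1, h'.2.2, h'.1⟩
  have hD1w : ∀ I, μ (D1 I) = π₀ (cell Q I) := fun I => hP1w _ _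
  have hD2w : ∀ I, μ (D2 I) = π₀ (cell Q I) := fun I => hP2w _ _
  have hD3w : ∀ I, μ (D3 I) = π₀ (cell Q I) := fun I => hP3w _ _
  have hπuniv : π₀ univ = μ univ := by
    rw [← hπ₀.1, Measure.map_apply measurable_fst MeasurableSet.univ, preimage_univ]
  have htot : ∑ I, μ (D1 I) = μ univ := by
    simp_rw [hD1w]
    rw [← measure_univ_eq_sum_cells hQm hQd hQc π₀, hπuniv]
  obtain ⟨T₂, hT₂, hT₂μ, hT₂E⟩ := glue μ D1 D2 hD1m hD2m hD1d hD2d
    (fun I => by rw [hD1w, hD2w]) htot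
  obtain ⟨T₃, hT₃, hT₃μ, hT₃E⟩ := glue μ D1 D3 hD1m hD3m hD1d hD3d
    (fun I => by rw [hD1w, hD3w]) htot
  refine ⟨T₂, T₃, hT₂, hT₃, hT₂μ, hT₃μ, ?_⟩
  have hcov : ∀ᵐ x ∂μ, ∃ I, x ∈ D1 I := by
    have htot' : μ (⋃ k, D1 k) = μ univ := by
      rw [measure_iUnion hD1d hD1m, tsum_fintype, htot]
    have hnull : μ (⋃ k, D1 k)ᶜ = 0 := by
      rw [measure_compl (MeasurableSet.iUnion hD1m) (measure_ne_top _ _), htot', tsub_self]
    have : ∀ᵐ x ∂μ, x ∈ ⋃ k, D1 k := hnull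
    filter_upwards [this] with x hx using by simpa using hx
  intro j k l
  have hkey : (Q j ∩ T₂ ⁻¹' (Q k) ∩ T₃ ⁻¹' (Q l) : Set X) =ᵐ[μ] D1 (j, k, l) := by
    rw [Filter.eventuallyEq_set]
    filter_upwards [hcov, ae_all_iff.2 hT₂E, ae_all_iff.2 hT₃E] with x hx h2 h3
    constructor
    · rintro ⟨⟨hxj, hxk⟩, hxl⟩
      obtain ⟨⟨j', k', l'⟩, hI⟩ := hx
      have e1 : j' = j := by
        by_contra h; exact (disjoint_left.1 (hQd h)) (hP1Q _ _ hI) hxj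
      have e2 : k' = k := by
        by_contra h; exact (disjoint_left.1 (hQd h)) (hP2Q _ _ (h2 _ hI)) hxk
      have e3 : l' = l := by
        by_contra h; exact (disjoint_left.1 (hQd h)) (hP3Q _ _ (h3 _ hI)) hxl
      subst e1 e2 e3
      exact hI
    · intro hI
      exact ⟨⟨hP1Q _ _ hI, hP2Q _ _ (h2 _ hI)⟩, hP3Q _ _ (h3 _ hI)⟩
  rw [measure_congr hkey, hD1w]
  rfl

end Crest.Agent.MM
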