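import Crest.Agent.MM.RhoBasic

/-! # MU: the marginal `mu = measOfDensity rho`: decomposition, mass, restrictions, absolute continuity.

`measOfDensity (f + g) = measOfDensity f + measOfDensity g` for measurable `f g ≥ 0` (`withDensity_add_left`, `ENNReal.ofReal_add`).
Restrictions: `(volume.withDensity F).restrict A = volume.withDensity (A.indicator F)` (`restrict_withDensity`, `withDensity_indicator`) and the values of
`rho` on the blobs (`rho_on_A`, `rho_on_B`), supports of the pieces.
`measOfDensity f ≪ measOfDensity g` if `support f ⊆ support g`, `g ≥ 0` (`withDensity_absolutelyContinuous'`-style, or by hand). -/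

set_option autoImplicit false
open MeasureTheory Metric Set
open scoped ENNReal ContDiff RealInnerProductSpace
open Crest.AnalysisR.OT

namespace Crest.Agent.MM

section general

variable {d : ℕ}

theorem measOfDensity_add {f g : E d → ℝ} (hf : Measurable f) (hf0 : ∀ x, 0 ≤ f x)
    (hg0 : ∀ x, 0 ≤ g x) :
    measOfDensity (fun x => f x + g x) = measOfDensity f + measOfDensity g := by
  unfold measOfDensity
  rw [← withDensity_add_left hf.ennreal_ofReal]
  congr 1
  ext x
  simp only [Pi.add_apply]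
  exact ENNReal.ofReal_add (hf0 x) (hg0 x)

theorem measOfDensity_restrict {f : E d → ℝ} {A : Set (E d)} (hA : MeasurableSet A) :
    (measOfDensity f).restrict A = measOfDensity (A.indicator f) := by
  unfold measOfDensity
  rw [restrict_withDensity hA, ← withDensity_indicator hA]
  congr 1
  ext x
  by_cases hx : x ∈ A
  · simp [hx]
  · simp [hx]

theorem measOfDensity_apply_eq_zero {f : E d → ℝ} {A : Set (E d)} (hA : MeasurableSet A)
    (h : ∀ x ∈ A, f x = 0) : measOfDensity f A = 0 := by
  unfold measOfDensity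
  rw [withDensity_apply _ hA]
  rw [setLIntegral_congr_fun hA (g := fun _ => 0) (fun x hx => by simp [h x hx])]
  simp

theorem measOfDensity_ac {f g : E d → ℝ} (hg : Measurable g) (hg0 : ∀ x, 0 ≤ g x)
    (h : ∀ x, g x = 0 → f x = 0) : measOfDensity f ≪ measOfDensity g := by
  refine Measure.AbsolutelyContinuous.mk fun A hA hgA => ?_
  unfold measOfDensity at hgA ⊢
  rw [withDensity_apply _ hA] at hgA ⊢
  rw [lintegral_eq_zero_iff hg.ennreal_ofReal] at hgA
  refine lintegral_eq_zero_of_ae_eq_zero ?_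
  filter_upwards [hgA] with x hx
  simp only [Pi.zero_apply, ENNReal.ofReal_eq_zero] at hx ⊢
  rw [h x (le_antisymm hx (hg0 x))]

end general

namespace Dens

variable {d : ℕ} {s : ℝ} {Y : Sys d s} (D : Dens Y)

theorem η_sq_meas (i : Fin 3) : Measurable fun x => D.η i x ^ 2 :=
  ((D.η_smooth i).continuous.pow 2).measurable

theorem θ_sq_meas (i : Fin 3) : Measurable fun x => D.θ i x ^ 2 :=
  ((D.θ_smooth i).continuous.pow 2).measurable

theorem θ'_sq_meas (i : Fin 3) : Measurable fun x => D.θ' i x ^ 2 :=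
  ((D.θ'_smooth i).continuous.pow 2).measurable

theorem piece_eq (i : Fin 3) :
    measOfDensity (fun x => D.η i x ^ 2 + D.θ i x ^ 2 + D.θ' i x ^ 2) =
      D.m i + (D.m i).map (Y.β i) + (D.m i).map (Y.β' i) := by
  rw [measOfDensity_add (f := fun x => D.η i x ^ 2 + D.θ i x ^ 2) (g := fun x => D.θ' i x ^ 2)
    ((D.η_sq_meas i).add (D.θ_sq_meas i)) (fun x => by positivity) (fun x => by positivity),
    measOfDensity_add (f := fun x => D.η i x ^ 2) (g := fun x => D.θ i x ^ 2)
    (D.η_sq_meas i) (fun x => by positivity) (fun x => by positivity)]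
  unfold m
  rw [D.push i, D.push' i]

theorem mu_eq : D.mu = ∑ i : Fin 3, (D.m i + (D.m i).map (Y.β i) + (D.m i).map (Y.β' i)) := by
  have hmeas : ∀ i : Fin 3, Measurable fun x => D.η i x ^ 2 + D.θ i x ^ 2 + D.θ' i x ^ 2 :=
    fun i => ((D.η_sq_meas i).add (D.θ_sq_meas i)).add (D.θ'_sq_meas i)
  have hrho : D.rho = fun x => (D.η 0 x ^ 2 + D.θ 0 x ^ 2 + D.θ' 0 x ^ 2) +
      (D.η 1 x ^ 2 + D.θ 1 x ^ 2 + D.θ' 1 x ^ 2) + (D.η 2 x ^ 2 + D.θ 2 x ^ 2 + D.θ' 2 x ^ 2) := by
    ext x
    simp only [rho, Fin.sum_univ_three]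
  unfold mu
  rw [hrho, measOfDensity_add
    (f := fun x => (D.η 0 x ^ 2 + D.θ 0 x ^ 2 + D.θ' 0 x ^ 2) +
      (D.η 1 x ^ 2 + D.θ 1 x ^ 2 + D.θ' 1 x ^ 2))
    (g := fun x => D.η 2 x ^ 2 + D.θ 2 x ^ 2 + D.θ' 2 x ^ 2)
    ((hmeas 0).add (hmeas 1)) (fun x => by positivity) (fun x => by positivity),
    measOfDensity_add (f := fun x => D.η 0 x ^ 2 + D.θ 0 x ^ 2 + D.θ' 0 x ^ 2)
    (g := fun x => D.η 1 x ^ 2 + D.θ 1 x ^ 2 + D.θ' 1 x ^ 2)
    (hmeas 0) (fun x => by positivity) (fun x => by positivity),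
    D.piece_eq 0, D.piece_eq 1, D.piece_eq 2, Fin.sum_univ_three]

theorem mu_univ : D.mu univ = 1 := by
  have h1 : ∀ i, D.m i univ = 1 / 9 := D.mass
  have h2 : ∀ i, (D.m i).map (Y.β i) univ = 1 / 9 := fun i => by
    rw [Measure.map_apply (Y.β_meas i) MeasurableSet.univ, preimage_univ, h1]
  have h3 : ∀ i, (D.m i).map (Y.β' i) univ = 1 / 9 := fun i => by
    rw [Measure.map_apply (Y.β'_meas i) MeasurableSet.univ, preimage_univ, h1]
  rw [mu_eq, Fin.sum_univ_three]
  simp only [Measure.add_apply, h1, h2, h3]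
  have h9 : (1 / 9 : ℝ≥0∞) = ENNReal.ofReal (1 / 9) := by
    rw [ENNReal.ofReal_div_of_pos (by norm_num)]
    simp
  rw [h9]
  repeat rw [← ENNReal.ofReal_add (by norm_num) (by norm_num)]
  norm_num

theorem rho_meas : Measurable D.rho := D.rho_smooth.continuous.measurable

theorem integral_rho : ∫ x, D.rho x = 1 := by
  rw [integral_eq_lintegral_of_nonneg_ae (Filter.Eventually.of_forall D.rho_nonneg)
    D.rho_meas.aestronglyMeasurable]
  have : ∫⁻ x, ENNReal.ofReal (D.rho x) = D.mu univ := by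
    unfold mu measOfDensity
    rw [withDensity_apply _ MeasurableSet.univ, Measure.restrict_univ]
  rw [this, mu_univ]
  simp

theorem mu_ac : D.mu ≪ volume := withDensity_absolutelyContinuous _ _

theorem measurableSet_S : MeasurableSet Y.S :=
  (MeasurableSet.iUnion fun _ => measurableSet_ball).union
    (MeasurableSet.iUnion fun _ => measurableSet_closedBall)

theorem mu_compl_S : D.mu Y.Sᶜ = 0 :=
  measOfDensity_apply_eq_zero (measurableSet_S (Y := Y)).compl fun _ hx => D.rho_off_S hx

theorem mu_bounded : ∃ R : ℝ, D.mu (closedBall 0 R)ᶜ = 0 := by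
  obtain ⟨R, hR⟩ := D.rho_cpt.isCompact.isBounded.subset_closedBall 0
  refine ⟨R, measOfDensity_apply_eq_zero measurableSet_closedBall.compl fun x hx => ?_⟩
  by_contra hne
  exact hx (hR (subset_tsupport _ hne))

theorem η_eq_zero (i : Fin 3) {x : E d} (hx : x ∉ ball (Y.a i) Y.ε) : D.η i x = 0 := by
  by_contra hne
  exact hx (D.η_supp i (subset_tsupport _ hne))

theorem m_ae_mem (i : Fin 3) : ∀ᵐ x ∂(D.m i), x ∈ ball (Y.a i) Y.ε := by
  rw [ae_iff]
  refine measOfDensity_apply_eq_zero measurableSet_ball.compl fun x hx => ?_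
  rw [D.η_eq_zero i hx]; simp

theorem mu_restrict_A (i : Fin 3) : D.mu.restrict (ball (Y.a i) Y.ε) = D.m i := by
  unfold mu m
  rw [measOfDensity_restrict measurableSet_ball]
  congr 1
  ext x
  by_cases hx : x ∈ ball (Y.a i) Y.ε
  · rw [indicator_of_mem hx, D.rho_on_A i hx]
  · rw [indicator_of_notMem hx, D.η_eq_zero i hx]; simp

theorem mu_restrict_B (j : Fin 3) : D.mu.restrict (closedBall (Y.c j) Y.δ₀) =
    (D.m (j + 2)).map (Y.β (j + 2)) + (D.m (j + 1)).map (Y.β' (j + 1)) := by
  have e1 : j + 2 + 1 = j := by revert j; decide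
  have e2 : j + 1 + 2 = j := by revert j; decide
  have hind : (closedBall (Y.c j) Y.δ₀).indicator D.rho =
      fun x => D.θ (j + 2) x ^ 2 + D.θ' (j + 1) x ^ 2 := by
    ext x
    by_cases hx : x ∈ closedBall (Y.c j) Y.δ₀
    · rw [indicator_of_mem hx, D.rho_on_B j hx]
    · rw [indicator_of_notMem hx]
      have h1 : D.θ (j + 2) x = 0 := by
        by_contra hne
        have := D.θ_supp (j + 2) hne
        rw [e1] at this
        exact hx this
      have h2 : D.θ' (j + 1) x = 0 := by
        by_contra hne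
        have := D.θ'_supp (j + 1) hne
        rw [e2] at this
        exact hx this
      rw [h1, h2]; simp
  unfold mu
  rw [measOfDensity_restrict measurableSet_closedBall, hind,
    measOfDensity_add (f := fun x => D.θ (j + 2) x ^ 2) (g := fun x => D.θ' (j + 1) x ^ 2)
    (D.θ_sq_meas _) (fun x => by positivity) (fun x => by positivity)]
  unfold m
  rw [D.push, D.push']

/-- in `B₁`: the type-0 mass is dominated by the type-2 mass -/
theorem ac1 : (D.m 0).map (Y.β 0) ≪ (D.m 2).map (Y.β' 2) := by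
  unfold m
  rw [D.push, D.push']
  refine measOfDensity_ac (D.θ'_sq_meas 2) (fun x => by positivity) fun x hx => ?_
  have h0 : D.θ' 2 x = 0 := by simpa using hx
  have : D.θ 0 x = 0 := by
    by_contra hne
    exact D.nest1 (subset_tsupport _ hne) h0
  rw [this]; simp

/-- in `B₂`: the type-0 mass is dominated by the type-1 mass -/
theorem ac2 : (D.m 0).map (Y.β' 0) ≪ (D.m 1).map (Y.β 1) := by
  unfold m
  rw [D.push, D.push']
  refine measOfDensity_ac (D.θ_sq_meas 1) (fun x => by positivity) fun x hx => ?_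
  have h0 : D.θ 1 x = 0 := by simpa using hx
  have : D.θ' 0 x = 0 := by
    by_contra hne
    exact D.nest2 (subset_tsupport _ hne) h0
  rw [this]; simp

end Dens
end Crest.Agent.MM
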