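import Crest.Agent.MM.MuBasic

/-! # PI0: the plan `pi0` is a coupling of `mu`, concentrated on tight, `r₀`-separated triples.

Marginals: `Measure.map_map`, `Measure.map_add`, `Measure.map_finset_sum`-style, then `mu_eq` (reorder the three summands).
A.e. statements: `ae` of a finite sum of measures (`ae_add_measure_iff`, `Measure.ae_sum_iff`/finite version), `ae_map_iff` or `ae_of_ae_map`-converse:
use `(ae_map_iff hf.aemeasurable hmeas)`, or prove the complement null via `Measure.map_apply`; for measurability of the tight set use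
`Sys.u_meas` and measurability of `G3`.  Pointwise: `m_ae_mem`, `Sys.tight_eq`, `Sys.β_maps`, `Sys.sep_AB`, `Sys.sep_BB`; `G3` is symmetric. -/

set_option autoImplicit false
open MeasureTheory Metric Set
open scoped ENNReal ContDiff RealInnerProductSpace
open Crest.AnalysisR.OT

namespace Crest.Agent.MM
namespace Dens

variable {d : ℕ} {s : ℝ} {Y : Sys d s} (D : Dens Y)

theorem meas_f1 (i : Fin 3) : Measurable (fun x : E d => (x, Y.β i x, Y.β' i x)) :=
  measurable_id.prodMk ((Y.β_meas i).prodMk (Y.β'_meas i))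

theorem meas_f2 (i : Fin 3) : Measurable (fun x : E d => (Y.β i x, Y.β' i x, x)) :=
  (Y.β_meas i).prodMk ((Y.β'_meas i).prodMk measurable_id)

theorem meas_f3 (i : Fin 3) : Measurable (fun x : E d => (Y.β' i x, x, Y.β i x)) :=
  (Y.β'_meas i).prodMk (measurable_id.prodMk (Y.β_meas i))

theorem pi0_map {g : E d × E d × E d → E d} (hg : Measurable g) :
    D.pi0.map g = ∑ i : Fin 3, ((D.m i).map (fun x => g (x, Y.β i x, Y.β' i x)) +
      (D.m i).map (fun x => g (Y.β i x, Y.β' i x, x)) +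
      (D.m i).map (fun x => g (Y.β' i x, x, Y.β i x))) := by
  simp only [pi0, Fin.sum_univ_three, Measure.map_add _ _ hg,
    Measure.map_map hg (meas_f1 _), Measure.map_map hg (meas_f2 _),
    Measure.map_map hg (meas_f3 _)]
  rfl

theorem pi0_coupling : IsCoupling₃ D.mu D.pi0 := by
  refine ⟨?_, ?_, ?_⟩
  · rw [D.pi0_map measurable_fst, D.mu_eq]
    refine Finset.sum_congr rfl fun i _ => ?_
    simp only [Measure.map_id']
  · rw [D.pi0_map (g := fun p => p.2.1) (measurable_fst.comp measurable_snd), D.mu_eq]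
    refine Finset.sum_congr rfl fun i _ => ?_
    simp only [Measure.map_id']
    abel
  · rw [D.pi0_map (g := fun p => p.2.2) (measurable_snd.comp measurable_snd), D.mu_eq]
    refine Finset.sum_congr rfl fun i _ => ?_
    simp only [Measure.map_id']
    abel

/-- a measurable property that holds on the three cyclic graphs holds `pi0`-a.e. -/
theorem pi0_ae_of {P : E d × E d × E d → Prop} (hP : MeasurableSet {p | P p})
    (h : ∀ i, ∀ x ∈ ball (Y.a i) Y.ε, P (x, Y.β i x, Y.β' i x) ∧ P (Y.β i x, Y.β' i x, x) ∧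
      P (Y.β' i x, x, Y.β i x)) :
    ∀ᵐ p ∂D.pi0, P p := by
  rw [ae_iff]
  have hPc : MeasurableSet {p | ¬ P p} := hP.compl
  simp only [pi0, Measure.coe_finsetSum, Finset.sum_apply, Measure.add_apply]
  refine Finset.sum_eq_zero fun i _ => ?_
  have hm := D.m_ae_mem i
  rw [Measure.map_apply (meas_f1 i) hPc, Measure.map_apply (meas_f2 i) hPc,
    Measure.map_apply (meas_f3 i) hPc]
  have h1 : D.m i ((fun x => (x, Y.β i x, Y.β' i x)) ⁻¹' {p | ¬ P p}) = 0 := by
    have : ∀ᵐ x ∂D.m i, P (x, Y.β i x, Y.β' i x) := by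
      filter_upwards [hm] with x hx using (h i x hx).1
    exact ae_iff.1 this
  have h2 : D.m i ((fun x => (Y.β i x, Y.β' i x, x)) ⁻¹' {p | ¬ P p}) = 0 := by
    have : ∀ᵐ x ∂D.m i, P (Y.β i x, Y.β' i x, x) := by
      filter_upwards [hm] with x hx using (h i x hx).2.1
    exact ae_iff.1 this
  have h3 : D.m i ((fun x => (Y.β' i x, x, Y.β i x)) ⁻¹' {p | ¬ P p}) = 0 := by
    have : ∀ᵐ x ∂D.m i, P (Y.β' i x, x, Y.β i x) := by
      filter_upwards [hm] with x hx using (h i x hx).2.2
    exact ae_iff.1 this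
  rw [h1, h2, h3]
  simp

theorem graph_sep (i : Fin 3) {x : E d} (hx : x ∈ ball (Y.a i) Y.ε) :
    Y.r₀ ≤ ‖x - Y.β i x‖ ∧ Y.r₀ ≤ ‖x - Y.β' i x‖ ∧ Y.r₀ ≤ ‖Y.β i x - Y.β' i x‖ := by
  refine ⟨Y.sep_AB hx (Y.β_maps i x hx), Y.sep_AB hx (Y.β'_maps i x hx),
    Y.sep_BB ?_ (Y.β_maps i x hx) (Y.β'_maps i x hx)⟩
  fin_cases i <;> decide

theorem pi0_sep : ∀ᵐ p ∂D.pi0, Sep Y.r₀ p := by
  refine D.pi0_ae_of ?_ ?_
  · have h1 : MeasurableSet {p : E d × E d × E d | Y.r₀ ≤ ‖p.1 - p.2.1‖} :=
      measurableSet_le measurable_const (by fun_prop)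
    have h2 : MeasurableSet {p : E d × E d × E d | Y.r₀ ≤ ‖p.1 - p.2.2‖} :=
      measurableSet_le measurable_const (by fun_prop)
    have h3 : MeasurableSet {p : E d × E d × E d | Y.r₀ ≤ ‖p.2.1 - p.2.2‖} :=
      measurableSet_le measurable_const (by fun_prop)
    exact h1.inter (h2.inter h3)
  · intro i x hx
    obtain ⟨h1, h2, h3⟩ := graph_sep i hx
    refine ⟨⟨h1, h2, h3⟩, ⟨h3, ?_, ?_⟩, ⟨?_, ?_, h1⟩⟩
    · simpa only [norm_sub_rev] using h1
    · simpa only [norm_sub_rev] using h2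
    · simpa only [norm_sub_rev] using h2
    · simpa only [norm_sub_rev] using h3

theorem phi_neg' (w : E d) : phi s (-w) = phi s w := by
  unfold phi; rw [norm_neg]

theorem phi_comm' (x y : E d) : phi s (x - y) = phi s (y - x) := by
  rw [← phi_neg', neg_sub]

theorem measurable_G3' : Measurable (fun p : E d × E d × E d => G3 s p.1 p.2.1 p.2.2) := by
  unfold G3 phi
  have h : ∀ f : E d × E d × E d → E d, Measurable f → Measurable fun p => ‖f p‖ ^ (-s) :=
    fun f hf => hf.norm.pow_const _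
  exact ((h _ (by fun_prop)).add (h _ (by fun_prop))).add (h _ (by fun_prop))

theorem pi0_tight : ∀ᵐ p ∂D.pi0, p.1 ≠ p.2.1 ∧ p.1 ≠ p.2.2 ∧ p.2.1 ≠ p.2.2 ∧
    Y.u p.1 + Y.u p.2.1 + Y.u p.2.2 = G3 s p.1 p.2.1 p.2.2 := by
  refine D.pi0_ae_of ?_ ?_
  · have h1 : MeasurableSet {p : E d × E d × E d | p.1 ≠ p.2.1} :=
      (measurableSet_eq_fun (by fun_prop) (by fun_prop)).compl
    have h2 : MeasurableSet {p : E d × E d × E d | p.1 ≠ p.2.2} :=
      (measurableSet_eq_fun (by fun_prop) (by fun_prop)).compl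
    have h3 : MeasurableSet {p : E d × E d × E d | p.2.1 ≠ p.2.2} :=
      (measurableSet_eq_fun (by fun_prop) (by fun_prop)).compl
    have hu := Y.u_meas
    have h4 : MeasurableSet {p : E d × E d × E d |
        Y.u p.1 + Y.u p.2.1 + Y.u p.2.2 = G3 s p.1 p.2.1 p.2.2} :=
      measurableSet_eq_fun
        (((hu.comp measurable_fst).add (hu.comp (measurable_fst.comp measurable_snd))).add
          (hu.comp (measurable_snd.comp measurable_snd))) measurable_G3'
    exact h1.inter (h2.inter (h3.inter h4))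
  · intro i x hx
    obtain ⟨h1, h2, h3⟩ := graph_sep i hx
    have hr := Y.r₀_pos
    have n1 : x ≠ Y.β i x := fun h => by
      rw [← h, sub_self, norm_zero] at h1; linarith
    have n2 : x ≠ Y.β' i x := fun h => by
      rw [← h, sub_self, norm_zero] at h2; linarith
    have n3 : Y.β i x ≠ Y.β' i x := fun h => by
      rw [← h, sub_self, norm_zero] at h3; linarith
    have ht := Y.tight_eq i x hx
    refine ⟨⟨n1, n2, n3, ht⟩, ⟨n3, n1.symm, n2.symm, ?_⟩, ⟨n2.symm, n3.symm, n1, ?_⟩⟩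
    · simp only
      unfold G3 at ht ⊢
      rw [phi_comm' (Y.β i x) x, phi_comm' (Y.β' i x) x]
      linarith
    · simp only
      unfold G3 at ht ⊢
      rw [phi_comm' (Y.β' i x) x, phi_comm' (Y.β' i x) (Y.β i x)]
      linarith

end Dens
end Crest.Agent.MM
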