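import Crest.Agent.MM.Split

/-! # PIECES: split every cell `Q j` into pieces of prescribed masses `w (j, k)`.

Apply `split` to `μ.restrict (Q j)` (atomless: instance `Measure.restrict.instNullSingletonClass`) and intersect the pieces
with `Q j`. -/

set_option autoImplicit false
open MeasureTheory Metric Set
open scoped ENNReal

namespace Crest.Agent.MM

theorem pieces {X : Type*} [MeasurableSpace X] [StandardBorelSpace X]
    (μ : Measure X) [IsFiniteMeasure μ] [NullSingletonClass μ] {ι κ : Type*} [Fintype ι] [Fintype κ]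
    (Q : ι → Set X) (hQm : ∀ i, MeasurableSet (Q i)) (hQd : Pairwise (Function.onFun Disjoint Q))
    (w : ι → κ → ℝ≥0∞) (hw : ∀ j, ∑ k, w j k = μ (Q j)) :
    ∃ P : ι → κ → Set X, (∀ j k, MeasurableSet (P j k)) ∧ (∀ j k, P j k ⊆ Q j) ∧
      (∀ j k j' k', (j, k) ≠ (j', k') → Disjoint (P j k) (P j' k')) ∧ ∀ j k, μ (P j k) = w j k := by
  have h1 : ∀ j, ∃ P : κ → Set X, (∀ k, MeasurableSet (P k)) ∧
      Pairwise (Function.onFun Disjoint P) ∧ ∀ k, (μ.restrict (Q j)) (P k) = w j k :=
    fun j => split (μ.restrict (Q j)) (w j) (by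
      rw [Measure.restrict_apply MeasurableSet.univ, univ_inter, hw j])
  choose P hPm hPd hPw using h1
  refine ⟨fun j k => P j k ∩ Q j, fun j k => (hPm j k).inter (hQm j), fun j k => inter_subset_right,
    ?_, ?_⟩
  · intro j k j' k' hne
    by_cases hj : j = j'
    · subst hj
      have hk : k ≠ k' := fun h => hne (by rw [h])
      exact ((hPd j hk).mono_left inter_subset_left).mono_right inter_subset_left
    · exact ((hQd hj).mono_left inter_subset_right).mono_right inter_subset_right
  · intro j k
    rw [← Measure.restrict_apply (hPm j k), hPw]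

end Crest.Agent.MM
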