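import Crest.Agent.MM.PotU

/-! # POTF: feasibility, equality case and tightness for `Pot.u`.

`feas`: pick labels (`exists_label`).  Not `TightLab`: `nontight` + `u ≤ ub`.  `TightLab l₁ l₂ l₃`: the triple of labels is one
of the six permutations of `((true,i),(false,i+1),(false,i+2))` (finite check: `decide`/`fin_cases`); `G3` and the sum are
symmetric, so reduce to `x ∈ ball (a i) ε`, `y ∈ B_{i+1}`, `z ∈ B_{i+2}` where `u x + u y + u z ≤ G3` is `min_le` unfolded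
(`u_on_A`, `u_on_B`, `Geo.H`).
`eq_imp`: label `y` by `(true,i)` (`u_le_ub_A`), label `x`, `z` by `exists_label`; non-tight is impossible (strict inequality);
tight forces `{l₁,l₃} = {(false,i+1),(false,i+2)}`; use `min_eq`. -/

set_option autoImplicit false
open MeasureTheory Metric Set
open scoped ENNReal ContDiff RealInnerProductSpace

namespace Crest.Agent.MM

theorem G3_swap12 {F : Type*} [NormedAddCommGroup F] (s : ℝ) (x y z : F) :
    G3 s y x z = G3 s x y z := by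
  unfold G3 phi
  rw [norm_sub_rev y x]
  ring

theorem G3_swap23 {F : Type*} [NormedAddCommGroup F] (s : ℝ) (x y z : F) :
    G3 s x z y = G3 s x y z := by
  unfold G3 phi
  rw [norm_sub_rev z y]
  ring

set_option maxRecDepth 100000 in
set_option synthInstance.maxHeartbeats 400000 in
set_option synthInstance.maxSize 2000 in
theorem tight_cases : ∀ (l₁ l₂ l₃ : Lab) (i : Fin 3),
    ({l₁, l₂, l₃} : Finset Lab) = {(true, i), (false, i + 1), (false, i + 2)} →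
    (l₁ = (true, i) ∧ l₂ = (false, i + 1) ∧ l₃ = (false, i + 2)) ∨
    (l₁ = (true, i) ∧ l₃ = (false, i + 1) ∧ l₂ = (false, i + 2)) ∨
    (l₂ = (true, i) ∧ l₁ = (false, i + 1) ∧ l₃ = (false, i + 2)) ∨
    (l₂ = (true, i) ∧ l₃ = (false, i + 1) ∧ l₁ = (false, i + 2)) ∨
    (l₃ = (true, i) ∧ l₁ = (false, i + 1) ∧ l₂ = (false, i + 2)) ∨
    (l₃ = (true, i) ∧ l₂ = (false, i + 1) ∧ l₁ = (false, i + 2)) := by
  decide

namespace Pot

variable {d : ℕ} {s : ℝ} {g : Geo d s} (P : Pot g)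

/-- the ordered tight case -/
theorem feas_tight {i : Fin 3} {x y z : E d} (hx : x ∈ ball (g.a i) P.ε)
    (hy : y ∈ closedBall (g.cc (i + 1)) P.δ₀) (hz : z ∈ closedBall (g.cc (i + 2)) P.δ₀) :
    P.u x + P.u y + P.u z ≤ G3 s x y z ∧
      (P.u x + P.u y + P.u z = G3 s x y z → y = P.β i x ∧ z = P.β' i x) := by
  have h1 := P.min_le i x hx y hy z hz
  have h2 := P.min_eq i x hx y hy z hz
  rw [P.u_on_A hx, P.u_on_B hy, P.u_on_B hz]
  have h3 : g.H P.M i x y z = G3 s x y z - g.v P.M (i + 1) y - g.v P.M (i + 2) z := rfl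
  have h4 : P.uA i x = g.H P.M i x (P.β i x) (P.β' i x) := rfl
  constructor
  · rw [h4]; linarith
  · intro h
    apply h2
    rw [← h4]; linarith

theorem tight_eq (i : Fin 3) {x : E d} (hx : x ∈ ball (g.a i) P.ε) :
    P.u x + P.u (P.β i x) + P.u (P.β' i x) = G3 s x (P.β i x) (P.β' i x) := by
  rw [P.u_on_A hx, P.u_on_B (P.β_maps i x hx), P.u_on_B (P.β'_maps i x hx)]
  have h4 : P.uA i x = G3 s x (P.β i x) (P.β' i x) - g.v P.M (i + 1) (P.β i x)
      - g.v P.M (i + 2) (P.β' i x) := rfl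
  rw [h4]; ring

/-- either strictly slack or (a permutation of) an ordered tight configuration. -/
theorem trichotomy {x y z : E d} (hx : x ∈ P.S) (hy : y ∈ P.S) (hz : z ∈ P.S)
    (hxy : x ≠ y) (hxz : x ≠ z) (hyz : y ≠ z) :
    P.u x + P.u y + P.u z < G3 s x y z ∨ ∃ i : Fin 3,
      (x ∈ ball (g.a i) P.ε ∧ y ∈ closedBall (g.cc (i + 1)) P.δ₀ ∧
        z ∈ closedBall (g.cc (i + 2)) P.δ₀) ∨
      (x ∈ ball (g.a i) P.ε ∧ z ∈ closedBall (g.cc (i + 1)) P.δ₀ ∧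
        y ∈ closedBall (g.cc (i + 2)) P.δ₀) ∨
      (y ∈ ball (g.a i) P.ε ∧ x ∈ closedBall (g.cc (i + 1)) P.δ₀ ∧
        z ∈ closedBall (g.cc (i + 2)) P.δ₀) ∨
      (y ∈ ball (g.a i) P.ε ∧ z ∈ closedBall (g.cc (i + 1)) P.δ₀ ∧
        x ∈ closedBall (g.cc (i + 2)) P.δ₀) ∨
      (z ∈ ball (g.a i) P.ε ∧ x ∈ closedBall (g.cc (i + 1)) P.δ₀ ∧
        y ∈ closedBall (g.cc (i + 2)) P.δ₀) ∨
      (z ∈ ball (g.a i) P.ε ∧ y ∈ closedBall (g.cc (i + 1)) P.δ₀ ∧
        x ∈ closedBall (g.cc (i + 2)) P.δ₀) := by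
  obtain ⟨l₁, hx1, hx2, hx3⟩ := P.exists_label hx
  obtain ⟨l₂, hy1, hy2, hy3⟩ := P.exists_label hy
  obtain ⟨l₃, hz1, hz2, hz3⟩ := P.exists_label hz
  by_cases ht : TightLab l₁ l₂ l₃
  · right
    obtain ⟨i, hi⟩ := ht
    refine ⟨i, ?_⟩
    rcases tight_cases l₁ l₂ l₃ i hi with ⟨rfl, rfl, rfl⟩ | ⟨rfl, rfl, rfl⟩ | ⟨rfl, rfl, rfl⟩ |
      ⟨rfl, rfl, rfl⟩ | ⟨rfl, rfl, rfl⟩ | ⟨rfl, rfl, rfl⟩
    · exact Or.inl ⟨hx2 rfl, hy1, hz1⟩
    · exact Or.inr (Or.inl ⟨hx2 rfl, hz1, hy1⟩)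
    · exact Or.inr (Or.inr (Or.inl ⟨hy2 rfl, hx1, hz1⟩))
    · exact Or.inr (Or.inr (Or.inr (Or.inl ⟨hy2 rfl, hz1, hx1⟩)))
    · exact Or.inr (Or.inr (Or.inr (Or.inr (Or.inl ⟨hz2 rfl, hx1, hy1⟩))))
    · exact Or.inr (Or.inr (Or.inr (Or.inr (Or.inr ⟨hz2 rfl, hy1, hx1⟩))))
  · left
    have := P.nontight l₁ l₂ l₃ ht x hx1 y hy1 z hz1 hxy hxz hyz
    linarith

theorem feas {x y z : E d} (hx : x ∈ P.S) (hy : y ∈ P.S) (hz : z ∈ P.S)
    (hxy : x ≠ y) (hxz : x ≠ z) (hyz : y ≠ z) : P.u x + P.u y + P.u z ≤ G3 s x y z := by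
  rcases P.trichotomy hx hy hz hxy hxz hyz with h | ⟨i, h | h | h | h | h | h⟩
  · exact h.le
  · exact (P.feas_tight h.1 h.2.1 h.2.2).1
  · have := (P.feas_tight h.1 h.2.1 h.2.2).1
    rw [G3_swap23] at this
    linarith
  · have := (P.feas_tight h.1 h.2.1 h.2.2).1
    rw [G3_swap12] at this
    linarith
  · have := (P.feas_tight h.1 h.2.1 h.2.2).1
    rw [G3_swap23, G3_swap12] at this
    linarith
  · have := (P.feas_tight h.1 h.2.1 h.2.2).1
    rw [G3_swap12, G3_swap23] at this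
    linarith
  · have := (P.feas_tight h.1 h.2.1 h.2.2).1
    rw [G3_swap12, G3_swap23, G3_swap12] at this
    linarith

theorem A_sub {i : Fin 3} {y : E d} (hy : y ∈ ball (g.a i) P.ε) :
    y ∈ closedBall (g.ctr (true, i)) P.δ₀ :=
  closedBall_subset_closedBall P.ε_le (ball_subset_closedBall hy)

theorem not_A_B {i j : Fin 3} {y : E d} (hy : y ∈ ball (g.a i) P.ε)
    (hy' : y ∈ closedBall (g.cc j) P.δ₀) : False := by
  have h := P.sep_of_ne (l := (true, i)) (l' := (false, j)) (by simp) (P.A_sub hy) hy'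
  rw [sub_self, norm_zero] at h
  exact absurd g.r₀_pos (not_lt.2 h)

theorem A_A_eq {i j : Fin 3} {y : E d} (hy : y ∈ ball (g.a i) P.ε)
    (hy' : y ∈ ball (g.a j) P.ε) : i = j := by
  by_contra hij
  have h := P.sep_of_ne (l := (true, i)) (l' := (true, j)) (by simpa using hij)
    (P.A_sub hy) (P.A_sub hy')
  rw [sub_self, norm_zero] at h
  exact absurd g.r₀_pos (not_lt.2 h)

theorem eq_imp {x y z : E d} (hx : x ∈ P.S) (hy : y ∈ P.S) (hz : z ∈ P.S)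
    (hxy : x ≠ y) (hxz : x ≠ z) (hyz : y ≠ z) (h : P.u x + P.u y + P.u z = G3 s x y z)
    (i : Fin 3) (hyi : y ∈ ball (g.a i) P.ε) : x = P.β i y ∨ x = P.β' i y := by
  rcases P.trichotomy hx hy hz hxy hxz hyz with h' | ⟨i', h' | h' | h' | h' | h' | h'⟩
  · exact absurd h h'.ne
  · exact (P.not_A_B hyi h'.2.1).elim
  · exact (P.not_A_B hyi h'.2.2).elim
  · have e := P.A_A_eq hyi h'.1
    subst e
    left
    refine ((P.feas_tight h'.1 h'.2.1 h'.2.2).2 ?_).1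
    rw [G3_swap12]; linarith
  · have e := P.A_A_eq hyi h'.1
    subst e
    right
    refine ((P.feas_tight h'.1 h'.2.1 h'.2.2).2 ?_).2
    rw [G3_swap23, G3_swap12]; linarith
  · exact (P.not_A_B hyi h'.2.2).elim
  · exact (P.not_A_B hyi h'.2.1).elim

end Pot
end Crest.Agent.MM
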