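import Crest.Agent.MM.SysDefs
import Crest.Agent.MM.GeoNorms
import Crest.Agent.MM.Cost

/-! # POTU: basic properties of the potential `Pot.u`: values on the blobs, measurability, boundedness, upper bounds.

The six blobs (`ball (a i) ε ⊆ closedBall (a i) δ₀`, `closedBall (cc j) δ₀`) are pairwise disjoint by `Geo.sep_ctr` and
`δ₀ ≤ r₀/2`; points of different blobs are at distance `≥ r₀`.  `uA i` is measurable as a composition of measurable maps
(`β i`, `β' i` are measurable; `phi`, `vq` are measurable).  Bound: on `A_i`, `0 ≤ G3 ≤ 3 r₀^(-s)` (`G3_le_of_sep`), and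
`|v j y| ≤ |V| + ‖p j‖ δ₀ + M δ₀²/2` on `B_j`. -/

set_option autoImplicit false
open MeasureTheory Metric Set
open scoped ENNReal ContDiff RealInnerProductSpace

namespace Crest.Agent.MM
namespace Pot

variable {d : ℕ} {s : ℝ} {g : Geo d s} (P : Pot g)

/-- points in blobs with different labels are `r₀`-separated. -/
theorem sep_of_ne {l l' : Lab} (h : l ≠ l') {x y : E d} (hx : x ∈ closedBall (g.ctr l) P.δ₀)
    (hy : y ∈ closedBall (g.ctr l') P.δ₀) : g.r₀ ≤ ‖x - y‖ := by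
  have h1 := g.sep_ctr h
  have h2 := P.δ₀_le
  rw [mem_closedBall, dist_eq_norm] at hx hy
  have h3 : ‖g.ctr l - g.ctr l'‖ ≤ ‖x - g.ctr l‖ + ‖x - y‖ + ‖y - g.ctr l'‖ := by
    have : g.ctr l - g.ctr l' = -(x - g.ctr l) + (x - y) + (y - g.ctr l') := by abel
    rw [this]
    refine (norm_add_le _ _).trans ?_
    refine add_le_add_left ((norm_add_le _ _).trans ?_) _
    rw [norm_neg]
  linarith

theorem notMem_of_ne {l l' : Lab} (h : l ≠ l') {x : E d} (hx : x ∈ closedBall (g.ctr l) P.δ₀) :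
    x ∉ closedBall (g.ctr l') P.δ₀ := by
  intro hx'
  have := P.sep_of_ne h hx hx'
  rw [sub_self, norm_zero] at this
  exact absurd g.r₀_pos (not_lt.mpr this)

theorem ball_subset (i : Fin 3) : ball (g.a i) P.ε ⊆ closedBall (g.ctr (true, i)) P.δ₀ :=
  fun _ hx => closedBall_subset_closedBall P.ε_le (ball_subset_closedBall hx)

theorem u_on_A {i : Fin 3} {x : E d} (hx : x ∈ ball (g.a i) P.ε) : P.u x = P.uA i x := by
  have hx' := P.ball_subset i hx
  unfold u
  rw [Finset.sum_eq_single i, Finset.sum_eq_zero, indicator_of_mem hx, add_zero]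
  · intro j _
    exact indicator_of_notMem (P.notMem_of_ne (l' := (false, j)) (by simp) hx') _
  · intro j _ hj
    refine indicator_of_notMem (fun h => ?_) _
    exact P.notMem_of_ne (l' := (true, j)) (by simpa using hj.symm) hx' (P.ball_subset j h)
  · intro h; exact absurd (Finset.mem_univ i) h

theorem u_on_B {j : Fin 3} {x : E d} (hx : x ∈ closedBall (g.cc j) P.δ₀) : P.u x = g.v P.M j x := by
  have hx' : x ∈ closedBall (g.ctr (false, j)) P.δ₀ := hx
  unfold u
  rw [Finset.sum_eq_zero, Finset.sum_eq_single j, indicator_of_mem hx, zero_add]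
  · intro i _ hi
    exact indicator_of_notMem (P.notMem_of_ne (l' := (false, i)) (by simpa using hi.symm) hx') _
  · intro h; exact absurd (Finset.mem_univ j) h
  · intro i _
    refine indicator_of_notMem (fun h => ?_) _
    exact P.notMem_of_ne (l' := (true, i)) (by simp) hx' (P.ball_subset i h)

theorem measurable_phi_sub {f h : E d → E d} (hf : Measurable f) (hh : Measurable h) :
    Measurable fun x => phi s (f x - h x) := by
  unfold phi
  exact (hf.sub hh).norm.pow_const _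

theorem measurable_v_comp (M : ℝ) (j : Fin 3) {f : E d → E d} (hf : Measurable f) :
    Measurable fun x => g.v M j (f x) := by
  unfold Geo.v vq
  have h1 : Measurable fun x => f x - g.cc j := hf.sub_const _
  exact ((measurable_const.inner h1).const_add _).sub ((h1.norm.pow_const 2).const_mul _)

theorem uA_measurable (i : Fin 3) : Measurable (P.uA i) := by
  unfold uA Geo.H G3
  exact ((((measurable_phi_sub measurable_id (P.β_meas i)).add
    (measurable_phi_sub measurable_id (P.β'_meas i))).add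
    (measurable_phi_sub (P.β_meas i) (P.β'_meas i))).sub
    (measurable_v_comp _ _ (P.β_meas i))).sub (measurable_v_comp _ _ (P.β'_meas i))

theorem u_measurable : Measurable P.u := by
  unfold u
  refine Measurable.add ?_ ?_
  · exact Finset.measurable_fun_sum _ fun i _ => (P.uA_measurable i).indicator measurableSet_ball
  · exact Finset.measurable_fun_sum _ fun j _ =>
      (measurable_v_comp P.M j measurable_id).indicator measurableSet_closedBall

/-- upper bound for `v` on `B_j`. -/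
theorem v_le_ub {j : Fin 3} {x : E d} (hx : x ∈ closedBall (g.cc j) P.δ₀) :
    g.v P.M j x ≤ g.V + ‖g.p j‖ * P.δ₀ := by
  rw [mem_closedBall, dist_eq_norm] at hx
  unfold Geo.v vq
  have h1 : ⟪g.p j, x - g.cc j⟫ ≤ ‖g.p j‖ * ‖x - g.cc j‖ := real_inner_le_norm _ _
  have h2 : ‖g.p j‖ * ‖x - g.cc j‖ ≤ ‖g.p j‖ * P.δ₀ :=
    mul_le_mul_of_nonneg_left hx (norm_nonneg _)
  have h3 : 0 ≤ P.M / 2 * ‖x - g.cc j‖ ^ 2 := by
    have := P.M_nonneg
    positivity
  linarith

/-- absolute bound for `v` on `B_j`. -/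
theorem abs_v_le {j : Fin 3} {x : E d} (hx : x ∈ closedBall (g.cc j) P.δ₀) :
    |g.v P.M j x| ≤ |g.V| + (∑ k : Fin 3, ‖g.p k‖) * P.δ₀ + P.M / 2 * P.δ₀ ^ 2 := by
  rw [mem_closedBall, dist_eq_norm] at hx
  unfold Geo.v vq
  have h0 := P.δ₀_pos
  have hM := P.M_nonneg
  have h1 : |⟪g.p j, x - g.cc j⟫| ≤ ‖g.p j‖ * ‖x - g.cc j‖ := abs_real_inner_le_norm _ _
  have h2 : ‖g.p j‖ * ‖x - g.cc j‖ ≤ ‖g.p j‖ * P.δ₀ :=
    mul_le_mul_of_nonneg_left hx (norm_nonneg _)
  have h2' : ‖g.p j‖ ≤ ∑ k : Fin 3, ‖g.p k‖ :=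
    Finset.single_le_sum (f := fun k => ‖g.p k‖) (fun k _ => norm_nonneg _) (Finset.mem_univ j)
  have h2'' : ‖g.p j‖ * P.δ₀ ≤ (∑ k : Fin 3, ‖g.p k‖) * P.δ₀ :=
    mul_le_mul_of_nonneg_right h2' h0.le
  have h3 : 0 ≤ P.M / 2 * ‖x - g.cc j‖ ^ 2 := by positivity
  have h4 : P.M / 2 * ‖x - g.cc j‖ ^ 2 ≤ P.M / 2 * P.δ₀ ^ 2 := by
    have : ‖x - g.cc j‖ ^ 2 ≤ P.δ₀ ^ 2 := pow_le_pow_left₀ (norm_nonneg _) hx 2
    exact mul_le_mul_of_nonneg_left this (by positivity)
  have h5 := abs_le.mp h1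
  have h6 := neg_abs_le g.V
  have h7 := le_abs_self g.V
  rw [abs_le]
  constructor <;> linarith

theorem sep_tight {i : Fin 3} {x y z : E d} (hx : x ∈ ball (g.a i) P.ε)
    (hy : y ∈ closedBall (g.cc (i + 1)) P.δ₀) (hz : z ∈ closedBall (g.cc (i + 2)) P.δ₀) :
    Sep g.r₀ (x, y, z) := by
  have hx' := P.ball_subset i hx
  have hy' : y ∈ closedBall (g.ctr (false, i + 1)) P.δ₀ := hy
  have hz' : z ∈ closedBall (g.ctr (false, i + 2)) P.δ₀ := hz
  refine ⟨P.sep_of_ne (by simp) hx' hy', P.sep_of_ne (by simp) hx' hz', P.sep_of_ne ?_ hy' hz'⟩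
  have : ∀ i : Fin 3, i + 1 ≠ i + 2 := by decide
  simpa using this i

theorem abs_uA_le {i : Fin 3} {x : E d} (hx : x ∈ ball (g.a i) P.ε) :
    |P.uA i x| ≤ 3 * g.r₀ ^ (-s) +
      2 * (|g.V| + (∑ k : Fin 3, ‖g.p k‖) * P.δ₀ + P.M / 2 * P.δ₀ ^ 2) := by
  have h1 := P.abs_v_le (P.β_maps i x hx)
  have h2 := P.abs_v_le (P.β'_maps i x hx)
  have h3 := G3_le_of_sep g.s_pos g.r₀_pos (P.sep_tight hx (P.β_maps i x hx) (P.β'_maps i x hx))
  have h4 := G3_nonneg s x (P.β i x) (P.β' i x)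
  unfold uA Geo.H
  rw [abs_le] at h1 h2 ⊢
  constructor <;> linarith [h1.1, h1.2, h2.1, h2.2]

theorem u_bdd : ∃ K : ℝ, ∀ x, |P.u x| ≤ K := by
  set Kv := |g.V| + (∑ k : Fin 3, ‖g.p k‖) * P.δ₀ + P.M / 2 * P.δ₀ ^ 2 with hKv
  have hKv0 : 0 ≤ Kv := by
    have := P.δ₀_pos
    have := P.M_nonneg
    have : 0 ≤ ∑ k : Fin 3, ‖g.p k‖ := Finset.sum_nonneg fun k _ => norm_nonneg _
    positivity
  have hr : 0 ≤ g.r₀ ^ (-s) := Real.rpow_nonneg g.r₀_pos.le _
  refine ⟨3 * g.r₀ ^ (-s) + 2 * Kv, fun x => ?_⟩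
  by_cases hA : ∃ i, x ∈ ball (g.a i) P.ε
  · obtain ⟨i, hi⟩ := hA
    rw [P.u_on_A hi]
    exact P.abs_uA_le hi
  · by_cases hB : ∃ j, x ∈ closedBall (g.cc j) P.δ₀
    · obtain ⟨j, hj⟩ := hB
      rw [P.u_on_B hj]
      have := P.abs_v_le hj
      linarith
    · push Not at hA hB
      have : P.u x = 0 := by
        unfold u
        rw [Finset.sum_eq_zero, Finset.sum_eq_zero, add_zero]
        · intro j _; exact indicator_of_notMem (hB j) _
        · intro i _; exact indicator_of_notMem (hA i) _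
      rw [this, abs_zero]
      positivity

theorem u_le_ub_A {i : Fin 3} {x : E d} (hx : x ∈ ball (g.a i) P.ε) :
    P.u x ≤ g.ub P.δ₀ (true, i) x := by
  rw [P.u_on_A hx]
  have h := P.min_le i x hx (g.cc (i + 1)) (mem_closedBall_self P.δ₀_pos.le) (g.cc (i + 2))
    (mem_closedBall_self P.δ₀_pos.le)
  have h2 : g.H P.M i x (g.cc (i + 1)) (g.cc (i + 2)) = g.ub P.δ₀ (true, i) x := by
    simp only [Geo.H, Geo.ub, Geo.v, vq, sub_self, inner_zero_right, norm_zero]
    ring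
  rw [← h2]
  exact h

/-- every point of `S` has a label, with the upper bound `ub`. -/
theorem exists_label {x : E d} (hx : x ∈ P.S) :
    ∃ l : Lab, x ∈ closedBall (g.ctr l) P.δ₀ ∧ (l.1 = true → x ∈ ball (g.a l.2) P.ε) ∧
      P.u x ≤ g.ub P.δ₀ l x := by
  rcases hx with hx | hx
  · obtain ⟨i, hi⟩ := mem_iUnion.mp hx
    exact ⟨(true, i), P.ball_subset i hi, fun _ => hi, P.u_le_ub_A hi⟩
  · obtain ⟨j, hj⟩ := mem_iUnion.mp hx
    refine ⟨(false, j), hj, fun h => by simp at h, ?_⟩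
    rw [P.u_on_B hj]
    exact P.v_le_ub hj

end Pot
end Crest.Agent.MM
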