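import Mathlib

/-!
# Atomless transport

Generic measure theory for the S0175 swarm:
* `measure_setOf_Iic_le`: for a finite measure on `ℝ` without atoms, `μ {x | μ (Iic x) ≤ t} = t`.
* `exists_measurableSet_subset_measure_eq`: Sierpiński splitting on standard Borel spaces.
* `exists_measurable_map_eq`: an atomless finite measure on a standard Borel space can be pushed
  to any measure of the same mass on a standard Borel space by a measurable map.
-/

set_option autoImplicit false
open MeasureTheory Set Filter Topology
open scoped ENNReal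

namespace Crest.Agent.MM

/-- CDF transform, basic identity. -/
theorem measure_setOf_Iic_le (μ : Measure ℝ) [IsFiniteMeasure μ] [NullSingletonClass μ]
    {t : ℝ≥0∞} (ht : t ≤ μ univ) : μ {x | μ (Iic x) ≤ t} = t := by
  set S : Set ℝ := {x | μ (Iic x) ≤ t} with hS
  have hdown : ∀ x ∈ S, ∀ y ≤ x, y ∈ S := fun x hx y hy =>
    (measure_mono (Iic_subset_Iic.2 hy)).trans hx
  by_cases hb : BddAbove S
  · rcases S.eq_empty_or_nonempty with he | hne
    · -- `t < μ (Iic x)` for all `x`, so `t = 0`
      rw [he, measure_empty]
      have h1 : Tendsto (μ ∘ fun x : ℝ => Iic x) atBot (𝓝 (μ (⋂ x : ℝ, Iic x))) :=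
        tendsto_measure_iInter_atBot (fun i => measurableSet_Iic.nullMeasurableSet)
          (fun a b hab => Iic_subset_Iic.2 hab) ⟨0, measure_ne_top _ _⟩
      have h2 : (⋂ x : ℝ, Iic x) = ∅ := by
        ext y
        simp only [mem_iInter, mem_Iic, mem_empty_iff_false, iff_false, not_forall, not_le]
        exact ⟨y - 1, by linarith⟩
      rw [h2, measure_empty] at h1
      have h3 : t ≤ 0 := by
        refine ge_of_tendsto' h1 fun x => ?_
        have : x ∉ S := by rw [he]; exact notMem_empty x
        exact (not_le.1 this).le
      exact (le_antisymm h3 bot_le).symm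
    · set c := sSup S with hc
      have h1 : S ⊆ Iic c := fun x hx => le_csSup hb hx
      have h2 : Iio c ⊆ S := fun x hx => by
        obtain ⟨y, hy, hxy⟩ := exists_lt_of_lt_csSup hne hx
        exact hdown y hy x hxy.le
      have h3 : μ (Iio c) ≤ t := by
        have hU : Iio c = ⋃ n : ℕ, Iic (c - 1 / ((n : ℝ) + 1)) := by
          ext y
          simp only [mem_Iio, mem_iUnion, mem_Iic]
          constructor
          · intro hy
            obtain ⟨n, hn⟩ := exists_nat_one_div_lt (sub_pos.2 hy)
            exact ⟨n, by linarith⟩
          · rintro ⟨n, hn⟩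
            have : (0 : ℝ) < 1 / ((n : ℝ) + 1) := Nat.one_div_pos_of_nat
            linarith
        have hm : Monotone fun n : ℕ => Iic (c - 1 / ((n : ℝ) + 1)) := by
          intro a b hab
          apply Iic_subset_Iic.2
          have : 1 / ((b : ℝ) + 1) ≤ 1 / ((a : ℝ) + 1) := Nat.one_div_le_one_div hab
          linarith
        rw [hU, hm.measure_iUnion]
        refine iSup_le fun n => ?_
        have : c - 1 / ((n : ℝ) + 1) ∈ S := h2 (by
          have : (0 : ℝ) < 1 / ((n : ℝ) + 1) := Nat.one_div_pos_of_nat
          simp only [mem_Iio]; linarith)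
        exact this
      have h4 : t ≤ μ (Iic c) := by
        have hI : Iic c = ⋂ n : ℕ, Iic (c + 1 / ((n : ℝ) + 1)) := by
          ext y
          simp only [mem_iInter, mem_Iic]
          constructor
          · intro hy n
            have : (0 : ℝ) < 1 / ((n : ℝ) + 1) := Nat.one_div_pos_of_nat
            linarith
          · intro h
            by_contra hy
            obtain ⟨n, hn⟩ := exists_nat_one_div_lt (sub_pos.2 (not_le.1 hy))
            have := h n
            linarith
        have hm : Antitone fun n : ℕ => Iic (c + 1 / ((n : ℝ) + 1)) := by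
          intro a b hab
          apply Iic_subset_Iic.2
          have : 1 / ((b : ℝ) + 1) ≤ 1 / ((a : ℝ) + 1) := Nat.one_div_le_one_div hab
          linarith
        rw [hI, hm.measure_iInter (fun i => measurableSet_Iic.nullMeasurableSet)
          ⟨0, measure_ne_top _ _⟩]
        refine le_iInf fun n => ?_
        have : c + 1 / ((n : ℝ) + 1) ∉ S := fun h => by
          have h5 := h1 h
          have : (0 : ℝ) < 1 / ((n : ℝ) + 1) := Nat.one_div_pos_of_nat
          simp only [mem_Iic] at h5
          linarith
        exact (not_le.1 this).le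
      have h5 : μ (Iio c) = μ (Iic c) := measure_congr Iio_ae_eq_Iic
      apply le_antisymm
      · calc μ S ≤ μ (Iic c) := measure_mono h1
          _ = μ (Iio c) := h5.symm
          _ ≤ t := h3
      · calc t ≤ μ (Iic c) := h4
          _ = μ (Iio c) := h5.symm
          _ ≤ μ S := measure_mono h2
  · have hu : S = univ := by
      ext x
      simp only [mem_univ, iff_true]
      rw [not_bddAbove_iff] at hb
      obtain ⟨y, hy, hxy⟩ := hb x
      exact hdown y hy x hxy.le
    have h1 : μ univ ≤ t := by
      refine le_of_tendsto' (tendsto_measure_Iic_atTop μ) fun x => ?_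
      have : x ∈ S := by rw [hu]; exact mem_univ x
      exact this
    rw [hu]
    exact le_antisymm h1 ht

theorem measurable_measure_Iic (μ : Measure ℝ) : Measurable fun x : ℝ => μ (Iic x) :=
  Monotone.measurable fun _ _ hab => measure_mono (Iic_subset_Iic.2 hab)

theorem measurableSet_setOf_Iic_le (μ : Measure ℝ) (t : ℝ≥0∞) :
    MeasurableSet {x | μ (Iic x) ≤ t} :=
  measurableSet_le (measurable_measure_Iic μ) measurable_const

/-- The pushforward of an atomless measure under a measurable embedding is atomless. -/
theorem nullSingletonClass_map {α β : Type*} [MeasurableSpace α] [MeasurableSpace β]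
    (μ : Measure α) [NullSingletonClass μ] {e : α → β} (he : MeasurableEmbedding e) :
    NullSingletonClass (μ.map e) := by
  refine ⟨fun y => ?_⟩
  rw [he.map_apply]
  refine Set.Subsingleton.measure_zero ?_ μ
  intro a ha b hb
  exact he.injective (ha.trans hb.symm)

/-- CDF transform: an atomless probability measure on `ℝ` is pushed to the uniform measure. -/
theorem exists_measurable_map_volume_real (μ : Measure ℝ) [IsProbabilityMeasure μ]
    [NullSingletonClass μ] :
    ∃ F : ℝ → unitInterval, Measurable F ∧ μ.map F = volume := by
  have hle : ∀ x : ℝ, (μ (Iic x)).toReal ≤ 1 := fun x => by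
    have h1 : μ (Iic x) ≤ 1 := prob_le_one
    have := ENNReal.toReal_mono ENNReal.one_ne_top h1
    simpa using this
  let F : ℝ → unitInterval := fun x => ⟨(μ (Iic x)).toReal, ENNReal.toReal_nonneg, hle x⟩
  have hF : Measurable F := ((measurable_measure_Iic μ).ennreal_toReal).subtype_mk
  refine ⟨F, hF, ?_⟩
  have : IsProbabilityMeasure (μ.map F) := Measure.isProbabilityMeasure_map hF.aemeasurable
  refine Measure.ext_of_Iic _ _ fun t => ?_
  rw [Measure.map_apply hF measurableSet_Iic, unitInterval.volume_Iic]
  have h1 : F ⁻¹' Iic t = {x | μ (Iic x) ≤ ENNReal.ofReal t} := by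
    ext x
    simp only [mem_preimage, mem_Iic, mem_ofPred_eq]
    rw [← Subtype.coe_le_coe]
    exact (ENNReal.le_ofReal_iff_toReal_le (measure_ne_top _ _) t.2.1).symm
  rw [h1, measure_setOf_Iic_le]
  rw [measure_univ]
  exact ENNReal.ofReal_le_one.2 t.2.2

/-- An atomless probability measure on a standard Borel space is pushed to the uniform measure on
the unit interval by some measurable map. -/
theorem exists_measurable_map_volume {α : Type*} [MeasurableSpace α] [StandardBorelSpace α]
    (μ : Measure α) [IsProbabilityMeasure μ] [NullSingletonClass μ] :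
    ∃ F : α → unitInterval, Measurable F ∧ μ.map F = volume := by
  have he := measurableEmbedding_embeddingReal α
  have : IsProbabilityMeasure (μ.map (embeddingReal α)) :=
    Measure.isProbabilityMeasure_map he.measurable.aemeasurable
  have := nullSingletonClass_map μ he
  obtain ⟨F, hF, hFμ⟩ := exists_measurable_map_volume_real (μ.map (embeddingReal α))
  refine ⟨F ∘ embeddingReal α, hF.comp he.measurable, ?_⟩
  rw [← Measure.map_map hF he.measurable, hFμ]

/-- Probability version of the atomless transport lemma. -/
theorem exists_measurable_map_eq_of_prob {α β : Type*} [MeasurableSpace α] [StandardBorelSpace α]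
    [MeasurableSpace β] [StandardBorelSpace β] [Nonempty β]
    (μ : Measure α) [IsProbabilityMeasure μ] [NullSingletonClass μ]
    (ν : Measure β) [IsProbabilityMeasure ν] :
    ∃ T : α → β, Measurable T ∧ μ.map T = ν := by
  obtain ⟨F, hF, hFμ⟩ := exists_measurable_map_volume μ
  obtain ⟨G, hG, hGν⟩ := ν.exists_measurable_map_eq
  refine ⟨G ∘ F, hG.comp hF, ?_⟩
  rw [← Measure.map_map hG hF, hFμ, hGν]

/-- **Atomless transport**: an atomless finite measure on a standard Borel space can be pushed to
any measure of the same total mass on a (nonempty) standard Borel space. -/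
theorem exists_measurable_map_eq {α β : Type*} [MeasurableSpace α] [StandardBorelSpace α]
    [MeasurableSpace β] [StandardBorelSpace β] [Nonempty β]
    (μ : Measure α) [IsFiniteMeasure μ] [NullSingletonClass μ]
    (ν : Measure β) (h : μ univ = ν univ) :
    ∃ T : α → β, Measurable T ∧ μ.map T = ν := by
  by_cases h0 : μ univ = 0
  · have hμ : μ = 0 := Measure.measure_univ_eq_zero.1 h0
    have hν : ν = 0 := Measure.measure_univ_eq_zero.1 (h ▸ h0)
    refine ⟨fun _ => Classical.arbitrary β, measurable_const, ?_⟩
    rw [hμ, hν, Measure.map_zero]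
  · set m := μ univ with hm
    have hmt : m ≠ ∞ := measure_ne_top _ _
    have : IsProbabilityMeasure (m⁻¹ • μ) := ⟨by
      rw [Measure.smul_apply, smul_eq_mul, ← hm, ENNReal.inv_mul_cancel h0 hmt]⟩
    have : IsProbabilityMeasure (m⁻¹ • ν) := ⟨by
      rw [Measure.smul_apply, smul_eq_mul, ← h, ENNReal.inv_mul_cancel h0 hmt]⟩
    have : NullSingletonClass (m⁻¹ • μ) := ⟨fun x => by
      rw [Measure.smul_apply, measure_singleton, smul_zero]⟩
    obtain ⟨T, hT, hTμ⟩ := exists_measurable_map_eq_of_prob (m⁻¹ • μ) (m⁻¹ • ν)
    refine ⟨T, hT, ?_⟩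
    rw [Measure.map_smul] at hTμ
    have := congrArg (fun κ => m • κ) hTμ
    simpa only [smul_smul, ENNReal.mul_inv_cancel h0 hmt, one_smul] using this

/-- **Sierpiński splitting** on a standard Borel space. -/
theorem exists_measurableSet_subset_measure_eq {α : Type*} [MeasurableSpace α]
    [StandardBorelSpace α] (μ : Measure α) [IsFiniteMeasure μ] [NullSingletonClass μ]
    {A : Set α} (hA : MeasurableSet A) {t : ℝ≥0∞} (ht : t ≤ μ A) :
    ∃ B ⊆ A, MeasurableSet B ∧ μ B = t := by
  have he := measurableEmbedding_embeddingReal α
  set μ' : Measure ℝ := (μ.restrict A).map (embeddingReal α) with hμ'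
  have : IsFiniteMeasure μ' := by rw [hμ']; infer_instance
  have : NullSingletonClass μ' := nullSingletonClass_map (μ.restrict A) he
  have hS := measurableSet_setOf_Iic_le μ' t
  have hu : μ' univ = μ A := by
    rw [hμ', Measure.map_apply he.measurable MeasurableSet.univ, preimage_univ,
      Measure.restrict_apply MeasurableSet.univ, univ_inter]
  have h1 := measure_setOf_Iic_le μ' (t := t) (by rw [hu]; exact ht)
  refine ⟨embeddingReal α ⁻¹' {x | μ' (Iic x) ≤ t} ∩ A, inter_subset_right,
    (he.measurable hS).inter hA, ?_⟩
  rw [← Measure.restrict_apply (he.measurable hS), ← Measure.map_apply he.measurable hS]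
  exact h1

end Crest.Agent.MM
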