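import Crest.Agent.MM.Defs
import Crest.Agent.MM.Transport

/-! # R2: the quantile function pushes Lebesgue measure on `[0, mass]` to a given finite measure on `ℝ`.

With `F t = (β (Iic t)).toReal` (right-continuous, monotone) and `g u = sInf {t | u ≤ F t}`: for `0 < u < m`,
`g u ≤ t ↔ u ≤ F t`.  Hence `(Leb|[0,m]).map g (Iic t) = F t`; conclude by `Measure.ext_of_Iic`.  Measurability:
`measurable_of_Iic` with the explicit description of `{u | g u ≤ t}`. -/

set_option autoImplicit false
open MeasureTheory Metric Set
open scoped ENNReal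

namespace Crest.Agent.MM

theorem quant_real (β : Measure ℝ) [IsFiniteMeasure β] :
    ∃ g : ℝ → ℝ, Measurable g ∧ (volume.restrict (Icc 0 (β univ).toReal)).map g = β := by
  have : IsFiniteMeasure (volume.restrict (Icc (0 : ℝ) (β univ).toReal)) :=
    ⟨by rw [Measure.restrict_apply MeasurableSet.univ, univ_inter, Real.volume_Icc]
        exact ENNReal.ofReal_lt_top⟩
  refine exists_measurable_map_eq _ β ?_
  rw [Measure.restrict_apply MeasurableSet.univ, univ_inter, Real.volume_Icc, sub_zero,
    ENNReal.ofReal_toReal (measure_ne_top _ _)]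

end Crest.Agent.MM
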