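import Crest.Agent.MM.Defs
import Crest.Agent.MM.Transport

/-! # R1: the CDF of an atomless finite measure on `ℝ` pushes it to Lebesgue measure on `[0, mass]`.

Take `f t = (α (Iic t)).toReal` (monotone, continuous because `α` has no atoms).  Compare the two finite measures on
the sets `Iic u` (`Measure.ext_of_Iic`).  For `0 ≤ u < m`: `{t | f t ≤ u}` is `Iic t*` with `f t* = u` (IVT + continuity,
`t* = sSup {t | f t ≤ u}`), so it has `α`-measure `u`. -/

set_option autoImplicit false
open MeasureTheory Metric Set
open scoped ENNReal

namespace Crest.Agent.MM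

theorem unif_real (α : Measure ℝ) [IsFiniteMeasure α] [NullSingletonClass α] :
    ∃ f : ℝ → ℝ, Measurable f ∧ α.map f = volume.restrict (Icc 0 (α univ).toReal) := by
  refine exists_measurable_map_eq α _ ?_
  rw [Measure.restrict_apply MeasurableSet.univ, univ_inter, Real.volume_Icc, sub_zero,
    ENNReal.ofReal_toReal (measure_ne_top _ _)]

end Crest.Agent.MM
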