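import Crest.Agent.MM.Defs

/-! # SQRT: smoothness of `√(f² + g²)` for nested supports. -/

set_option autoImplicit false
open MeasureTheory Metric Set
open scoped ENNReal ContDiff RealInnerProductSpace

namespace Crest.Agent.MM

theorem sqrt_sq_add_sq {F : Type*} [NormedAddCommGroup F] [NormedSpace ℝ F] {f g : F → ℝ}
    (hf : ContDiff ℝ ∞ f) (hg : ContDiff ℝ ∞ g) (hg0 : ∀ x, 0 ≤ g x)
    (h : tsupport f ⊆ Function.support g) :
    ContDiff ℝ ∞ (fun x => Real.sqrt (f x ^ 2 + g x ^ 2)) := by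
  rw [contDiff_iff_contDiffAt]
  intro x
  by_cases hx : g x = 0
  · have hx' : x ∉ tsupport f := fun hmem => (h hmem) hx
    have hev : f =ᶠ[nhds x] 0 := notMem_tsupport_iff_eventuallyEq.1 hx'
    refine hg.contDiffAt.congr_of_eventuallyEq ?_
    filter_upwards [hev] with y hy
    simp only [Pi.zero_apply] at hy
    rw [hy]
    simp [Real.sqrt_sq (hg0 y)]
  · have hpos : f x ^ 2 + g x ^ 2 ≠ 0 := by
      have h1 : 0 < g x ^ 2 := by positivity
      have h2 : 0 ≤ f x ^ 2 := by positivity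
      linarith
    exact ((hf.contDiffAt.pow 2).add (hg.contDiffAt.pow 2)).sqrt hpos

end Crest.Agent.MM
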