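import Crest.Agent.MM.DensDefs
import Crest.Agent.MM.Sqrt

/-! # RHO1: `rho` is nonnegative, smooth, compactly supported, with smooth square root.

Square root: the six functions `η i ^2` (`i = 0,1,2`), `θ 0 ^2 + θ' 2 ^2` (in `B₁`), `θ' 0 ^2 + θ 1 ^2` (in `B₂`), `θ' 1 ^2 + θ 2 ^2` (in `B₀`)
have pairwise disjoint supports (blobs are disjoint: `Sys.sep_*`, `δ₀ ≤ r₀/2`, `ε ≤ δ₀`), so pointwise
`√rho = η 0 + η 1 + η 2 + √(θ 0 ^2 + θ' 2 ^2) + √(θ' 0 ^2 + θ 1 ^2) + √(θ' 1 ^2 + θ 2 ^2)`; each summand is smooth (`sqrt_sq_add_sq` with `nest*`). -/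

set_option autoImplicit false
open MeasureTheory Metric Set
open scoped ENNReal ContDiff RealInnerProductSpace
open Crest.AnalysisR.OT

namespace Crest.Agent.MM

theorem sep_of_centers {d : ℕ} {p q x y : E d} {t r : ℝ} (hx : ‖x - p‖ ≤ t) (hy : ‖y - q‖ ≤ t)
    (h : 2 * r ≤ ‖p - q‖) (ht : t ≤ r / 2) : r ≤ ‖x - y‖ := by
  have e : p - q = -(x - p) + (x - y) + (y - q) := by abel
  have h1 : ‖p - q‖ ≤ ‖x - p‖ + ‖x - y‖ + ‖y - q‖ := by
    rw [e]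
    refine (norm_add_le _ _).trans ?_
    refine add_le_add ((norm_add_le _ _).trans ?_) le_rfl
    rw [norm_neg]
  linarith

namespace Sys
variable {d : ℕ} {s : ℝ} (Y : Sys d s)

/-- blob disjointness, in the form of separation -/
theorem sep_AA {i j : Fin 3} (h : i ≠ j) {x y : E d} (hx : x ∈ ball (Y.a i) Y.ε)
    (hy : y ∈ ball (Y.a j) Y.ε) : Y.r₀ ≤ ‖x - y‖ := by
  rw [mem_ball, dist_eq_norm] at hx hy
  exact sep_of_centers (t := Y.δ₀) (hx.le.trans Y.ε_le) (hy.le.trans Y.ε_le) (Y.sep_aa i j h) Y.δ₀_le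

theorem sep_BB {i j : Fin 3} (h : i ≠ j) {x y : E d} (hx : x ∈ closedBall (Y.c i) Y.δ₀)
    (hy : y ∈ closedBall (Y.c j) Y.δ₀) : Y.r₀ ≤ ‖x - y‖ := by
  rw [mem_closedBall, dist_eq_norm] at hx hy
  exact sep_of_centers (t := Y.δ₀) hx hy (Y.sep_cc i j h) Y.δ₀_le

theorem sep_AB {i j : Fin 3} {x y : E d} (hx : x ∈ ball (Y.a i) Y.ε)
    (hy : y ∈ closedBall (Y.c j) Y.δ₀) : Y.r₀ ≤ ‖x - y‖ := by
  rw [mem_ball, dist_eq_norm] at hx
  rw [mem_closedBall, dist_eq_norm] at hy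
  exact sep_of_centers (t := Y.δ₀) (hx.le.trans Y.ε_le) hy (Y.sep_ac i j) Y.δ₀_le

theorem not_AA {i j : Fin 3} (h : i ≠ j) {x : E d} (hx : x ∈ ball (Y.a i) Y.ε) :
    x ∉ ball (Y.a j) Y.ε := fun hy => by
  have := Y.sep_AA h hx hy
  have h0 := Y.r₀_pos
  simp at this
  linarith

theorem not_BB {i j : Fin 3} (h : i ≠ j) {x : E d} (hx : x ∈ closedBall (Y.c i) Y.δ₀) :
    x ∉ closedBall (Y.c j) Y.δ₀ := fun hy => by
  have := Y.sep_BB h hx hy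
  have h0 := Y.r₀_pos
  simp at this
  linarith

theorem not_AB {i j : Fin 3} {x : E d} (hx : x ∈ ball (Y.a i) Y.ε) :
    x ∉ closedBall (Y.c j) Y.δ₀ := fun hy => by
  have := Y.sep_AB hx hy
  have h0 := Y.r₀_pos
  simp at this
  linarith

end Sys

namespace Dens

variable {d : ℕ} {s : ℝ} {Y : Sys d s} (D : Dens Y)

theorem η_zero (i : Fin 3) {x : E d} (hx : x ∉ ball (Y.a i) Y.ε) : D.η i x = 0 := by
  by_contra h
  exact hx (D.η_supp i (subset_tsupport _ h))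

theorem θ_zero (i : Fin 3) {x : E d} (hx : x ∉ closedBall (Y.c (i + 1)) Y.δ₀) : D.θ i x = 0 := by
  by_contra h
  exact hx (D.θ_supp i h)

theorem θ'_zero (i : Fin 3) {x : E d} (hx : x ∉ closedBall (Y.c (i + 2)) Y.δ₀) : D.θ' i x = 0 := by
  by_contra h
  exact hx (D.θ'_supp i h)

theorem rho_nonneg (x : E d) : 0 ≤ D.rho x := by
  unfold rho
  exact Finset.sum_nonneg fun i _ => by positivity

theorem rho_smooth : ContDiff ℝ ∞ D.rho := by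
  unfold rho
  exact ContDiff.sum fun i _ =>
    (((D.η_smooth i).pow 2).add ((D.θ_smooth i).pow 2)).add ((D.θ'_smooth i).pow 2)

theorem rho_cpt : HasCompactSupport D.rho := by
  have h1 : ∀ i, HasCompactSupport (fun x => D.η i x ^ 2) := fun i =>
    (D.η_cpt i).comp_left (g := fun t : ℝ => t ^ 2) (by simp)
  have h2 : ∀ i, HasCompactSupport (fun x => D.θ i x ^ 2) := fun i =>
    (D.θ_cpt i).comp_left (g := fun t : ℝ => t ^ 2) (by simp)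
  have h3 : ∀ i, HasCompactSupport (fun x => D.θ' i x ^ 2) := fun i =>
    (D.θ'_cpt i).comp_left (g := fun t : ℝ => t ^ 2) (by simp)
  have h4 : ∀ i, HasCompactSupport (fun x => D.η i x ^ 2 + D.θ i x ^ 2 + D.θ' i x ^ 2) := fun i =>
    ((h1 i).add (h2 i)).add (h3 i)
  have e : D.rho = fun x => (D.η 0 x ^ 2 + D.θ 0 x ^ 2 + D.θ' 0 x ^ 2) +
      (D.η 1 x ^ 2 + D.θ 1 x ^ 2 + D.θ' 1 x ^ 2) + (D.η 2 x ^ 2 + D.θ 2 x ^ 2 + D.θ' 2 x ^ 2) := by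
    funext x
    simp [rho, Fin.sum_univ_three]
  rw [e]
  exact ((h4 0).add (h4 1)).add (h4 2)

/-- values of `rho` on the blobs -/
theorem rho_on_A (i : Fin 3) {x : E d} (hx : x ∈ ball (Y.a i) Y.ε) : D.rho x = D.η i x ^ 2 := by
  unfold rho
  rw [Finset.sum_eq_single i]
  · rw [D.θ_zero i (Y.not_AB hx), D.θ'_zero i (Y.not_AB hx)]; ring
  · intro j _ hj
    rw [D.θ_zero j (Y.not_AB hx), D.θ'_zero j (Y.not_AB hx), D.η_zero j (Y.not_AA (Ne.symm hj) hx)]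
    ring
  · intro h; exact absurd (Finset.mem_univ i) h

theorem η_zero_B (i j : Fin 3) {x : E d} (hx : x ∈ closedBall (Y.c j) Y.δ₀) : D.η i x = 0 :=
  D.η_zero i fun h => Y.not_AB h hx

theorem θ_zero_B (i j : Fin 3) (h : j ≠ i + 1) {x : E d} (hx : x ∈ closedBall (Y.c j) Y.δ₀) :
    D.θ i x = 0 := D.θ_zero i (Y.not_BB h hx)

theorem θ'_zero_B (i j : Fin 3) (h : j ≠ i + 2) {x : E d} (hx : x ∈ closedBall (Y.c j) Y.δ₀) :
    D.θ' i x = 0 := D.θ'_zero i (Y.not_BB h hx)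

theorem rho_on_B (j : Fin 3) {x : E d} (hx : x ∈ closedBall (Y.c j) Y.δ₀) :
    D.rho x = D.θ (j + 2) x ^ 2 + D.θ' (j + 1) x ^ 2 := by
  unfold rho
  rw [Fin.sum_univ_three, D.η_zero_B 0 j hx, D.η_zero_B 1 j hx, D.η_zero_B 2 j hx]
  fin_cases j
  · have hx' : x ∈ closedBall (Y.c 0) Y.δ₀ := hx
    rw [D.θ_zero_B 0 0 (by decide) hx', D.θ_zero_B 1 0 (by decide) hx',
      D.θ'_zero_B 0 0 (by decide) hx', D.θ'_zero_B 2 0 (by decide) hx']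
    show _ = D.θ 2 x ^ 2 + D.θ' 1 x ^ 2
    ring
  · have hx' : x ∈ closedBall (Y.c 1) Y.δ₀ := hx
    rw [D.θ_zero_B 1 1 (by decide) hx', D.θ_zero_B 2 1 (by decide) hx',
      D.θ'_zero_B 0 1 (by decide) hx', D.θ'_zero_B 1 1 (by decide) hx']
    show _ = D.θ 0 x ^ 2 + D.θ' 2 x ^ 2
    ring
  · have hx' : x ∈ closedBall (Y.c 2) Y.δ₀ := hx
    rw [D.θ_zero_B 0 2 (by decide) hx', D.θ_zero_B 2 2 (by decide) hx',
      D.θ'_zero_B 1 2 (by decide) hx', D.θ'_zero_B 2 2 (by decide) hx']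
    show _ = D.θ 1 x ^ 2 + D.θ' 0 x ^ 2
    ring

theorem rho_off_S {x : E d} (hx : x ∉ Y.S) : D.rho x = 0 := by
  have hA : ∀ i, x ∉ ball (Y.a i) Y.ε := fun i h => hx (Or.inl (mem_iUnion.2 ⟨i, h⟩))
  have hB : ∀ j, x ∉ closedBall (Y.c j) Y.δ₀ := fun j h => hx (Or.inr (mem_iUnion.2 ⟨j, h⟩))
  unfold rho
  refine Finset.sum_eq_zero fun i _ => ?_
  rw [D.η_zero i (hA i), D.θ_zero i (hB _), D.θ'_zero i (hB _)]
  ring

theorem sqrt_rho_eq (x : E d) : Real.sqrt (D.rho x) = D.η 0 x + D.η 1 x + D.η 2 x +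
    Real.sqrt (D.θ 0 x ^ 2 + D.θ' 2 x ^ 2) + Real.sqrt (D.θ' 0 x ^ 2 + D.θ 1 x ^ 2) +
    Real.sqrt (D.θ' 1 x ^ 2 + D.θ 2 x ^ 2) := by
  by_cases hS : x ∈ Y.S
  · rcases hS with hA | hB
    · obtain ⟨i, hi⟩ := mem_iUnion.1 hA
      rw [D.rho_on_A i hi, Real.sqrt_sq (D.η_nonneg i x)]
      have t : ∀ k, D.θ k x = 0 := fun k => D.θ_zero k (Y.not_AB hi)
      have t' : ∀ k, D.θ' k x = 0 := fun k => D.θ'_zero k (Y.not_AB hi)
      have e : ∀ k, k ≠ i → D.η k x = 0 := fun k hk => D.η_zero k (Y.not_AA (Ne.symm hk) hi)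
      simp only [t, t']
      fin_cases i
      · rw [e 1 (by decide), e 2 (by decide)]; simp
      · rw [e 0 (by decide), e 2 (by decide)]; simp
      · rw [e 0 (by decide), e 1 (by decide)]; simp
    · obtain ⟨j, hj⟩ := mem_iUnion.1 hB
      rw [D.rho_on_B j hj, D.η_zero_B 0 j hj, D.η_zero_B 1 j hj, D.η_zero_B 2 j hj]
      fin_cases j
      · have hx' : x ∈ closedBall (Y.c 0) Y.δ₀ := hj
        rw [D.θ_zero_B 0 0 (by decide) hx', D.θ_zero_B 1 0 (by decide) hx',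
          D.θ'_zero_B 0 0 (by decide) hx', D.θ'_zero_B 2 0 (by decide) hx']
        show Real.sqrt (D.θ 2 x ^ 2 + D.θ' 1 x ^ 2) = _
        rw [add_comm (D.θ 2 x ^ 2)]
        simp
      · have hx' : x ∈ closedBall (Y.c 1) Y.δ₀ := hj
        rw [D.θ_zero_B 1 1 (by decide) hx', D.θ_zero_B 2 1 (by decide) hx',
          D.θ'_zero_B 0 1 (by decide) hx', D.θ'_zero_B 1 1 (by decide) hx']
        show Real.sqrt (D.θ 0 x ^ 2 + D.θ' 2 x ^ 2) = _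
        simp
      · have hx' : x ∈ closedBall (Y.c 2) Y.δ₀ := hj
        rw [D.θ_zero_B 0 2 (by decide) hx', D.θ_zero_B 2 2 (by decide) hx',
          D.θ'_zero_B 1 2 (by decide) hx', D.θ'_zero_B 2 2 (by decide) hx']
        show Real.sqrt (D.θ 1 x ^ 2 + D.θ' 0 x ^ 2) = _
        rw [add_comm (D.θ 1 x ^ 2)]
        simp
  · have hA : ∀ i, x ∉ ball (Y.a i) Y.ε := fun i h => hS (Or.inl (mem_iUnion.2 ⟨i, h⟩))
    have hB : ∀ j, x ∉ closedBall (Y.c j) Y.δ₀ := fun j h => hS (Or.inr (mem_iUnion.2 ⟨j, h⟩))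
    rw [D.rho_off_S hS]
    have t : ∀ k, D.θ k x = 0 := fun k => D.θ_zero k (hB _)
    have t' : ∀ k, D.θ' k x = 0 := fun k => D.θ'_zero k (hB _)
    have e : ∀ k, D.η k x = 0 := fun k => D.η_zero k (hA k)
    simp [t, t', e]

theorem sqrt_rho_smooth : ContDiff ℝ ∞ (fun x => Real.sqrt (D.rho x)) := by
  have e : (fun x => Real.sqrt (D.rho x)) = fun x => D.η 0 x + D.η 1 x + D.η 2 x +
    Real.sqrt (D.θ 0 x ^ 2 + D.θ' 2 x ^ 2) + Real.sqrt (D.θ' 0 x ^ 2 + D.θ 1 x ^ 2) +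
    Real.sqrt (D.θ' 1 x ^ 2 + D.θ 2 x ^ 2) := funext D.sqrt_rho_eq
  rw [e]
  exact ((((D.η_smooth 0).add (D.η_smooth 1)).add (D.η_smooth 2)).add
    (sqrt_sq_add_sq (D.θ_smooth 0) (D.θ'_smooth 2) (D.θ'_nonneg 2) D.nest1)).add
    (sqrt_sq_add_sq (D.θ'_smooth 0) (D.θ_smooth 1) (D.θ_nonneg 1) D.nest2) |>.add
    (sqrt_sq_add_sq (D.θ'_smooth 1) (D.θ_smooth 2) (D.θ_nonneg 2) D.nest0)

end Dens
end Crest.Agent.MM
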