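import Crest.Agent.MM.Trans

/-! # SPLIT: an atomless finite measure can be split into pieces of prescribed masses.

`exists_subset`: with `f` from `unif`, take `S = f ⁻¹' Icc 0 w.toReal`.
`split`: induction on the finite index set (apply `exists_subset` to `α.restrict (already used)ᶜ`). -/

set_option autoImplicit false
open MeasureTheory Metric Set
open scoped ENNReal

namespace Crest.Agent.MM

theorem exists_subset {X : Type*} [MeasurableSpace X] [StandardBorelSpace X]
    (α : Measure X) [IsFiniteMeasure α] [NullSingletonClass α] (w : ℝ≥0∞) (hw : w ≤ α univ) :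
    ∃ S : Set X, MeasurableSet S ∧ α S = w := by
  obtain ⟨B, -, hB, hBw⟩ := exists_measurableSet_subset_measure_eq α MeasurableSet.univ hw
  exact ⟨B, hB, hBw⟩

theorem split_aux {X : Type*} [MeasurableSpace X] [StandardBorelSpace X]
    (α : Measure X) [IsFiniteMeasure α] [NullSingletonClass α] {κ : Type*} [Fintype κ]
    (w : κ → ℝ≥0∞) (s : Finset κ) (hw : ∑ k ∈ s, w k ≤ α univ) :
    ∃ P : κ → Set X, (∀ k, MeasurableSet (P k)) ∧ Pairwise (Function.onFun Disjoint P) ∧
      (∀ k ∈ s, α (P k) = w k) ∧ ∀ k ∉ s, P k = ∅ := by
  classical
  induction s using Finset.induction_on with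
  | empty =>
    exact ⟨fun _ => ∅, fun _ => MeasurableSet.empty, fun _ _ _ => disjoint_bot_left,
      fun k hk => absurd hk (Finset.notMem_empty k), fun _ _ => rfl⟩
  | insert a s ha ih =>
    rw [Finset.sum_insert ha] at hw
    obtain ⟨P, hPm, hPd, hPw, hPe⟩ := ih (le_trans le_add_self hw)
    set U : Set X := ⋃ k, P k with hU
    have hUm : MeasurableSet U := MeasurableSet.iUnion hPm
    have hUα : α U = ∑ k ∈ s, w k := by
      rw [hU, measure_iUnion hPd hPm, tsum_fintype]
      rw [← Finset.sum_subset (Finset.subset_univ s)]
      · exact Finset.sum_congr rfl hPw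
      · intro k _ hk
        rw [hPe k hk, measure_empty]
    have hUc : w a ≤ α Uᶜ := by
      rw [measure_compl hUm (measure_ne_top _ _), hUα]
      apply ENNReal.le_sub_of_add_le_right _ hw
      exact ne_top_of_le_ne_top (measure_ne_top α univ) (le_trans le_add_self hw)
    obtain ⟨B, hBU, hBm, hBw⟩ := exists_measurableSet_subset_measure_eq α hUm.compl hUc
    have hBP : ∀ k, Disjoint B (P k) := fun k =>
      Set.disjoint_of_subset hBU (subset_iUnion P k) disjoint_compl_left
    refine ⟨Function.update P a B, ?_, ?_, ?_, ?_⟩
    · intro k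
      by_cases hk : k = a
      · subst hk; simpa using hBm
      · simpa [Function.update_of_ne hk] using hPm k
    · intro i j hij
      simp only [Function.onFun]
      by_cases hi : i = a
      · subst hi
        rw [Function.update_self, Function.update_of_ne (Ne.symm hij)]
        exact hBP j
      · by_cases hj : j = a
        · subst hj
          rw [Function.update_self, Function.update_of_ne hi]
          exact (hBP i).symm
        · rw [Function.update_of_ne hi, Function.update_of_ne hj]
          exact hPd hij
    · intro k hk
      by_cases hka : k = a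
      · subst hka; rw [Function.update_self]; exact hBw
      · rw [Function.update_of_ne hka]
        exact hPw k ((Finset.mem_insert.1 hk).resolve_left hka)
    · intro k hk
      have hka : k ≠ a := fun h => hk (h ▸ Finset.mem_insert_self a s)
      rw [Function.update_of_ne hka]
      exact hPe k fun h => hk (Finset.mem_insert_of_mem h)

theorem split {X : Type*} [MeasurableSpace X] [StandardBorelSpace X]
    (α : Measure X) [IsFiniteMeasure α] [NullSingletonClass α] {κ : Type*} [Fintype κ]
    (w : κ → ℝ≥0∞) (hw : ∑ k, w k ≤ α univ) :
    ∃ P : κ → Set X, (∀ k, MeasurableSet (P k)) ∧ Pairwise (Function.onFun Disjoint P) ∧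
      ∀ k, α (P k) = w k := by
  obtain ⟨P, h1, h2, h3, -⟩ := split_aux α w Finset.univ hw
  exact ⟨P, h1, h2, fun k => h3 k (Finset.mem_univ k)⟩

end Crest.Agent.MM
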