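import Crest.Agent.MM.GeoDefs

/-!
# S0175: potentials (`Pot`) and the abstract system (`Sys`) — definitions.  FROZEN — do not edit.
-/

set_option autoImplicit false
open MeasureTheory Metric Set
open scoped ENNReal ContDiff RealInnerProductSpace

namespace Crest.Agent.MM

/-- everything the geometric part delivers: radii, curvature, optimal maps. -/
structure Pot {d : ℕ} {s : ℝ} (g : Geo d s) where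
  δ₀ : ℝ
  M : ℝ
  ε : ℝ
  β : Fin 3 → E d → E d
  β' : Fin 3 → E d → E d
  δ₀_pos : 0 < δ₀
  δ₀_le : δ₀ ≤ g.r₀ / 2
  M_nonneg : 0 ≤ M
  ε_pos : 0 < ε
  ε_le : ε ≤ δ₀
  nontight : ∀ l₁ l₂ l₃ : Lab, ¬ TightLab l₁ l₂ l₃ →
    ∀ x ∈ closedBall (g.ctr l₁) δ₀, ∀ y ∈ closedBall (g.ctr l₂) δ₀, ∀ z ∈ closedBall (g.ctr l₃) δ₀,
    x ≠ y → x ≠ z → y ≠ z → g.ub δ₀ l₁ x + g.ub δ₀ l₂ y + g.ub δ₀ l₃ z < G3 s x y z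
  β_meas : ∀ i, Measurable (β i)
  β'_meas : ∀ i, Measurable (β' i)
  β_center : ∀ i, β i (g.a i) = g.cc (i + 1)
  β'_center : ∀ i, β' i (g.a i) = g.cc (i + 2)
  β_smooth : ∀ i, ContDiffOn ℝ ∞ (β i) (ball (g.a i) ε)
  β'_smooth : ∀ i, ContDiffOn ℝ ∞ (β' i) (ball (g.a i) ε)
  β_maps : ∀ i, ∀ x ∈ ball (g.a i) ε, β i x ∈ closedBall (g.cc (i + 1)) δ₀
  β'_maps : ∀ i, ∀ x ∈ ball (g.a i) ε, β' i x ∈ closedBall (g.cc (i + 2)) δ₀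
  β_anti : ∀ i, ∃ K : ℝ, ∀ x ∈ ball (g.a i) ε, ∀ y ∈ ball (g.a i) ε, ‖x - y‖ ≤ K * ‖β i x - β i y‖
  β'_anti : ∀ i, ∃ K : ℝ, ∀ x ∈ ball (g.a i) ε, ∀ y ∈ ball (g.a i) ε, ‖x - y‖ ≤ K * ‖β' i x - β' i y‖
  min_le : ∀ i, ∀ x ∈ ball (g.a i) ε, ∀ y ∈ closedBall (g.cc (i + 1)) δ₀,
    ∀ z ∈ closedBall (g.cc (i + 2)) δ₀, g.H M i x (β i x) (β' i x) ≤ g.H M i x y z
  min_eq : ∀ i, ∀ x ∈ ball (g.a i) ε, ∀ y ∈ closedBall (g.cc (i + 1)) δ₀,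
    ∀ z ∈ closedBall (g.cc (i + 2)) δ₀, g.H M i x y z = g.H M i x (β i x) (β' i x) →
      y = β i x ∧ z = β' i x

namespace Pot

variable {d : ℕ} {s : ℝ} {g : Geo d s} (P : Pot g)

/-- the `c`-transform potential on `A_i` -/
noncomputable def uA (i : Fin 3) (x : E d) : ℝ := g.H P.M i x (P.β i x) (P.β' i x)

/-- the Kantorovich potential -/
noncomputable def u (x : E d) : ℝ :=
  (∑ i : Fin 3, (ball (g.a i) P.ε).indicator (P.uA i) x) +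
    ∑ j : Fin 3, (closedBall (g.cc j) P.δ₀).indicator (g.v P.M j) x

/-- the union of the six blobs -/
def S : Set (E d) := (⋃ i : Fin 3, ball (g.a i) P.ε) ∪ ⋃ j : Fin 3, closedBall (g.cc j) P.δ₀

end Pot

/-- the abstract output of the geometric part, input of the measure-theoretic part. -/
structure Sys (d : ℕ) (s : ℝ) where
  a : Fin 3 → E d
  c : Fin 3 → E d
  r₀ : ℝ
  δ₀ : ℝ
  ε : ℝ
  β : Fin 3 → E d → E d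
  β' : Fin 3 → E d → E d
  u : E d → ℝ
  K : ℝ
  s_pos : 0 < s
  r₀_pos : 0 < r₀
  δ₀_pos : 0 < δ₀
  δ₀_le : δ₀ ≤ r₀ / 2
  ε_pos : 0 < ε
  ε_le : ε ≤ δ₀
  sep_aa : ∀ i j, i ≠ j → 2 * r₀ ≤ ‖a i - a j‖
  sep_cc : ∀ i j, i ≠ j → 2 * r₀ ≤ ‖c i - c j‖
  sep_ac : ∀ i j, 2 * r₀ ≤ ‖a i - c j‖
  β_meas : ∀ i, Measurable (β i)
  β'_meas : ∀ i, Measurable (β' i)
  β_center : ∀ i, β i (a i) = c (i + 1)
  β'_center : ∀ i, β' i (a i) = c (i + 2)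
  β_smooth : ∀ i, ContDiffOn ℝ ∞ (β i) (ball (a i) ε)
  β'_smooth : ∀ i, ContDiffOn ℝ ∞ (β' i) (ball (a i) ε)
  β_maps : ∀ i, ∀ x ∈ ball (a i) ε, β i x ∈ closedBall (c (i + 1)) δ₀
  β'_maps : ∀ i, ∀ x ∈ ball (a i) ε, β' i x ∈ closedBall (c (i + 2)) δ₀
  β_anti : ∀ i, ∃ K : ℝ, ∀ x ∈ ball (a i) ε, ∀ y ∈ ball (a i) ε, ‖x - y‖ ≤ K * ‖β i x - β i y‖
  β'_anti : ∀ i, ∃ K : ℝ, ∀ x ∈ ball (a i) ε, ∀ y ∈ ball (a i) ε, ‖x - y‖ ≤ K * ‖β' i x - β' i y‖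
  u_meas : Measurable u
  u_bdd : ∀ x, |u x| ≤ K
  feas : ∀ x ∈ (⋃ i : Fin 3, ball (a i) ε) ∪ ⋃ j : Fin 3, closedBall (c j) δ₀,
    ∀ y ∈ (⋃ i : Fin 3, ball (a i) ε) ∪ ⋃ j : Fin 3, closedBall (c j) δ₀,
    ∀ z ∈ (⋃ i : Fin 3, ball (a i) ε) ∪ ⋃ j : Fin 3, closedBall (c j) δ₀,
    x ≠ y → x ≠ z → y ≠ z → u x + u y + u z ≤ G3 s x y z
  eq_imp : ∀ x ∈ (⋃ i : Fin 3, ball (a i) ε) ∪ ⋃ j : Fin 3, closedBall (c j) δ₀,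
    ∀ y ∈ (⋃ i : Fin 3, ball (a i) ε) ∪ ⋃ j : Fin 3, closedBall (c j) δ₀,
    ∀ z ∈ (⋃ i : Fin 3, ball (a i) ε) ∪ ⋃ j : Fin 3, closedBall (c j) δ₀,
    x ≠ y → x ≠ z → y ≠ z → u x + u y + u z = G3 s x y z →
    ∀ i, y ∈ ball (a i) ε → x = β i y ∨ x = β' i y
  tight_eq : ∀ i, ∀ x ∈ ball (a i) ε, u x + u (β i x) + u (β' i x) = G3 s x (β i x) (β' i x)

namespace Sys

variable {d : ℕ} {s : ℝ} (Y : Sys d s)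

/-- the union of the six blobs -/
def S : Set (E d) := (⋃ i : Fin 3, ball (Y.a i) Y.ε) ∪ ⋃ j : Fin 3, closedBall (Y.c j) Y.δ₀

end Sys

end Crest.Agent.MM
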