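import Crest.Agent.MM.RealUnif
import Crest.Agent.MM.RealQuant

/-! # TRANS: on a standard Borel space, an atomless finite measure can be pushed to Lebesgue on an interval, and to any
measure of the same mass.

Use `MeasureTheory.exists_measurableEmbedding_real` (`ι : X → ℝ`), `α.map ι` is atomless (`ι` injective), `unif_real`,
`quant_real`, and a measurable left inverse of `ι` (`MeasurableEmbedding.invFun`, `MeasurableEmbedding.measurable_invFun`,
`MeasurableEmbedding.leftInverse_invFun`...). -/

set_option autoImplicit false
open MeasureTheory Metric Set
open scoped ENNReal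

namespace Crest.Agent.MM

theorem unif {X : Type*} [MeasurableSpace X] [StandardBorelSpace X]
    (α : Measure X) [IsFiniteMeasure α] [NullSingletonClass α] :
    ∃ f : X → ℝ, Measurable f ∧ α.map f = volume.restrict (Icc 0 (α univ).toReal) := by
  refine exists_measurable_map_eq α _ ?_
  rw [Measure.restrict_apply MeasurableSet.univ, univ_inter, Real.volume_Icc, sub_zero,
    ENNReal.ofReal_toReal (measure_ne_top _ _)]

theorem trans {X : Type*} [MeasurableSpace X] [StandardBorelSpace X] [Nonempty X]
    (α β : Measure X) [IsFiniteMeasure α] [IsFiniteMeasure β] [NullSingletonClass α] (h : α univ = β univ) :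
    ∃ T : X → X, Measurable T ∧ α.map T = β :=
  exists_measurable_map_eq α β h

end Crest.Agent.MM
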